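import Crest.Agent.R339.Cls.Adm1

/-!
# Row 339 / Cls: `Adm` is preserved by the Cole–Hopf step
* `d2`: `D2_ch`, `D1_ch`: `tE (D2 f) + m Var ≤ β (1 - tE (D1 f)²) + β Var`, `sq_tE_le`.
* `low`: `D 2 (ch) x ≥ tE (D 2 f) x ≥ c ∫ exp (-C|x+√s g|) exp (m f(x+√s g)) / Zs ≥ c' exp (-C|x|)` by the
  Lipschitz bounds `|f(x+√s g) - f x| ≤ √s|g|`.
* `d3`: with `h = exp (m f)`, `h''/h = m D2 f + (m D1 f)²` has derivative `m (D3 f + 2 m D1 f D2 f) ≤ 0` on
  `[0,∞)` and is even, so `F(a,b) = h''(a) h(b) - h(a) h''(b) ≤ 0` for `|b| ≤ |a|`.  `refl_D2` and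
  `integral_gauss_eq_ker` + `integral_prod_mul` give `H₂(x₁) H₀(x₂) ≤ H₀(x₁) H₂(x₂)` for `|x₂| ≤ |x₁|`, so
  `H₂/H₀ = m D2 (ch) + (m D1 (ch))²` (`D1_ch_Hk`, `D2_ch_Hk`) is antitone on `[0,∞)`; its derivative is `≤ 0`
  (one-sided slopes from the right).  For `s ≤ 0`, `√s = 0` and `ch m s f = f`.
-/

set_option autoImplicit false
open MeasureTheory ProbabilityTheory Filter Topology

noncomputable section

namespace Crest.Agent.R339.Cls

variable {β m : ℝ} {f : ℝ → ℝ}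

/-- `h''/h` for `h = exp (m f)`. -/
def admQ (m : ℝ) (f : ℝ → ℝ) (x : ℝ) : ℝ := m * D 2 f x + (m * D 1 f x) ^ 2

theorem adm_Q_deriv (h : Reg f) (m x : ℝ) :
    HasDerivAt (admQ m f) (m * (D 3 f x + 2 * m * D 1 f x * D 2 f x)) x := by
  refine (((h.hasDerivAt 2 x).const_mul m).add (((h.hasDerivAt 1 x).const_mul m).pow 2)).congr_deriv ?_
  simp only [Nat.cast_ofNat, Nat.reduceAdd, Nat.add_one_sub_one, pow_one]
  ring

theorem adm_Q_le (h : Adm β m f) (hm : 0 < m) {a b : ℝ} (hab : |b| ≤ |a|) : admQ m f a ≤ admQ m f b := by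
  have e : ∀ y, admQ m f |y| = admQ m f y := fun y => by
    rcases abs_choice y with e | e <;> rw [e]
    simp only [admQ, h.D_neg]
    ring
  rw [← e a, ← e b]
  refine antitoneOn_of_deriv_nonpos (convex_Ici 0)
    (fun y _ => (adm_Q_deriv h.reg m y).continuousAt.continuousWithinAt)
    (fun y _ => (adm_Q_deriv h.reg m y).differentiableAt.differentiableWithinAt) (fun y hy => ?_)
    (abs_nonneg b) (abs_nonneg a) hab
  rw [(adm_Q_deriv h.reg m y).deriv]
  exact mul_nonpos_of_nonneg_of_nonpos hm.le (h.d3 y (interior_subset hy))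

theorem adm_eg_two {A B : ℝ → ℝ} (hA : EG A) (hB : EG B) :
    ∃ C : ℝ, ∀ y : ℝ × ℝ, |A y.1 * B y.2 - B y.1 * A y.2| ≤ C * Real.exp (C * (|y.1| + |y.2|)) := by
  obtain ⟨-, a, ha⟩ := hA
  obtain ⟨-, b, hb⟩ := hB
  have ha0 : 0 ≤ a := by simpa using (abs_nonneg _).trans (ha 0)
  have hb0 : 0 ≤ b := by simpa using (abs_nonneg _).trans (hb 0)
  have h1 : ∀ x, |A x| ≤ (a + b) * Real.exp ((a + b) * |x|) := fun x => (ha x).trans (by gcongr <;> linarith)
  have h2 : ∀ x, |B x| ≤ (a + b) * Real.exp ((a + b) * |x|) := fun x => (hb x).trans (by gcongr <;> linarith)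
  set K := a + b
  have hK : 0 ≤ K := by positivity
  refine ⟨2 * K ^ 2 + K, fun y => ?_⟩
  have e : K * Real.exp (K * |y.1|) * (K * Real.exp (K * |y.2|)) = K ^ 2 * Real.exp (K * (|y.1| + |y.2|)) := by
    rw [mul_add, Real.exp_add]; ring
  have h3 := mul_le_mul (h1 y.1) (h2 y.2) (abs_nonneg _) (by positivity)
  have h4 := mul_le_mul (h2 y.1) (h1 y.2) (abs_nonneg _) (by positivity)
  rw [e, ← abs_mul] at h3 h4
  calc _ ≤ 2 * K ^ 2 * Real.exp (K * (|y.1| + |y.2|)) := (abs_sub _ _).trans (by linarith)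
    _ ≤ _ := by gcongr <;> nlinarith [sq_nonneg K]

theorem adm_H (h : Adm β m f) (hm : 0 < m) {s : ℝ} (hs : 0 < s) {x₁ x₂ : ℝ} (hx : |x₂| ≤ |x₁|) :
    admQ m (ch m s f) x₁ ≤ admQ m (ch m s f) x₂ := by
  have e : ∀ y, admQ m (ch m s f) y = Hk m s f 2 y / Zs m s f y := fun y => by
    rw [admQ, D1_ch_Hk h.reg hm, D2_ch_Hk h.reg hm, Hk_zero, mul_inv_cancel_left₀ hm.ne', mul_inv_cancel_left₀ hm.ne']
    ring
  have hB : EG fun y => Real.exp (m * f y) := EG.exp_lip h.reg.lip m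
  have hA : EG fun y => admQ m f y * Real.exp (m * f y) :=
    (((h.reg.eg 2).const_mul m).add (((h.reg.eg 1).const_mul m).pow 2)).mul hB
  have e2 : ∀ y, Hk m s f 2 y = ∫ z, ker s (y - z) * (admQ m f z * Real.exp (m * f z)) := fun y => by
    rw [← integral_gauss_eq_ker hA.1 hs]
    simp only [Hk, h.reg.D2_exp, admQ]
  have e0 : ∀ y, Zs m s f y = ∫ z, ker s (y - z) * Real.exp (m * f z) := fun y => by
    rw [← integral_gauss_eq_ker hB.1 hs, Zs]
  have key := refl_D2 hs (F := fun y => admQ m f y.1 * Real.exp (m * f y.1) * Real.exp (m * f y.2) -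
      Real.exp (m * f y.1) * (admQ m f y.2 * Real.exp (m * f y.2)))
    (((hA.1.comp measurable_fst).mul (hB.1.comp measurable_snd)).sub
      ((hB.1.comp measurable_fst).mul (hA.1.comp measurable_snd)))
    (adm_eg_two hA hB) (fun a b => by ring)
    (fun a b => by
      simp only [h.even, le_antisymm (adm_Q_le h hm (abs_neg a).ge) (adm_Q_le h hm (abs_neg a).le),
        le_antisymm (adm_Q_le h hm (abs_neg b).ge) (adm_Q_le h hm (abs_neg b).le)])
    (fun a b hab => by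
      have := mul_le_mul_of_nonneg_right (adm_Q_le h hm hab)
        (mul_pos (Real.exp_pos (m * f a)) (Real.exp_pos (m * f b))).le
      linarith) hx
  have e3 : ∀ y : ℝ × ℝ, ker s (x₁ - y.1) * ker s (x₂ - y.2) *
      (admQ m f y.1 * Real.exp (m * f y.1) * Real.exp (m * f y.2) -
        Real.exp (m * f y.1) * (admQ m f y.2 * Real.exp (m * f y.2))) =
      ker s (x₁ - y.1) * (admQ m f y.1 * Real.exp (m * f y.1)) * (ker s (x₂ - y.2) * Real.exp (m * f y.2)) -
        ker s (x₁ - y.1) * Real.exp (m * f y.1) * (ker s (x₂ - y.2) * (admQ m f y.2 * Real.exp (m * f y.2))) :=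
    fun y => by ring
  simp only [e3] at key
  rw [Measure.volume_eq_prod, integral_sub ((hA.integrable_ker hs x₁).mul_prod (hB.integrable_ker hs x₂))
    ((hB.integrable_ker hs x₁).mul_prod (hA.integrable_ker hs x₂)),
    integral_prod_mul (fun z => ker s (x₁ - z) * (admQ m f z * Real.exp (m * f z)))
      (fun z => ker s (x₂ - z) * Real.exp (m * f z)),
    integral_prod_mul (fun z => ker s (x₁ - z) * Real.exp (m * f z))
      (fun z => ker s (x₂ - z) * (admQ m f z * Real.exp (m * f z))), ← e2, ← e2, ← e0, ← e0] at key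
  rw [e, e, div_le_div_iff₀ (Zs_pos h.reg.lip m s x₁) (Zs_pos h.reg.lip m s x₂)]
  linarith

theorem adm_d3 (h : Adm β m f) (hm : 0 < m) (s : ℝ) {x : ℝ} (hx : 0 ≤ x) :
    D 3 (ch m s f) x + 2 * m * D 1 (ch m s f) x * D 2 (ch m s f) x ≤ 0 := by
  rcases le_or_gt s 0 with hs | hs
  · have e : ch m s f = ch m 0 f := by
      funext y
      simp only [ch, Zs, Real.sqrt_eq_zero'.2 hs, Real.sqrt_zero]
    rw [e, ch_zero hm.ne']
    exact h.d3 x hx
  have h1 := (adm_Q_deriv (reg_ch h.reg hm s) m x).tendsto_slope_zero_right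
  have h2 := le_of_tendsto (b := 0) h1 (by
    filter_upwards [self_mem_nhdsWithin] with t ht
    have ht' : 0 < t := ht
    have := adm_H h hm hs (x₁ := x + t) (x₂ := x) (by rw [abs_of_nonneg hx, abs_of_nonneg (by linarith)]; linarith)
    rw [smul_eq_mul]
    exact mul_nonpos_of_nonneg_of_nonpos (inv_pos.2 ht').le (by linarith))
  exact nonpos_of_mul_nonpos_right h2 hm

theorem adm_ch (h : Adm β m f) (hm : 0 < m) (hmβ : m ≤ β) (s : ℝ) : Adm β m (ch m s f) :=
  ⟨reg_ch h.reg hm s, ch_even h.even m s, adm_d2 h hm hmβ s, adm_low h hm s,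
    fun _ hx => adm_d3 h hm s hx⟩

end Crest.Agent.R339.Cls
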