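import Crest.Agent.R339.Cls.Adm00

/-!
# Row 339 / Cls: elementary consequences of `Adm`, and the terminal condition
`D 1 (lc β) x = tanh (β x)`, `D 2 = β (1 - tanh²)`, `D 3 = -2β² tanh (1 - tanh²)`; all higher derivatives
are polynomials in `tanh (β x)` (induction: `D (k+1) (lc β) = P_k.eval ∘ tanh (β ·)`).
Write `tanh = sinh / cosh` (`Real.tanh_eq_sinh_div_cosh`) to differentiate.
`1 - tanh² u = 1/cosh² u ≥ exp (-2|u|)`.
-/

set_option autoImplicit false
open MeasureTheory ProbabilityTheory Filter Topology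

noncomputable section

namespace Crest.Agent.R339.Cls

variable {β m : ℝ} {f : ℝ → ℝ}

theorem adm0_one_sub (u : ℝ) : 1 - Real.tanh u ^ 2 = 1 / Real.cosh u ^ 2 := by
  have h := (Real.cosh_pos u).ne'
  rw [Real.tanh_eq_sinh_div_cosh]
  field_simp
  exact Real.cosh_sq_sub_sinh_sq u

theorem adm0_one_sub_pos (u : ℝ) : 0 < 1 - Real.tanh u ^ 2 := by
  have h := Real.cosh_pos u
  rw [adm0_one_sub]; positivity

theorem adm0_tanh (u : ℝ) : HasDerivAt Real.tanh (1 - Real.tanh u ^ 2) u := by
  have h := (Real.cosh_pos u).ne'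
  have e : Real.tanh = fun v => Real.sinh v / Real.cosh v := funext Real.tanh_eq_sinh_div_cosh
  have h1 := (Real.hasDerivAt_sinh u).div (Real.hasDerivAt_cosh u) h
  have h2 : (Real.cosh u * Real.cosh u - Real.sinh u * Real.sinh u) / Real.cosh u ^ 2 = 1 - Real.tanh u ^ 2 := by
    rw [Real.tanh_eq_sinh_div_cosh]; field_simp
  rw [h2] at h1
  conv => arg 1; rw [e]
  exact h1

theorem adm0_tanhb (β x : ℝ) : HasDerivAt (fun y => Real.tanh (β * y)) (β * (1 - Real.tanh (β * x) ^ 2)) x := by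
  have h := (adm0_tanh (β * x)).comp x ((hasDerivAt_id x).const_mul β)
  exact h.congr_deriv (by ring)

theorem adm0_lc (hβ : 0 < β) (x : ℝ) : HasDerivAt (lc β) (Real.tanh (β * x)) x := by
  have hc := Real.cosh_pos (β * x)
  have h1 : HasDerivAt (fun y => 2 * Real.cosh (β * y)) (2 * (Real.sinh (β * x) * (β * 1))) x :=
    ((Real.hasDerivAt_cosh (β * x)).comp x ((hasDerivAt_id x).const_mul β)).const_mul 2
  have h2 := (h1.log (by positivity)).div_const β
  refine h2.congr_deriv ?_
  rw [Real.tanh_eq_sinh_div_cosh]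
  field_simp

theorem adm0_abs_tanh (u : ℝ) : |Real.tanh u| ≤ 1 :=
  abs_le.2 ⟨(Real.neg_one_lt_tanh u).le, (Real.tanh_lt_one u).le⟩

theorem adm0_cont (β : ℝ) : Continuous fun x => Real.tanh (β * x) :=
  continuous_iff_continuousAt.2 fun x => (adm0_tanhb β x).continuousAt

theorem D1_lc (hβ : 0 < β) (x : ℝ) : D 1 (lc β) x = Real.tanh (β * x) := by
  rw [D, iteratedDeriv_one]; exact (adm0_lc hβ x).deriv

theorem D2_lc (hβ : 0 < β) (x : ℝ) : D 2 (lc β) x = β * (1 - Real.tanh (β * x) ^ 2) := by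
  have e : D 1 (lc β) = fun y => Real.tanh (β * y) := funext (D1_lc hβ)
  rw [D_succ 1, e]; exact (adm0_tanhb β x).deriv

theorem D3_lc (hβ : 0 < β) (x : ℝ) :
    D 3 (lc β) x = -(2 * β ^ 2 * Real.tanh (β * x) * (1 - Real.tanh (β * x) ^ 2)) := by
  have e : D 2 (lc β) = fun y => β * (1 - Real.tanh (β * y) ^ 2) := funext (D2_lc hβ)
  rw [D_succ 2, e]
  have h := (((adm0_tanhb β x).fun_pow 2).const_sub 1).const_mul β
  rw [h.deriv]
  simp only [Nat.cast_ofNat, Nat.add_one_sub_one, pow_one]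
  ring

theorem adm0_pd (β : ℝ) (P : Polynomial ℝ) (x : ℝ) : HasDerivAt (fun y => P.eval (Real.tanh (β * y)))
    ((P.derivative * (Polynomial.C β * (1 - Polynomial.X ^ 2))).eval (Real.tanh (β * x))) x := by
  have h := (P.hasDerivAt (Real.tanh (β * x))).comp x (adm0_tanhb β x)
  exact h.congr_deriv (by simp)

theorem adm0_poly (hβ : 0 < β) (k : ℕ) : ∃ P : Polynomial ℝ, D (k + 1) (lc β) = fun x => P.eval (Real.tanh (β * x)) := by
  induction k with
  | zero => exact ⟨Polynomial.X, funext fun x => by rw [Polynomial.eval_X]; exact D1_lc hβ x⟩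
  | succ k ih =>
    obtain ⟨P, hP⟩ := ih
    refine ⟨P.derivative * (Polynomial.C β * (1 - Polynomial.X ^ 2)), funext fun x => ?_⟩
    rw [D_succ, hP]
    exact (adm0_pd β P x).deriv

theorem adm_lc (hβ : 0 < β) : Adm β β (lc β) := by
  refine ⟨⟨?_, ?_, ?_⟩, ?_, ?_, ?_, ?_⟩
  · refine lipschitzWith_of_nnnorm_deriv_le (fun x => (adm0_lc hβ x).differentiableAt) fun x => ?_
    rw [(adm0_lc hβ x).deriv, ← NNReal.coe_le_coe, coe_nnnorm, Real.norm_eq_abs]
    exact adm0_abs_tanh _
  · intro k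
    cases k with
    | zero => rw [D, iteratedDeriv_zero]; exact fun x => (adm0_lc hβ x).differentiableAt
    | succ k =>
      obtain ⟨P, hP⟩ := adm0_poly hβ k
      rw [hP]
      exact fun x => (adm0_pd β P x).differentiableAt
  · intro k
    obtain ⟨P, hP⟩ := adm0_poly hβ k
    obtain ⟨C, hC⟩ := (isCompact_Icc (a := (-1 : ℝ)) (b := 1)).exists_bound_of_continuousOn
      (f := fun t => P.eval t) P.continuous.continuousOn
    refine ⟨C, fun x => ?_⟩
    rw [hP]
    exact hC _ (abs_le.1 (adm0_abs_tanh _))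
  · intro x
    simp only [lc, mul_neg, Real.cosh_neg]
  · intro x
    rw [D2_lc hβ, D1_lc hβ]
  · refine ⟨β, 2 * β, hβ, fun x => ?_⟩
    rw [D2_lc hβ, adm0_one_sub]
    refine mul_le_mul_of_nonneg_left ?_ hβ.le
    have hc := Real.cosh_pos (β * x)
    have h1 : Real.cosh (β * x) ≤ Real.exp (β * |x|) := by
      rw [Real.cosh_eq]
      have e1 : Real.exp (β * x) ≤ Real.exp (β * |x|) :=
        Real.exp_le_exp.2 (mul_le_mul_of_nonneg_left (le_abs_self x) hβ.le)
      have e2 : Real.exp (-(β * x)) ≤ Real.exp (β * |x|) :=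
        Real.exp_le_exp.2 (by rw [← mul_neg]; exact mul_le_mul_of_nonneg_left (neg_le_abs x) hβ.le)
      linarith
    have h2 : Real.exp (-(2 * β * |x|)) = 1 / Real.exp (β * |x|) ^ 2 := by
      rw [Real.exp_neg, ← Real.exp_nat_mul, one_div]
      congr 2
      push_cast; ring
    rw [h2]
    exact one_div_le_one_div_of_le (by positivity) (pow_le_pow_left₀ hc.le h1 2)
  · intro x _
    rw [D3_lc hβ, D2_lc hβ, D1_lc hβ]
    apply le_of_eq; ring

theorem adm0_ent (u : ℝ) : Real.log (Real.cosh u) ≤ u * Real.tanh u := by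
  have hd : ∀ v, HasDerivAt (fun v => Real.log (Real.cosh v) - v * Real.tanh v) (-(v * (1 - Real.tanh v ^ 2))) v := by
    intro v
    have h1 := (Real.hasDerivAt_cosh v).log (Real.cosh_pos v).ne'
    have h2 := h1.sub ((hasDerivAt_id v).mul (adm0_tanh v))
    refine h2.congr_deriv ?_
    rw [← Real.tanh_eq_sinh_div_cosh]
    simp only [id]; ring
  have key : ∀ v, 0 ≤ v → Real.log (Real.cosh v) ≤ v * Real.tanh v := by
    intro v hv
    have ha : AntitoneOn (fun v => Real.log (Real.cosh v) - v * Real.tanh v) (Set.Ici 0) := by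
      refine antitoneOn_of_deriv_nonpos (convex_Ici 0) (fun w _ => (hd w).continuousAt.continuousWithinAt)
        (fun w _ => (hd w).differentiableAt.differentiableWithinAt) fun w hw => ?_
      rw [interior_Ici] at hw
      rw [(hd w).deriv, neg_nonpos]
      exact mul_nonneg (le_of_lt hw) (adm0_one_sub_pos w).le
    have := ha (Set.mem_Ici.2 le_rfl) (Set.mem_Ici.2 hv) hv
    simp only [Real.cosh_zero, Real.log_one, zero_mul, sub_zero] at this
    linarith
  rcases le_total 0 u with h | h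
  · exact key u h
  · have := key (-u) (by linarith)
    rwa [Real.cosh_neg, Real.tanh_neg, neg_mul_neg] at this

/-- Entropy bound: `log (2 cosh u) - u tanh u ≤ log 2` (the function `log cosh u - u tanh u` vanishes at `0` and
has derivative `-u (1 - tanh² u)`). -/
theorem lc_sub_le (hβ : 0 < β) (x : ℝ) : lc β x ≤ Real.log 2 / β + x * Real.tanh (β * x) := by
  have hc := Real.cosh_pos (β * x)
  have h := adm0_ent (β * x)
  rw [lc, Real.log_mul (by norm_num) hc.ne', add_div]
  have : Real.log (Real.cosh (β * x)) / β ≤ x * Real.tanh (β * x) := by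
    rw [div_le_iff₀ hβ]; linarith
  linarith

theorem adm0_ut (u : ℝ) : 0 ≤ u * Real.tanh u ∧ |u| - 1 ≤ u * Real.tanh u := by
  have key : ∀ v, 0 ≤ v → 0 ≤ v * Real.tanh v ∧ v - 1 ≤ v * Real.tanh v := by
    intro v hv
    have hp := Real.exp_pos v
    have hn := Real.exp_pos (-v)
    have h1 : Real.exp (-v) ≤ Real.exp v := Real.exp_le_exp.2 (by linarith)
    rw [Real.tanh_eq]
    refine ⟨mul_nonneg hv (div_nonneg (by linarith) (by positivity)), ?_⟩
    rw [← mul_div_assoc, le_div_iff₀ (by positivity)]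
    have h2 : 2 * v ≤ Real.exp v * Real.exp v := by
      rw [← Real.exp_add]; linarith [Real.add_one_le_exp (v + v)]
    have h3 : Real.exp v * Real.exp (-v) = 1 := by rw [← Real.exp_add]; simp
    have h4 : 2 * v * Real.exp (-v) ≤ Real.exp v := by
      calc 2 * v * Real.exp (-v) ≤ Real.exp v * Real.exp v * Real.exp (-v) := mul_le_mul_of_nonneg_right h2 hn.le
        _ = Real.exp v := by rw [mul_assoc, h3, mul_one]
    nlinarith
  rcases le_total 0 u with h | h
  · rw [abs_of_nonneg h]; exact key u h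
  · have := key (-u) (by linarith)
    rw [Real.tanh_neg, neg_mul_neg] at this
    rw [abs_of_nonpos h]; exact this

/-- With `R = 2β + 1/β`, `κ = 1 - tanh² (βR)`: `1 - tanh²(βx) ≥ κ (1 - x tanh(βx)/(2β))` for all `x`
(for `|x| ≥ R` use `u tanh u ≥ |u| - 1`); integrate; `c = κ/2`. -/
theorem top_bound (hβ : 0 < β) : ∃ c : ℝ, 0 < c ∧ ∀ ν : Measure ℝ, Gd ν →
    ∫ x, x * Real.tanh (β * x) ∂ν ≤ β → ∫ x, Real.tanh (β * x) ^ 2 ∂ν ≤ 1 - c := by
  obtain ⟨κ, hκ⟩ : ∃ κ, κ = 1 - Real.tanh (β * (2 * β + 1 / β)) ^ 2 := ⟨_, rfl⟩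
  have hκ0 : 0 < κ := hκ ▸ adm0_one_sub_pos _
  have pt : ∀ x, Real.tanh (β * x) ^ 2 ≤ (1 - κ) + κ / (2 * β) * (x * Real.tanh (β * x)) := by
    intro x
    have h0 := adm0_ut (β * x)
    have hx : x * Real.tanh (β * x) = β * x * Real.tanh (β * x) / β := by field_simp
    rcases le_total |x| (2 * β + 1 / β) with h | h
    · have h1 : κ ≤ 1 - Real.tanh (β * x) ^ 2 := by
        rw [hκ, adm0_one_sub, adm0_one_sub]
        have hc := Real.cosh_pos (β * x)
        refine one_div_le_one_div_of_le (by positivity) (pow_le_pow_left₀ hc.le ?_ 2)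
        rw [Real.cosh_le_cosh, abs_mul, abs_mul]
        exact mul_le_mul_of_nonneg_left (h.trans (le_abs_self _)) (abs_nonneg _)
      have h2 : 0 ≤ κ / (2 * β) * (x * Real.tanh (β * x)) := by
        rw [hx]; exact mul_nonneg (by positivity) (div_nonneg h0.1 hβ.le)
      linarith
    · have h1 : 2 * β ≤ x * Real.tanh (β * x) := by
        rw [hx, le_div_iff₀ hβ]
        have h3 : β * (2 * β + 1 / β) ≤ |β * x| := by
          rw [abs_mul, abs_of_pos hβ]; exact mul_le_mul_of_nonneg_left h hβ.le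
        have h4 : β * (2 * β + 1 / β) = 2 * β * β + 1 := by field_simp
        linarith [h0.2]
      have h2 : κ ≤ κ / (2 * β) * (x * Real.tanh (β * x)) := by
        calc κ = κ / (2 * β) * (2 * β) := by field_simp
          _ ≤ _ := mul_le_mul_of_nonneg_left h1 (by positivity)
      linarith [adm0_one_sub_pos (β * x)]
  refine ⟨κ / 2, by positivity, fun ν hν hb => ?_⟩
  have := hν.1
  have hT : EG fun x => Real.tanh (β * x) := EG.of_bdd (adm0_cont β).measurable fun x => adm0_abs_tanh _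
  have i1 : Integrable (fun x => Real.tanh (β * x) ^ 2) ν := hν.integrable (hT.pow 2)
  have i2 : Integrable (fun x => x * Real.tanh (β * x)) ν := hν.integrable (eg_id.mul hT)
  have h := integral_mono i1 ((integrable_const (1 - κ)).add (i2.const_mul (κ / (2 * β)))) pt
  simp only [Pi.add_apply] at h
  rw [integral_add (integrable_const _) (i2.const_mul _), integral_const, integral_const_mul] at h
  simp only [probReal_univ, smul_eq_mul, one_mul] at h
  have h5 : κ / (2 * β) * ∫ x, x * Real.tanh (β * x) ∂ν ≤ κ / (2 * β) * β :=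
    mul_le_mul_of_nonneg_left hb (by positivity)
  have h6 : κ / (2 * β) * β = κ / 2 := by field_simp
  linarith

end Crest.Agent.R339.Cls
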