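import Crest.Agent.R339.Cls.Reg

/-!
# Row 339 / Cls: elementary consequences of `Adm`, and the terminal condition
`D 1 (lc β) x = tanh (β x)`, `D 2 = β (1 - tanh²)`, `D 3 = -2β² tanh (1 - tanh²)`; all higher derivatives
are polynomials in `tanh (β x)` (induction: `D (k+1) (lc β) = P_k.eval ∘ tanh (β ·)`).
Write `tanh = sinh / cosh` (`Real.tanh_eq_sinh_div_cosh`) to differentiate.
`1 - tanh² u = 1/cosh² u ≥ exp (-2|u|)`.
-/

set_option autoImplicit false
open MeasureTheory ProbabilityTheory Filter Topology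

noncomputable section

namespace Crest.Agent.R339.Cls

variable {β m : ℝ} {f : ℝ → ℝ}

theorem Adm.D2_pos (h : Adm β m f) (x : ℝ) : 0 < D 2 f x := by
  obtain ⟨c, C, hc, h⟩ := h.low
  exact lt_of_lt_of_le (by positivity) (h x)

theorem Adm.D2_le (h : Adm β m f) (hβ : 0 ≤ β) (x : ℝ) : D 2 f x ≤ β := by
  nlinarith [h.d2 x, mul_nonneg hβ (sq_nonneg (D 1 f x))]

/-- `iteratedDeriv_comp_neg`. -/
theorem Adm.D_neg (h : Adm β m f) (k : ℕ) (x : ℝ) : D k f (-x) = (-1) ^ k * D k f x := by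
  have h1 := iteratedDeriv_comp_neg k f (-x)
  rw [show (fun x => f (-x)) = f from funext h.even, neg_neg, smul_eq_mul] at h1
  exact h1

theorem Adm.D1_zero (h : Adm β m f) : D 1 f 0 = 0 := by
  have := h.D_neg 1 0
  rw [neg_zero] at this
  linarith

theorem Adm.D1_strictMono (h : Adm β m f) : StrictMono (D 1 f) := by
  refine strictMono_of_deriv_pos fun x => ?_
  rw [← D_succ]
  exact h.D2_pos x

theorem Adm.D1_nonneg (h : Adm β m f) {x : ℝ} (hx : 0 ≤ x) : 0 ≤ D 1 f x := by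
  rw [← h.D1_zero]
  exact h.D1_strictMono.monotone hx

theorem Adm.D3_nonpos (h : Adm β m f) (hm : 0 ≤ m) {x : ℝ} (hx : 0 ≤ x) : D 3 f x ≤ 0 := by
  have := mul_nonneg (mul_nonneg (mul_nonneg zero_le_two hm) (h.D1_nonneg hx)) (h.D2_pos x).le
  linarith [h.d3 x hx]

theorem adm00_anti (h : Adm β m f) (hm : 0 ≤ m) : AntitoneOn (D 2 f) (Set.Ici 0) :=
  antitoneOn_of_deriv_nonpos (convex_Ici 0) (h.reg.diff 2).continuous.continuousOn (h.reg.diff 2).differentiableOn
    fun x hx => by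
      rw [← D_succ]
      exact h.D3_nonpos hm (interior_subset hx)

/-- `D 1 f` is concave on `[0,∞)` and vanishes at `0`: `x ↦ D 1 f x - x D 2 f x` is monotone there. -/
theorem Adm.mul_D2_le (h : Adm β m f) (hm : 0 ≤ m) {x : ℝ} (hx : 0 ≤ x) : x * D 2 f x ≤ D 1 f x := by
  rcases hx.eq_or_lt with rfl | hx'
  · rw [zero_mul, h.D1_zero]
  · obtain ⟨c, hc, e⟩ := exists_hasDerivAt_eq_slope (D 1 f) (D 2 f) hx' (h.reg.diff 1).continuous.continuousOn
      fun y _ => h.reg.hasDerivAt 1 y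
    rw [h.D1_zero, sub_zero, sub_zero, eq_div_iff hx'.ne'] at e
    rw [← e, mul_comm]
    exact mul_le_mul_of_nonneg_right (adm00_anti h hm hc.1.le hx hc.2.le) hx

/-- `D 1 f x / x` is antitone on `(0,∞)`. -/
theorem Adm.D1_ang (h : Adm β m f) (hm : 0 ≤ m) {x y : ℝ} (hy : 0 < y) (hxy : y ≤ x) :
    y * D 1 f x ≤ x * D 1 f y := by
  have hx : 0 < x := hy.trans_le hxy
  have hc : ConcaveOn ℝ (Set.Ici 0) (D 1 f) :=
    AntitoneOn.concaveOn_of_deriv (convex_Ici 0) (h.reg.diff 1).continuous.continuousOn (h.reg.diff 1).differentiableOn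
      (by
        rw [← D_succ]
        exact (adm00_anti h hm).mono interior_subset)
  have := hc.2 (Set.mem_Ici.2 hx.le) (Set.mem_Ici.2 le_rfl) (div_pos hy hx).le (sub_nonneg.2 ((div_le_one hx).2 hxy))
    (add_sub_cancel _ _)
  simp only [smul_eq_mul, h.D1_zero, mul_zero, add_zero, div_mul_cancel₀ y hx.ne'] at this
  rwa [div_mul_eq_mul_div, div_le_iff₀' hx] at this

theorem Adm.mono (h : Adm β m f) {m' : ℝ} (h' : m' ≤ m) : Adm β m' f := by
  refine ⟨h.reg, h.even, h.d2, h.low, fun x hx => ?_⟩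
  have := mul_nonneg (sub_nonneg.2 h') (mul_nonneg (h.D1_nonneg hx) (h.D2_pos x).le)
  nlinarith [h.d3 x hx]

end Crest.Agent.R339.Cls
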