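import Crest.Agent.R339.Cls.Base

/-!
# Row 339 / Cls: the heat kernel versus Gaussian integrals
`γ1.map (x + √s ·) = gaussianReal x s` (`gaussianReal_map_const_mul`, `gaussianReal_map_const_add`),
`integral_gaussianReal_eq_integral_smul`, `gaussianPDFReal`; then Fubini (`integral_integral_swap`).
-/

set_option autoImplicit false
open MeasureTheory ProbabilityTheory Filter Topology

noncomputable section

namespace Crest.Agent.R339.Cls

variable {s : ℝ} {F : ℝ → ℝ} {μ : Measure ℝ}

theorem ker_pos (hs : 0 < s) (z : ℝ) : 0 < ker s z := by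
  unfold ker
  have := Real.pi_pos
  positivity

theorem ker_neg (s z : ℝ) : ker s (-z) = ker s z := by
  simp [ker]

theorem hasDerivAt_ker (s z : ℝ) : HasDerivAt (ker s) (-(z / s) * ker s z) z := by
  have h := ((((hasDerivAt_id' z).pow 2).neg.div_const (2 * s)).exp).const_mul (√(2 * Real.pi * s))⁻¹
  refine h.congr_deriv ?_
  simp only [ker, Pi.neg_apply, Pi.pow_apply]
  rcases eq_or_ne s 0 with rfl | hs
  · simp
  · field_simp
    ring

theorem ker_cont (s : ℝ) : Continuous (ker s) :=
  continuous_iff_continuousAt.2 fun z => (hasDerivAt_ker s z).continuousAt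

theorem ker_meas (s x : ℝ) : Measurable fun y => ker s (x - y) :=
  ((ker_cont s).comp (continuous_const.sub continuous_id)).measurable

theorem ker_map (hs : 0 < s) (x : ℝ) :
    γ1.map (fun g => x + √s * g) = volume.withDensity fun y => ENNReal.ofReal (ker s (x - y)) := by
  rw [show (fun g => x + √s * g) = (x + ·) ∘ (√s * ·) from rfl,
    ← Measure.map_map (by fun_prop) (by fun_prop), gaussianReal_map_const_mul, gaussianReal_map_const_add,
    gaussianReal_of_var_ne_zero]
  · congr 1
    funext y
    simp only [gaussianPDF, gaussianPDFReal, ker, mul_one, NNReal.coe_mk, Real.sq_sqrt hs.le, mul_zero, zero_add]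
    rw [← neg_sub x y, neg_sq]
  · rw [mul_one, ← NNReal.coe_ne_zero, NNReal.coe_mk, Real.sq_sqrt hs.le]
    exact hs.ne'

theorem EG.integrable_ker (hF : EG F) (hs : 0 < s) (x : ℝ) :
    Integrable fun y => ker s (x - y) * F y := by
  have h := hF.integrable_gauss s x
  rw [show (fun g => F (x + √s * g)) = F ∘ fun g => x + √s * g from rfl,
    ← integrable_map_measure hF.1.aestronglyMeasurable (by fun_prop), ker_map hs,
    integrable_withDensity_iff ((ker_meas s x).ennreal_ofReal) (by simp)] at h
  refine h.congr (.of_forall fun y => ?_)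
  simp only [ENNReal.toReal_ofReal (ker_pos hs _).le, mul_comm]

theorem integral_gauss_eq_ker (hF : Measurable F) (hs : 0 < s) (x : ℝ) :
    ∫ g, F (x + √s * g) ∂γ1 = ∫ y, ker s (x - y) * F y := by
  rw [← integral_map (φ := fun g => x + √s * g) (by fun_prop) hF.aestronglyMeasurable, ker_map hs,
    integral_withDensity_eq_integral_toReal_smul ((ker_meas s x).ennreal_ofReal) (by simp)]
  simp only [ENNReal.toReal_ofReal (ker_pos hs _).le, smul_eq_mul]

theorem integral_smo (hμ : Ge μ) (hF : EG F) (hs : 0 < s) :
    Integrable (fun y => F y * smo μ s y) ∧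
      ∫ x, ∫ g, F (x + √s * g) ∂γ1 ∂μ = ∫ y, F y * smo μ s y := by
  have := hμ.1
  have hA : EG fun y => |F y| := ⟨hF.1.abs, by simpa only [abs_abs] using hF.2⟩
  have hm : Measurable fun p : ℝ × ℝ => ker s (p.1 - p.2) * F p.2 :=
    ((ker_cont s).comp (continuous_fst.sub continuous_snd)).measurable.mul (hF.1.comp measurable_snd)
  have hi : Integrable (fun p : ℝ × ℝ => ker s (p.1 - p.2) * F p.2) (μ.prod volume) := by
    refine (integrable_prod_iff hm.aestronglyMeasurable).2 ⟨.of_forall fun x => hF.integrable_ker hs x, ?_⟩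
    refine (hμ.integrable (hA.gauss s)).congr (.of_forall fun x => ?_)
    simp only [integral_gauss_eq_ker hA.1 hs, Real.norm_eq_abs, abs_mul, abs_of_pos (ker_pos hs _)]
  have e : ∀ y, ∫ x, ker s (x - y) * F y ∂μ = F y * smo μ s y := fun y => by
    rw [integral_mul_const, mul_comm, smo]
    simp only [← ker_neg s (y - _), neg_sub]
  refine ⟨hi.integral_prod_right.congr (.of_forall e), ?_⟩
  simp only [integral_gauss_eq_ker hF.1 hs, ← e]
  exact integral_integral_swap hi

/-- The law after a tilted step has the density `smo (unt ν) · exp (m f)` (`Measure.ext` via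
`lintegral`, or `ext_of_forall_integral_eq_of_IsFiniteMeasure` and `integral_adv`). -/
theorem adv_eq_density {m : ℝ} {f : ℝ → ℝ} {ν : Measure ℝ} (hf : LipschitzWith 1 f) (hν : Gd ν)
    (hs : 0 < s) :
    adv m s f ν = volume.withDensity fun y =>
      ENNReal.ofReal (smo (unt m s f ν) s y * Real.exp (m * f y)) := by
  have := (gd_adv hf hν m s).1
  ext A hA
  have hI : EG (A.indicator fun _ => (1 : ℝ)) :=
    EG.of_bdd (measurable_const.indicator hA) (C := 1) fun y => by by_cases h : y ∈ A <;> simp [h]
  have h₁ := integral_adv hf hν hI m s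
  obtain ⟨h₂, h₃⟩ := integral_smo (ge_unt hf hν m s) (hI.mul (EG.exp_lip hf m)) hs
  have e : (fun y => A.indicator (fun _ => (1 : ℝ)) y * Real.exp (m * f y) * smo (unt m s f ν) s y) =
      A.indicator fun y => smo (unt m s f ν) s y * Real.exp (m * f y) := by
    funext y
    by_cases h : y ∈ A <;> simp [h, mul_comm]
  rw [integral_unt hf, e, integral_indicator hA] at h₃
  rw [e, integrable_indicator_iff hA] at h₂
  rw [withDensity_apply _ hA, ← ofReal_integral_eq_lintegral_ofReal h₂ (.of_forall fun y =>
    mul_nonneg (integral_nonneg fun x => (ker_pos hs _).le) (Real.exp_pos _).le), ← h₃]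
  rw [integral_indicator hA, setIntegral_const, smul_eq_mul, mul_one] at h₁
  rw [← ofReal_measureReal, h₁]
  rfl

end Crest.Agent.R339.Cls
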