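import Crest.Agent.R339.Cls.Refl1

/-!
# Row 339 / Cls: reflection lemmas in the plane
`refl_half`: if `σ` preserves Lebesgue measure on `ℝ²` and `F ∘ σ = -F`, then
`∫ k F = ½ ∫ (k - k∘σ) F`.  `ker s (x-y)` products are `c · exp(-|x|²/2s) exp(-|y|²/2s) exp(x·y/s)`.
* `refl_D2`: group generated by `(y₁,y₂) ↦ (y₂,y₁)`, `(y₁,y₂) ↦ (-y₁,-y₂)` (under which `F` is invariant);
  signed kernel sum `2cosh((x₁y₁+x₂y₂)/s) - 2cosh((x₁y₂+x₂y₁)/s)` has the sign of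
  `(x₁²-x₂²)(y₁²-y₂²)` (`Real.cosh_le_cosh`, `sq_le_sq`).
* `refl_B2`: signed sum over the 8 signed permutations
  `4[sinh(x₁y₁/s) sinh(x₂y₂/s) - sinh(x₁y₂/s) sinh(x₂y₁/s)]`, use `sinh_tp2` and the (anti)symmetries.
* `sinh_tp2`: `t ↦ sinh(a t)/sinh(b t)` is monotone on `(0,∞)` for `a ≥ b > 0` (derivative sign:
  `a coth(at) ≥ b coth(bt)` because `u ↦ u coth u` is monotone, i.e. `sinh u cosh u ≥ u`).
-/

set_option autoImplicit false
open MeasureTheory ProbabilityTheory Filter Topology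

noncomputable section

namespace Crest.Agent.R339.Cls


theorem refl_sign {s : ℝ} (hs : 0 < s) {F : ℝ × ℝ → ℝ}
    (h1 : ∀ a b, F (b, a) = -F (a, b)) (h2 : ∀ a b, F (-a, b) = -F (a, b))
    (h3 : ∀ a b, 0 < b → b < a → F (a, b) ≤ 0) {x₁ x₂ : ℝ} (hx2 : 0 ≤ x₂) (hx : x₂ ≤ x₁) (a b : ℝ) :
    (Real.sinh (x₁ * a / s) * Real.sinh (x₂ * b / s) - Real.sinh (x₂ * a / s) * Real.sinh (x₁ * b / s)) *
      F (a, b) ≤ 0 := by
  set P : ℝ → ℝ → ℝ := fun a b =>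
    (Real.sinh (x₁ * a / s) * Real.sinh (x₂ * b / s) - Real.sinh (x₂ * a / s) * Real.sinh (x₁ * b / s)) * F (a, b)
    with hP
  have p1 : ∀ a b, P b a = P a b := by
    intro a b; simp only [hP]; rw [h1 a b]; ring
  have p2 : ∀ a b, P (-a) b = P a b := by
    intro a b; simp only [hP]; rw [h2 a b]; simp only [mul_neg, neg_div, Real.sinh_neg]; ring
  have p3 : ∀ a b, P |a| b = P a b := by
    intro a b
    rcases abs_choice a with h | h
    · rw [h]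
    · rw [h, p2]
  have q1 : ∀ a b, 0 ≤ b → b ≤ a → P a b ≤ 0 := by
    intro a b hb hab
    rcases hb.eq_or_lt with h | hb'
    · subst h; simp [hP]
    rcases hab.eq_or_lt with h | hab'
    · subst h; simp only [hP]; rw [mul_comm (Real.sinh (x₁ * b / s)), sub_self, zero_mul]
    refine mul_nonpos_of_nonneg_of_nonpos (sub_nonneg.2 ?_) (h3 a b hb' hab')
    have h := sinh_tp2 hx hx2 (div_le_div_of_nonneg_right hab hs.le) (div_nonneg hb hs.le)
    simp only [← mul_div_assoc] at h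
    rw [mul_comm]
    exact h
  have q2 : ∀ a b, 0 ≤ a → 0 ≤ b → P a b ≤ 0 := by
    intro a b ha hb
    rcases le_total b a with h | h
    · exact q1 a b hb h
    · rw [p1]; exact q1 b a ha h
  show P a b ≤ 0
  rw [← p3, p1, ← p3]
  exact q2 _ _ (abs_nonneg _) (abs_nonneg _)

theorem refl_B2 {s : ℝ} (hs : 0 < s) {F : ℝ × ℝ → ℝ} (hm : Measurable F)
    (hb : ∃ C : ℝ, ∀ y, |F y| ≤ C * Real.exp (C * (|y.1| + |y.2|)))
    (h1 : ∀ a b, F (b, a) = -F (a, b)) (h2 : ∀ a b, F (-a, b) = -F (a, b))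
    (h3 : ∀ a b, 0 < b → b < a → F (a, b) ≤ 0) {x₁ x₂ : ℝ} (hx2 : 0 ≤ x₂) (hx : x₂ ≤ x₁) :
    ∫ y : ℝ × ℝ, ker s (x₁ - y.1) * ker s (x₂ - y.2) * F y ≤ 0 := by
  show refl1_I s F x₁ x₂ ≤ 0
  have sw := refl1_swap s h1
  have n1 := refl1_neg1 s h2
  have n2 : ∀ u v, refl1_I s F u (-v) = -refl1_I s F u v := by
    intro u v; rw [sw, n1, sw v u]
  have e : 8 * refl1_I s F x₁ x₂ =
      ((refl1_I s F x₁ x₂ + refl1_I s F (-x₁) (-x₂)) - (refl1_I s F (-x₁) x₂ + refl1_I s F x₁ (-x₂))) -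
      ((refl1_I s F x₂ x₁ + refl1_I s F (-x₂) (-x₁)) - (refl1_I s F (-x₂) x₁ + refl1_I s F x₂ (-x₁))) := by
    simp only [n1, n2]
    rw [sw x₁ x₂]; ring
  have i := refl1_int hs hm hb
  suffices h : 8 * refl1_I s F x₁ x₂ ≤ 0 by linarith
  have hI : ∫ y : ℝ × ℝ,
      (((ker s (x₁ - y.1) * ker s (x₂ - y.2) * F y + ker s (-x₁ - y.1) * ker s (-x₂ - y.2) * F y) -
        (ker s (-x₁ - y.1) * ker s (x₂ - y.2) * F y + ker s (x₁ - y.1) * ker s (-x₂ - y.2) * F y)) -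
      ((ker s (x₂ - y.1) * ker s (x₁ - y.2) * F y + ker s (-x₂ - y.1) * ker s (-x₁ - y.2) * F y) -
        (ker s (-x₂ - y.1) * ker s (x₁ - y.2) * F y + ker s (x₂ - y.1) * ker s (-x₁ - y.2) * F y))) =
      ((refl1_I s F x₁ x₂ + refl1_I s F (-x₁) (-x₂)) - (refl1_I s F (-x₁) x₂ + refl1_I s F x₁ (-x₂))) -
      ((refl1_I s F x₂ x₁ + refl1_I s F (-x₂) (-x₁)) - (refl1_I s F (-x₂) x₁ + refl1_I s F x₂ (-x₁))) := by
    unfold refl1_I
    rw [integral_sub, integral_sub, integral_sub, integral_add, integral_add, integral_add, integral_add]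
    all_goals first
      | exact i _ _
      | exact (i _ _).add (i _ _)
      | exact ((i _ _).add (i _ _)).sub ((i _ _).add (i _ _))
  rw [e, ← hI]
  refine integral_nonpos fun y => ?_
  obtain ⟨a, b⟩ := y
  simp only [Pi.zero_apply, refl1_ker hs, refl1_ker_neg]
  have hA : 0 ≤ ker s x₁ * ker s x₂ * Real.exp (-a ^ 2 / (2 * s)) * Real.exp (-b ^ 2 / (2 * s)) := by
    have k1 := refl1_ker_nonneg s x₁
    have k2 := refl1_ker_nonneg s x₂
    positivity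
  have h := mul_nonpos_of_nonneg_of_nonpos hA (refl_sign hs h1 h2 h3 hx2 hx a b)
  simp only [Real.sinh_eq] at h
  simp only [neg_mul, neg_div] at h ⊢
  linarith

end Crest.Agent.R339.Cls
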