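import Crest.Agent.R339.Cls.Adm0
import Crest.Agent.R339.Cls.Refl
import Crest.Agent.R339.Cls.Ker

/-!
# Row 339 / Cls: `Adm` is preserved by the Cole–Hopf step
* `d2`: `D2_ch`, `D1_ch`: `tE (D2 f) + m Var ≤ β (1 - tE (D1 f)²) + β Var`, `sq_tE_le`.
* `low`: `D 2 (ch) x ≥ tE (D 2 f) x ≥ c ∫ exp (-C|x+√s g|) exp (m f(x+√s g)) / Zs ≥ c' exp (-C|x|)` by the
  Lipschitz bounds `|f(x+√s g) - f x| ≤ √s|g|`.
* `d3`: with `h = exp (m f)`, `h''/h = m D2 f + (m D1 f)²` has derivative `m (D3 f + 2 m D1 f D2 f) ≤ 0` on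
  `[0,∞)` and is even, so `F(a,b) = h''(a) h(b) - h(a) h''(b) ≤ 0` for `|b| ≤ |a|`.  `refl_D2` and
  `integral_gauss_eq_ker` + `integral_prod_mul` give `H₂(x₁) H₀(x₂) ≤ H₀(x₁) H₂(x₂)` for `|x₂| ≤ |x₁|`, so
  `H₂/H₀ = m D2 (ch) + (m D1 (ch))²` (`D1_ch_Hk`, `D2_ch_Hk`) is antitone on `[0,∞)`; its derivative is `≤ 0`
  (one-sided slopes from the right).  For `s ≤ 0`, `√s = 0` and `ch m s f = f`.
-/

set_option autoImplicit false
open MeasureTheory ProbabilityTheory Filter Topology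

noncomputable section

namespace Crest.Agent.R339.Cls

variable {β m : ℝ} {f : ℝ → ℝ}

theorem adm_d2 (h : Adm β m f) (hm : 0 < m) (hmβ : m ≤ β) (s x : ℝ) :
    D 2 (ch m s f) x ≤ β * (1 - D 1 (ch m s f) x ^ 2) := by
  have hf := h.reg
  have e1 := hf.eg 1
  have e2 := hf.eg 2
  rw [D2_ch hf hm, D1_ch hf hm]
  have h1 := tE_mono hf.lip (e2.add ((e1.pow 2).const_mul m)) ((eg_const β).sub ((e1.pow 2).const_mul (β - m)))
    (fun y => by have := h.d2 y; linarith) m s x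
  rw [tE_sub hf.lip (eg_const β) ((e1.pow 2).const_mul (β - m)), tE_const hf.lip, tE_const_mul] at h1
  have h2 := sq_tE_le hf.lip e1 m s x
  nlinarith [mul_le_mul_of_nonneg_left h2 (sub_nonneg.2 hmβ)]

theorem adm_low (h : Adm β m f) (hm : 0 < m) (s : ℝ) :
    ∃ c C : ℝ, 0 < c ∧ ∀ x, c * Real.exp (-(C * |x|)) ≤ D 2 (ch m s f) x := by
  have hf := h.reg
  have e1 := hf.eg 1
  have e2 := hf.eg 2
  obtain ⟨c, C, hc, hlow⟩ := h.low
  have hl : LipschitzWith 1 fun x : ℝ => |x| := lipschitzWith_one_norm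
  have ep : EG fun y => Real.exp (C * |y|) := EG.exp_lip hl C
  have en : EG fun y => Real.exp (-C * |y|) := EG.exp_lip hl (-C)
  obtain ⟨-, C', hC'⟩ := EG.tE hf.lip ep m s
  refine ⟨c / (|C'| + 1), C', by positivity, fun x => ?_⟩
  set M := (|C'| + 1) * Real.exp (C' * |x|) with hM
  have hM0 : 0 < M := by positivity
  have h1 : tE m s f (fun y => Real.exp (C * |y|)) x ≤ M :=
    (le_abs_self _).trans ((hC' x).trans
      (mul_le_mul_of_nonneg_right (by linarith [le_abs_self C']) (Real.exp_pos _).le))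
  have h2 := tE_mono hf.lip (eg_const 2) ((en.const_mul M).add (ep.const_mul M⁻¹)) (fun y => by
    have hp := Real.exp_pos (C * |y|)
    rw [neg_mul, Real.exp_neg]
    have : M * (Real.exp (C * |y|))⁻¹ + M⁻¹ * Real.exp (C * |y|) - 2 =
        (M - Real.exp (C * |y|)) ^ 2 / (M * Real.exp (C * |y|)) := by field_simp; ring
    have h0 : 0 ≤ (M - Real.exp (C * |y|)) ^ 2 / (M * Real.exp (C * |y|)) := by positivity
    linarith) m s x
  rw [tE_const hf.lip, tE_add hf.lip (en.const_mul M) (ep.const_mul M⁻¹), tE_const_mul, tE_const_mul] at h2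
  have h3 : M⁻¹ * tE m s f (fun y => Real.exp (C * |y|)) x ≤ 1 := by
    rw [inv_mul_le_iff₀ hM0]; linarith
  have h4 : M⁻¹ ≤ tE m s f (fun y => Real.exp (-C * |y|)) x := by
    rw [inv_le_iff_one_le_mul₀' hM0]; linarith
  have h5 := tE_mono hf.lip (en.const_mul c) e2 (fun y => by rw [neg_mul]; exact hlow y) m s x
  rw [tE_const_mul] at h5
  have h6 := sq_tE_le hf.lip e1 m s x
  rw [D2_ch hf hm, tE_add hf.lip e2 ((e1.pow 2).const_mul m), tE_const_mul]
  have h7 : c / (|C'| + 1) * Real.exp (-(C' * |x|)) = c * M⁻¹ := by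
    rw [hM, Real.exp_neg]; field_simp
  rw [h7]
  nlinarith [mul_le_mul_of_nonneg_left h6 hm.le, mul_le_mul_of_nonneg_left h4 hc.le]

end Crest.Agent.R339.Cls
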