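import Crest.Agent.R339.Cls.Base2

/-!
# Row 339 / Cls: Base (integrability, tilted expectations, one tilted step)
All elementary: `|f (x+√s g) - f x| ≤ √s |g|`, `integrable_exp_mul_gaussianReal`
(see `Crest.Agent.R164.integrable_exp_abs_gauss` for `exp (c |z|)`).
-/

set_option autoImplicit false
open MeasureTheory ProbabilityTheory Filter Topology

noncomputable section

namespace Crest.Agent.R339.Cls

variable {m s : ℝ} {f F G : ℝ → ℝ} {ν μ : Measure ℝ}

theorem base_eg_inv (hf : LipschitzWith 1 f) (m s : ℝ) : EG fun x => (Zs m s f x)⁻¹ := by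
  obtain ⟨C, hC⟩ := ((EG.exp_lip hf (-m)).gauss s).2
  refine ⟨((EG.exp_lip hf m).gauss s).1.inv, C, fun x => le_trans ?_ ((le_abs_self _).trans (hC x))⟩
  have hZ := Zs_pos hf m s x
  have h1 := (EG.exp_lip hf m).integrable_gauss s x
  have h2 := integral_mono ((integrable_const (2 / Zs m s f x)).sub (h1.div_const (Zs m s f x ^ 2)))
    ((EG.exp_lip hf (-m)).integrable_gauss s x) fun g => by
      have h := Real.exp_pos (m * f (x + √s * g))
      simp only [Pi.sub_apply, neg_mul, Real.exp_neg]
      rw [← sub_nonneg]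
      have : (Real.exp (m * f (x + √s * g)))⁻¹ - (2 / Zs m s f x - Real.exp (m * f (x + √s * g)) / Zs m s f x ^ 2) =
          (Zs m s f x - Real.exp (m * f (x + √s * g))) ^ 2 / (Real.exp (m * f (x + √s * g)) * Zs m s f x ^ 2) := by
        field_simp
        ring
      rw [this]
      positivity
  rw [integral_sub' (integrable_const _) (h1.div_const _), integral_const, probReal_univ, one_smul, integral_div] at h2
  refine le_of_eq_of_le ?_ h2
  change |(Zs m s f x)⁻¹| = _ - Zs m s f x / _
  rw [abs_of_pos (inv_pos.2 hZ)]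
  field_simp
  ring

theorem base_eg_exp (c : ℝ) : EG fun x => Real.exp (c * |x|) := EG.exp_lip lipschitzWith_one_norm c

theorem base_meas (hf : LipschitzWith 1 f) (m s : ℝ) : Measurable fun p : ℝ × ℝ =>
    Real.exp (m * f (p.1 + √s * p.2)) / Zs m s f p.1 :=
  ((EG.exp_lip hf m).1.comp (by fun_prop)).div (((EG.exp_lip hf m).gauss s).1.comp measurable_fst)

theorem base_toReal (hf : LipschitzWith 1 f) (m s : ℝ) (p : ℝ × ℝ) :
    (ENNReal.ofReal (Real.exp (m * f (p.1 + √s * p.2)) / Zs m s f p.1)).toReal =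
      Real.exp (m * f (p.1 + √s * p.2)) / Zs m s f p.1 :=
  ENNReal.toReal_ofReal (div_pos (Real.exp_pos _) (Zs_pos hf m s _)).le

/-- `Zs m s f x ≥ c · exp (m f x)`, numerator `≤ exp (m f x) · C exp (C|x|) · ∫ exp (C'|g|)`. -/
theorem EG.tE (hf : LipschitzWith 1 f) (hF : EG F) (m s : ℝ) : EG (tE m s f F) := by
  exact ((hF.mul (EG.exp_lip hf m)).gauss s).mul (base_eg_inv hf m s)

theorem base_int (hf : LipschitzWith 1 f) (hν : Gd ν) (hF : EG F) (m s : ℝ) : Integrable (fun p : ℝ × ℝ =>
    F (p.1 + √s * p.2) * (Real.exp (m * f (p.1 + √s * p.2)) / Zs m s f p.1)) (ν.prod γ1) := by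
  have := hν.1
  refine (integrable_prod_iff (Measurable.aestronglyMeasurable
    ((hF.1.comp (by fun_prop)).mul (base_meas hf m s)))).2 ⟨Eventually.of_forall fun x => ?_, ?_⟩
  · simpa only [mul_div_assoc, Pi.mul_apply, Function.comp_apply] using (integrable_tilt hf hF m s x).div_const (Zs m s f x)
  · have h : EG fun x => |F x| := ⟨continuous_abs.measurable.comp hF.1, by simpa only [abs_abs] using hF.2⟩
    refine (hν.integrable (h.tE hf m s)).congr (Eventually.of_forall fun x => ?_)
    simp only [tE, ← integral_div, Real.norm_eq_abs, abs_mul, mul_div_assoc, Pi.mul_apply, Function.comp_apply,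
      abs_of_pos (div_pos (Real.exp_pos _) (Zs_pos hf m s _))]

theorem base_int_adv (hf : LipschitzWith 1 f) (hν : Gd ν) (hF : EG F) (m s : ℝ) : Integrable F (adv m s f ν) := by
  refine (integrable_map_measure hF.1.aestronglyMeasurable (by fun_prop)).2
    ((integrable_withDensity_iff (base_meas hf m s).ennreal_ofReal (by simp)).2 ?_)
  simpa only [base_toReal hf, Function.comp_apply] using base_int hf hν hF m s

/-- `integral_map`, `integral_withDensity_eq_integral_smul` (or `toReal` version), `integral_prod`. -/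
theorem integral_adv (hf : LipschitzWith 1 f) (hν : Gd ν) (hF : EG F) (m s : ℝ) :
    ∫ y, F y ∂adv m s f ν = ∫ x, tE m s f F x ∂ν := by
  have := hν.1
  rw [adv, integral_map (by fun_prop) hF.1.aestronglyMeasurable,
    integral_withDensity_eq_integral_toReal_smul (base_meas hf m s).ennreal_ofReal (by simp)]
  simp only [base_toReal hf, smul_eq_mul, mul_comm (_ / _)]
  rw [integral_prod _ (base_int hf hν hF m s)]
  simp only [tE, ← integral_div, mul_div_assoc]

theorem gd_adv (hf : LipschitzWith 1 f) (hν : Gd ν) (m s : ℝ) : Gd (adv m s f ν) := by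
  have h : IsProbabilityMeasure (adv m s f ν) := by
    have := hν.1
    have h1 := integral_adv hf hν (eg_const 1) m s
    simp only [tE_const hf, integral_const, probReal_univ, smul_eq_mul, mul_one] at h1
    exact isProbabilityMeasure_iff_real.2 h1
  exact ⟨h, inferInstance, fun c => base_int_adv hf hν (base_eg_exp c) m s⟩

theorem ge_unt (hf : LipschitzWith 1 f) (hν : Gd ν) (m s : ℝ) : Ge (unt m s f ν) := by
  refine ⟨isFiniteMeasure_withDensity_ofReal (hν.integrable (base_eg_inv hf m s)).2, fun c =>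
    (integrable_withDensity_iff (base_eg_inv hf m s).1.ennreal_ofReal (by simp)).2 ?_⟩
  simpa only [ENNReal.toReal_ofReal (inv_pos.2 (Zs_pos hf m s _)).le] using
    hν.integrable ((base_eg_exp c).mul (base_eg_inv hf m s))

theorem integral_unt (hf : LipschitzWith 1 f) (ν : Measure ℝ) (F : ℝ → ℝ) (m s : ℝ) :
    ∫ x, F x ∂unt m s f ν = ∫ x, F x / Zs m s f x ∂ν := by
  rw [unt, integral_withDensity_eq_integral_toReal_smul (base_eg_inv hf m s).1.ennreal_ofReal (by simp)]
  simp only [ENNReal.toReal_ofReal (inv_pos.2 (Zs_pos hf m s _)).le, smul_eq_mul, div_eq_inv_mul]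

end Crest.Agent.R339.Cls
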