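import Crest.Agent.R339.Cls.Defs

/-!
# Row 339 / Cls: Base (integrability, tilted expectations, one tilted step)
All elementary: `|f (x+√s g) - f x| ≤ √s |g|`, `integrable_exp_mul_gaussianReal`
(see `Crest.Agent.R164.integrable_exp_abs_gauss` for `exp (c |z|)`).
-/

set_option autoImplicit false
open MeasureTheory ProbabilityTheory Filter Topology

noncomputable section

namespace Crest.Agent.R339.Cls

variable {m s : ℝ} {f F G : ℝ → ℝ} {ν μ : Measure ℝ}

theorem base1_mk (hm : Measurable F) {a b : ℝ} (h : ∀ x, |F x| ≤ a * Real.exp (b * |x|)) : EG F := by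
  refine ⟨hm, max |a| |b|, fun x => (h x).trans ?_⟩
  have h1 : a ≤ max |a| |b| := (le_abs_self a).trans (le_max_left _ _)
  have h2 : b ≤ max |a| |b| := (le_abs_self b).trans (le_max_right _ _)
  have h3 : 0 ≤ max |a| |b| := (abs_nonneg a).trans (le_max_left _ _)
  gcongr

theorem base1_ex (hF : EG F) : ∃ C : ℝ, 0 ≤ C ∧ ∀ x, |F x| ≤ C * Real.exp (C * |x|) := by
  obtain ⟨-, C, h⟩ := hF
  refine ⟨C, ?_, h⟩
  simpa using (abs_nonneg _).trans (h 0)

theorem base1_lip (hf : LipschitzWith 1 f) (x : ℝ) : |f x| ≤ |f 0| + |x| := by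
  have h := hf.dist_le_mul x 0
  rw [Real.dist_eq, Real.dist_eq, NNReal.coe_one, one_mul, sub_zero] at h
  have := abs_add_le (f 0) (f x - f 0)
  rw [add_sub_cancel] at this
  linarith

theorem base1_gauss (c : ℝ) : Integrable (fun g => Real.exp (c * |g|)) γ1 := by
  refine ((integrable_exp_mul_gaussianReal c).add (integrable_exp_mul_gaussianReal (-c))).mono'
    (by fun_prop) (ae_of_all _ fun g => ?_)
  rw [Real.norm_eq_abs, abs_of_pos (Real.exp_pos _), Pi.add_apply]
  rcases abs_cases g with h | h <;> rw [h.1]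
  · linarith [Real.exp_pos (-c * g)]
  · rw [show c * -g = -c * g by ring]; linarith [Real.exp_pos (c * g)]

theorem base1_shift {C : ℝ} (hC : 0 ≤ C) (h : ∀ x, |F x| ≤ C * Real.exp (C * |x|)) (s x g : ℝ) :
    |F (x + √s * g)| ≤ C * Real.exp (C * |x|) * Real.exp (C * √s * |g|) := by
  refine (h _).trans ?_
  rw [mul_assoc C (Real.exp _), ← Real.exp_add, mul_assoc C, ← mul_add]
  gcongr
  refine (abs_add_le _ _).trans (le_of_eq ?_)
  rw [abs_mul, abs_of_nonneg (Real.sqrt_nonneg s)]

theorem EG.of_bdd (hm : Measurable F) {C : ℝ} (h : ∀ x, |F x| ≤ C) : EG F := by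
  exact base1_mk hm (a := C) (b := 0) fun x => by simpa using h x
theorem EG.of_lip (hf : LipschitzWith 1 f) : EG f := by
  refine base1_mk hf.continuous.measurable (a := |f 0| + 1) (b := 1) fun x => (base1_lip hf x).trans ?_
  have h1 := Real.add_one_le_exp (1 * |x|)
  have h2 := abs_nonneg x
  have h3 := abs_nonneg (f 0)
  nlinarith
theorem eg_id : EG fun x => x := by
  exact EG.of_lip LipschitzWith.id
theorem eg_const (c : ℝ) : EG fun _ => c := by
  exact EG.of_bdd measurable_const (C := |c|) fun _ => le_rfl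
theorem EG.add (hF : EG F) (hG : EG G) : EG fun x => F x + G x := by
  obtain ⟨C, hC, h1⟩ := base1_ex hF
  obtain ⟨C', hC', h2⟩ := base1_ex hG
  refine base1_mk (hF.1.add hG.1) (a := C + C') (b := C + C') fun x => (abs_add_le _ _).trans ?_
  rw [add_mul C C' (Real.exp _)]
  refine add_le_add ((h1 x).trans ?_) ((h2 x).trans ?_) <;> gcongr <;> linarith
theorem EG.sub (hF : EG F) (hG : EG G) : EG fun x => F x - G x := by
  obtain ⟨C, hC, h1⟩ := base1_ex hF
  obtain ⟨C', hC', h2⟩ := base1_ex hG
  refine base1_mk (hF.1.sub hG.1) (a := C + C') (b := C + C') fun x => (abs_sub _ _).trans ?_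
  rw [add_mul C C' (Real.exp _)]
  refine add_le_add ((h1 x).trans ?_) ((h2 x).trans ?_) <;> gcongr <;> linarith
theorem EG.mul (hF : EG F) (hG : EG G) : EG fun x => F x * G x := by
  obtain ⟨C, hC, h1⟩ := base1_ex hF
  obtain ⟨C', hC', h2⟩ := base1_ex hG
  refine base1_mk (hF.1.mul hG.1) (a := C * C') (b := C + C') fun x => ?_
  rw [abs_mul, add_mul, Real.exp_add, mul_mul_mul_comm]
  exact mul_le_mul (h1 x) (h2 x) (abs_nonneg _) (by positivity)
theorem EG.const_mul (hF : EG F) (c : ℝ) : EG fun x => c * F x := by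
  exact (eg_const c).mul hF
theorem EG.pow (hF : EG F) (k : ℕ) : EG fun x => F x ^ k := by
  induction k with
  | zero => simpa using eg_const 1
  | succ k ih => simpa only [pow_succ] using ih.mul hF
theorem EG.exp_lip (hf : LipschitzWith 1 f) (c : ℝ) : EG fun x => Real.exp (c * f x) := by
  refine base1_mk ((hf.continuous.measurable.const_mul c).exp) (a := Real.exp (|c| * |f 0|)) (b := |c|) fun x => ?_
  rw [abs_of_pos (Real.exp_pos _), ← Real.exp_add, ← mul_add]
  refine Real.exp_le_exp.2 ((le_abs_self _).trans ?_)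
  rw [abs_mul]
  exact mul_le_mul_of_nonneg_left (base1_lip hf x) (abs_nonneg c)
theorem Ge.integrable (hμ : Ge μ) (hF : EG F) : Integrable F μ := by
  obtain ⟨hm, C, h⟩ := hF
  exact ((hμ.2 C).const_mul C).mono' hm.aestronglyMeasurable (ae_of_all _ h)
theorem Gd.integrable (hν : Gd ν) (hF : EG F) : Integrable F ν := hν.2.integrable hF

theorem gd_dirac (x : ℝ) : Gd (Measure.dirac x) := by
  exact ⟨inferInstance, inferInstance, fun c => integrable_dirac (by simp)⟩
theorem EG.integrable_gauss (hF : EG F) (s x : ℝ) : Integrable (fun g => F (x + √s * g)) γ1 := by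
  obtain ⟨C, hC, h⟩ := base1_ex hF
  exact ((base1_gauss (C * √s)).const_mul (C * Real.exp (C * |x|))).mono'
    (hF.1.comp (by fun_prop)).aestronglyMeasurable (ae_of_all _ (base1_shift hC h s x))
/-- Joint integrability. -/
theorem Ge.integrable_prod (hμ : Ge μ) (hF : EG F) (s : ℝ) :
    Integrable (fun p : ℝ × ℝ => F (p.1 + √s * p.2)) (μ.prod γ1) := by
  obtain ⟨C, hC, h⟩ := base1_ex hF
  have := hμ.1
  exact (((hμ.2 C).const_mul C).mul_prod (base1_gauss (C * √s))).mono'
    (hF.1.comp (by fun_prop)).aestronglyMeasurable (ae_of_all _ fun p => base1_shift hC h s p.1 p.2)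
theorem EG.gauss (hF : EG F) (s : ℝ) : EG fun x => ∫ g, F (x + √s * g) ∂γ1 := by
  obtain ⟨C, hC, h⟩ := base1_ex hF
  have hm : Measurable fun p : ℝ × ℝ => F (p.1 + √s * p.2) := hF.1.comp (by fun_prop)
  refine base1_mk hm.stronglyMeasurable.integral_prod_right'.measurable
    (a := C * ∫ g, Real.exp (C * √s * |g|) ∂γ1) (b := C) fun x => ?_
  rw [mul_right_comm, ← integral_const_mul]
  exact norm_integral_le_of_norm_le (f := fun g => F (x + √s * g)) ((base1_gauss (C * √s)).const_mul _)
    (ae_of_all _ (base1_shift hC h s x))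
end Crest.Agent.R339.Cls
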