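import Crest.Agent.R339.Cls.Base1

/-!
# Row 339 / Cls: Base (integrability, tilted expectations, one tilted step)
All elementary: `|f (x+√s g) - f x| ≤ √s |g|`, `integrable_exp_mul_gaussianReal`
(see `Crest.Agent.R164.integrable_exp_abs_gauss` for `exp (c |z|)`).
-/

set_option autoImplicit false
open MeasureTheory ProbabilityTheory Filter Topology

noncomputable section

namespace Crest.Agent.R339.Cls

variable {m s : ℝ} {f F G : ℝ → ℝ} {ν μ : Measure ℝ}

theorem integrable_tilt (hf : LipschitzWith 1 f) (hF : EG F) (m s x : ℝ) :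
    Integrable (fun g => F (x + √s * g) * Real.exp (m * f (x + √s * g))) γ1 := by
  exact (hF.mul (EG.exp_lip hf m)).integrable_gauss s x

theorem Zs_pos (hf : LipschitzWith 1 f) (m s x : ℝ) : 0 < Zs m s f x := by
  exact integral_exp_pos ((EG.exp_lip hf m).integrable_gauss s x)

theorem exp_ch (hf : LipschitzWith 1 f) (hm : m ≠ 0) (s x : ℝ) :
    Real.exp (m * ch m s f x) = Zs m s f x := by
  rw [ch, mul_inv_cancel_left₀ hm, Real.exp_log (Zs_pos hf m s x)]

theorem ch_zero (hm : m ≠ 0) (f : ℝ → ℝ) : ch m 0 f = f := by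
  funext x
  simp [ch, Zs, hm]

theorem base2_le (hf : LipschitzWith 1 f) (hm : 0 < m) (s x y : ℝ) : ch m s f x ≤ ch m s f y + dist x y := by
  have h1 : Zs m s f x ≤ Real.exp (m * dist x y) * Zs m s f y := by
    rw [Zs, Zs, ← integral_const_mul]
    refine integral_mono ((EG.exp_lip hf m).integrable_gauss s x)
      (((EG.exp_lip hf m).integrable_gauss s y).const_mul _) fun g => ?_
    have := hf.le_add_mul (x + √s * g) (y + √s * g)
    rw [dist_add_right, NNReal.coe_one, one_mul] at this
    simp only [← Real.exp_add, Real.exp_le_exp]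
    nlinarith
  rw [← exp_ch hf hm.ne', ← exp_ch hf hm.ne', ← Real.exp_add, Real.exp_le_exp, ← mul_add] at h1
  linarith [le_of_mul_le_mul_left h1 hm]

/-- `Zs (x) ≤ exp (m |x - y|) Zs (y)`. -/
theorem lip_ch (hf : LipschitzWith 1 f) (hm : 0 < m) (s : ℝ) : LipschitzWith 1 (ch m s f) := by
  exact LipschitzWith.of_le_add (base2_le hf hm s)

theorem ch_even (he : ∀ x, f (-x) = f x) (m s x : ℝ) : ch m s f (-x) = ch m s f x := by
  have h : Zs m s f (-x) = Zs m s f x := by
    have h1 : γ1.map (fun g => -g) = γ1 := by simpa using gaussianReal_map_neg (μ := 0) (v := 1)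
    have h2 := (MeasurePreserving.mk measurable_neg h1).integral_comp (Homeomorph.neg ℝ).measurableEmbedding
      fun g => Real.exp (m * f (x + √s * g))
    rw [Zs, Zs, ← h2]
    refine integral_congr_ae (Eventually.of_forall fun g => ?_)
    simp only
    rw [← he]
    congr 3
    ring
  rw [ch, ch, h]

theorem tE_const (hf : LipschitzWith 1 f) (m s c x : ℝ) : tE m s f (fun _ => c) x = c := by
  rw [tE, integral_const_mul]
  exact mul_div_cancel_right₀ c (Zs_pos hf m s x).ne'

theorem tE_add (hf : LipschitzWith 1 f) (hF : EG F) (hG : EG G) (m s x : ℝ) :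
    tE m s f (fun y => F y + G y) x = tE m s f F x + tE m s f G x := by
  simp only [tE, add_mul]
  rw [integral_add (integrable_tilt hf hF m s x) (integrable_tilt hf hG m s x), add_div]

theorem tE_sub (hf : LipschitzWith 1 f) (hF : EG F) (hG : EG G) (m s x : ℝ) :
    tE m s f (fun y => F y - G y) x = tE m s f F x - tE m s f G x := by
  simp only [tE, sub_mul]
  rw [integral_sub (integrable_tilt hf hF m s x) (integrable_tilt hf hG m s x), sub_div]

theorem tE_const_mul (c : ℝ) (F : ℝ → ℝ) (m s x : ℝ) :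
    tE m s f (fun y => c * F y) x = c * tE m s f F x := by
  simp only [tE, mul_assoc]
  rw [integral_const_mul, mul_div_assoc]

theorem tE_mono (hf : LipschitzWith 1 f) (hF : EG F) (hG : EG G) (h : ∀ y, F y ≤ G y) (m s x : ℝ) :
    tE m s f F x ≤ tE m s f G x := by
  exact div_le_div_of_nonneg_right (integral_mono (integrable_tilt hf hF m s x) (integrable_tilt hf hG m s x)
    fun g => mul_le_mul_of_nonneg_right (h _) (Real.exp_pos _).le) (Zs_pos hf m s x).le

theorem abs_tE_le (hf : LipschitzWith 1 f) (hF : EG F) {C : ℝ} (h : ∀ y, |F y| ≤ C) (m s x : ℝ) :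
    |tE m s f F x| ≤ C := by
  have h1 := tE_mono hf hF (eg_const C) (fun y => (abs_le.1 (h y)).2) m s x
  have h2 := tE_mono hf (eg_const (-C)) hF (fun y => (abs_le.1 (h y)).1) m s x
  rw [tE_const hf] at h1 h2
  exact abs_le.2 ⟨h2, h1⟩

/-- Cauchy–Schwarz: expand `tE (F - c)² ≥ 0` with `c = tE F`. -/
theorem sq_tE_le (hf : LipschitzWith 1 f) (hF : EG F) (m s x : ℝ) :
    tE m s f F x ^ 2 ≤ tE m s f (fun y => F y ^ 2) x := by
  have h := tE_mono hf ((hF.const_mul (2 * tE m s f F x)).sub (eg_const (tE m s f F x ^ 2))) (hF.pow 2)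
    (fun y => by nlinarith [sq_nonneg (F y - tE m s f F x)]) m s x
  rw [tE_sub hf (hF.const_mul _) (eg_const _), tE_const_mul, tE_const hf] at h
  linarith

end Crest.Agent.R339.Cls
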