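import Crest.Agent.R339.Cls.Defs

/-!
# Row 339 / Cls: from the cell functions to the cell inequalities (one-variable calculus)
Mean value theorem (`exists_hasDerivAt_eq_slope`) three times: `|g1| ≤ L` on `[0,δ]` by monotonicity, hence
`|g t - g 0| ≤ L t`, `|v t - v 0 - t g 0| ≤ L t²`, `|2(e δ - e 0) - m(δ v 0 + δ² g 0/2)| ≤ m L δ³`.
-/

set_option autoImplicit false
open MeasureTheory ProbabilityTheory Filter Topology

noncomputable section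

namespace Crest.Agent.R339.Cls

theorem calc_mvt {δ t : ℝ} (h0 : 0 < t) (ht : t ≤ δ) {f f' : ℝ → ℝ} (cf : ContinuousOn f (Set.Icc 0 δ))
    (df : ∀ s ∈ Set.Ioo 0 δ, HasDerivAt f (f' s) s) : ∃ c ∈ Set.Ioo 0 t, f t - f 0 = t * f' c := by
  obtain ⟨c, hc, e⟩ := exists_hasDerivAt_eq_slope f f' h0 (cf.mono (Set.Icc_subset_Icc_right ht))
    fun s hs => df s ⟨hs.1, hs.2.trans_le ht⟩
  exact ⟨c, hc, by rw [e, sub_zero, mul_div_cancel₀ _ h0.ne']⟩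

theorem calc_bd {δ t M : ℝ} (h0 : 0 < t) (ht : t ≤ δ) {f f' : ℝ → ℝ} (cf : ContinuousOn f (Set.Icc 0 δ))
    (df : ∀ s ∈ Set.Ioo 0 δ, HasDerivAt f (f' s) s) (hM : ∀ s ∈ Set.Ioo 0 t, |f' s| ≤ M) : |f t - f 0| ≤ M * t := by
  obtain ⟨c, hc, e⟩ := calc_mvt h0 ht cf df
  rw [e, abs_mul, abs_of_pos h0, mul_comm]
  exact mul_le_mul_of_nonneg_right (hM c hc) h0.le

theorem calc_cell {m δ : ℝ} (hm : 0 < m) (hδ : 0 < δ) {e v g g1 : ℝ → ℝ}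
    (ce : ContinuousOn e (Set.Icc 0 δ)) (cv : ContinuousOn v (Set.Icc 0 δ))
    (cg : ContinuousOn g (Set.Icc 0 δ))
    (de : ∀ t ∈ Set.Ioo 0 δ, HasDerivAt e (m / 2 * v t) t)
    (dv : ∀ t ∈ Set.Ioo 0 δ, HasDerivAt v (g t) t)
    (dg : ∀ t ∈ Set.Ioo 0 δ, HasDerivAt g (g1 t) t) (hg1 : MonotoneOn g1 (Set.Icc 0 δ))
    {B0 B1 C0 C1 : ℝ} (h0 : g1 0 = C0 - 2 * m * B0) (h1 : g1 δ = C1 - 2 * m * B1) :
    CellIneq m δ (v 0) (v δ) (g 0) (g δ) B0 B1 C0 C1 (e 0) (e δ) := by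
  have hb : ∀ s ∈ Set.Ioo 0 δ, g1 0 ≤ g1 s ∧ g1 s ≤ g1 δ := fun s hs =>
    ⟨hg1 ⟨le_rfl, hδ.le⟩ (Set.Ioo_subset_Icc_self hs) hs.1.le, hg1 (Set.Ioo_subset_Icc_self hs) ⟨hδ.le, le_rfl⟩ hs.2.le⟩
  obtain ⟨c, hc, ec⟩ := calc_mvt hδ le_rfl cg dg
  rw [CellIneq, ← h0, ← h1, ec]
  refine ⟨mul_le_mul_of_nonneg_left (hb c hc).1 hδ.le, mul_le_mul_of_nonneg_left (hb c hc).2 hδ.le, fun L hL0 hL1 => ?_⟩
  have hL : 0 ≤ L := (abs_nonneg _).trans hL0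
  have h2 : ∀ t, 0 < t → t ≤ δ → |g t - g 0| ≤ L * t := fun t ht ht' => calc_bd ht ht' cg dg fun s hs => by
    have := hb s ⟨hs.1, hs.2.trans_le ht'⟩
    exact abs_le.2 ⟨by linarith [(abs_le.1 hL0).1], by linarith [(abs_le.1 hL1).2]⟩
  have h3 : ∀ t, 0 < t → t ≤ δ → |v t - v 0 - t * g 0| ≤ L * δ ^ 2 := fun t ht ht' => by
    have h := calc_bd (f := fun s => v s - s * g 0) (f' := fun s => g s - g 0) (M := L * δ) ht ht' (by fun_prop)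
      (fun s hs => (dv s hs).sub (hasDerivAt_mul_const (g 0))) fun s hs =>
        (h2 s hs.1 (hs.2.le.trans ht')).trans (mul_le_mul_of_nonneg_left (hs.2.le.trans ht') hL)
    calc _ = |v t - t * g 0 - (v 0 - 0 * g 0)| := by congr 1; ring
      _ ≤ L * δ * t := h
      _ ≤ L * δ * δ := by gcongr
      _ = _ := by ring
  refine ⟨h3 δ hδ le_rfl, ?_⟩
  have h := calc_bd (f := fun s => 2 * e s - m * (s * v 0 + s ^ 2 * (g 0 / 2)))
    (f' := fun s => m * (v s - v 0 - s * g 0)) (M := m * (L * δ ^ 2)) hδ le_rfl (by fun_prop)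
    (fun s hs => by
      refine (((de s hs).const_mul 2).sub (((hasDerivAt_mul_const (v 0)).add
        ((hasDerivAt_pow 2 s).mul_const (g 0 / 2))).const_mul m)).congr_deriv ?_
      norm_num
      ring)
    fun s hs => by
      rw [abs_mul, abs_of_pos hm]
      exact mul_le_mul_of_nonneg_left (h3 s hs.1 hs.2.le) hm.le
  calc _ = |2 * e δ - m * (δ * v 0 + δ ^ 2 * (g 0 / 2)) - (2 * e 0 - m * (0 * v 0 + 0 ^ 2 * (g 0 / 2)))| := by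
        congr 1; ring
    _ ≤ _ := h
    _ = _ := by ring

end Crest.Agent.R339.Cls
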