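import Crest.Agent.R339.Cls.Cell1

/-!
# Row 339 / Cls: one cell
Let `Φ t = ch m (δ - t) f`, `h t y = Zs m (δ - t) f y = exp (m Φ t y)`, `μ = unt m δ f ν`, `u k = D k (Φ t) y`.
For an observable `O t y` put `cE O t = flow μ (h · O) t`.  With `𝓛 O = O_t + m u₁ O_y + ½ O_yy` one has
`(hO)_t + ½ (hO)_yy = h 𝓛O`, so `heat` gives `d/dt cE O = cE (𝓛 O)` (`cell_deriv`).  By `pde0`–`pde3`
(time is `δ - t`, so signs flip): `𝓛 Φ = (m/2) u₁²`, `𝓛 u₁² = u₂²`, `𝓛 u₂² = u₃² - 2m u₂³`,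
`𝓛 (u₃² - 2m u₂³) = u₄² - 12 m u₂ u₃² + 6 m² u₂⁴`, and the last `cE` is `≥ 0` by `integral_smo` + `pos_main`
(`adm_ch`, `hq t`).  End points: `cE O 0 = ∫ O 0 dν` (`integral_unt`), `cE O δ = ∫ O δ d(adv)` (`ch_zero`,
`integral_adv`).  Finish with `calc_cell`.
-/

set_option autoImplicit false
open MeasureTheory ProbabilityTheory Filter Topology

noncomputable section

namespace Crest.Agent.R339.Cls

variable {β m δ : ℝ} {f : ℝ → ℝ} {ν : Measure ℝ}

/-- exponential growth, uniformly in the cell -/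
def cell_UG (δ : ℝ) (O : ℝ → ℝ → ℝ) : Prop := ∃ C : ℝ, ∀ t ∈ Set.Icc 0 δ, ∀ y, |O t y| ≤ C * Real.exp (C * |y|)

theorem cell_up {a C C' y : ℝ} (h : |a| ≤ C * Real.exp (C * |y|)) (hC : C ≤ C') (h0 : 0 ≤ C') :
    |a| ≤ C' * Real.exp (C' * |y|) :=
  h.trans (mul_le_mul hC (Real.exp_le_exp.2 (mul_le_mul_of_nonneg_right hC (abs_nonneg y))) (Real.exp_pos _).le h0)

theorem cell_UG.add {O O' : ℝ → ℝ → ℝ} (h : cell_UG δ O) (h' : cell_UG δ O') :
    cell_UG δ fun t y => O t y + O' t y := by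
  obtain ⟨C, h⟩ := h
  obtain ⟨C', h'⟩ := h'
  refine ⟨2 * (|C| + |C'|), fun t ht y => ?_⟩
  have h0 : 0 ≤ |C| + |C'| := by positivity
  have h1 := cell_up (h t ht y) (C' := |C| + |C'|) (by linarith [le_abs_self C, abs_nonneg C']) h0
  have h2 := cell_up (h' t ht y) (C' := |C| + |C'|) (by linarith [le_abs_self C', abs_nonneg C]) h0
  have h3 : Real.exp ((|C| + |C'|) * |y|) ≤ Real.exp (2 * (|C| + |C'|) * |y|) :=
    Real.exp_le_exp.2 (by nlinarith [abs_nonneg y])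
  have h4 := mul_le_mul_of_nonneg_left h3 h0
  linarith [abs_add_le (O t y) (O' t y)]

theorem cell_UG.mul {O O' : ℝ → ℝ → ℝ} (h : cell_UG δ O) (h' : cell_UG δ O') :
    cell_UG δ fun t y => O t y * O' t y := by
  obtain ⟨C, h⟩ := h
  obtain ⟨C', h'⟩ := h'
  set A := |C| + |C'| with hA
  have h0 : 0 ≤ A := by positivity
  refine ⟨A * A + 2 * A, fun t ht y => ?_⟩
  have h1 := cell_up (h t ht y) (C' := A) (by linarith [le_abs_self C, abs_nonneg C']) h0
  have h2 := cell_up (h' t ht y) (C' := A) (by linarith [le_abs_self C', abs_nonneg C]) h0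
  rw [abs_mul]
  refine (mul_le_mul h1 h2 (abs_nonneg _) (by positivity)).trans ?_
  rw [mul_mul_mul_comm, ← Real.exp_add]
  exact mul_le_mul (by linarith) (Real.exp_le_exp.2 (by nlinarith [abs_nonneg y, mul_nonneg h0 h0]))
    (Real.exp_pos _).le (by positivity)

theorem cell_UG.of_bdd {O : ℝ → ℝ → ℝ} {C : ℝ} (h : ∀ t ∈ Set.Icc 0 δ, ∀ y, |O t y| ≤ C) : cell_UG δ O :=
  ⟨|C|, fun t ht y => ((h t ht y).trans (le_abs_self C)).trans
    (le_mul_of_one_le_right (abs_nonneg _) (Real.one_le_exp (by positivity)))⟩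

theorem cell_UG.const (c : ℝ) : cell_UG δ fun _ _ => c := cell_UG.of_bdd (C := |c|) fun _ _ _ => le_rfl

theorem cell_UG.neg {O : ℝ → ℝ → ℝ} (h : cell_UG δ O) : cell_UG δ fun t y => -O t y := by
  obtain ⟨C, h⟩ := h
  exact ⟨C, fun t ht y => by rw [abs_neg]; exact h t ht y⟩

theorem cell_UG.sub {O O' : ℝ → ℝ → ℝ} (h : cell_UG δ O) (h' : cell_UG δ O') :
    cell_UG δ fun t y => O t y - O' t y := by
  simpa only [sub_eq_add_neg] using h.add h'.neg

theorem cell_UG.pow {O : ℝ → ℝ → ℝ} (h : cell_UG δ O) (n : ℕ) : cell_UG δ fun t y => O t y ^ n := by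
  induction n with
  | zero => simpa using cell_UG.const 1
  | succ n ih => simpa only [pow_succ] using ih.mul h

theorem cell_UG.div {O : ℝ → ℝ → ℝ} (h : cell_UG δ O) (c : ℝ) : cell_UG δ fun t y => O t y / c := by
  simpa only [div_eq_mul_inv] using h.mul (cell_UG.const c⁻¹)

theorem cell_four {O₁ O₂ O₃ O₄ : ℝ → ℝ → ℝ} (h1 : cell_UG δ O₁) (h2 : cell_UG δ O₂) (h3 : cell_UG δ O₃)
    (h4 : cell_UG δ O₄) : ∃ C : ℝ, ∀ t ∈ Set.Icc 0 δ, ∀ y, |O₁ t y| ≤ C * Real.exp (C * |y|) ∧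
      |O₂ t y| ≤ C * Real.exp (C * |y|) ∧ |O₃ t y| ≤ C * Real.exp (C * |y|) ∧ |O₄ t y| ≤ C * Real.exp (C * |y|) := by
  obtain ⟨C₁, h1⟩ := h1
  obtain ⟨C₂, h2⟩ := h2
  obtain ⟨C₃, h3⟩ := h3
  obtain ⟨C₄, h4⟩ := h4
  have a1 := abs_nonneg C₁
  have a2 := abs_nonneg C₂
  have a3 := abs_nonneg C₃
  have a4 := abs_nonneg C₄
  exact ⟨|C₁| + |C₂| + |C₃| + |C₄|, fun t ht y =>
    ⟨cell_up (h1 t ht y) (by linarith [le_abs_self C₁]) (by positivity),
      cell_up (h2 t ht y) (by linarith [le_abs_self C₂]) (by positivity),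
      cell_up (h3 t ht y) (by linarith [le_abs_self C₃]) (by positivity),
      cell_up (h4 t ht y) (by linarith [le_abs_self C₄]) (by positivity)⟩⟩

/-- the derivatives of the backward solution inside the cell -/
def cell_u (m δ : ℝ) (f : ℝ → ℝ) (k : ℕ) (t y : ℝ) : ℝ := D k (ch m (δ - t) f) y

theorem cell_cont (hf : Reg f) (hm : 0 < m) (k : ℕ) : Continuous fun p : ℝ × ℝ => cell_u m δ f k p.1 p.2 :=
  (continuous_D_ch hf hm k).comp (f := fun p : ℝ × ℝ => (δ - p.1, p.2)) (by fun_prop)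

theorem cell_dy (hf : Reg f) (hm : 0 < m) (k : ℕ) (t y : ℝ) :
    HasDerivAt (cell_u m δ f k t) (cell_u m δ f (k + 1) t y) y := (reg_ch hf hm _).hasDerivAt k y

theorem cell_meas (hf : Reg f) (hm : 0 < m) (k : ℕ) (t : ℝ) : Measurable (cell_u m δ f k t) :=
  ((reg_ch hf hm (δ - t)).diff k).continuous.measurable

theorem cell_ug (hf : Reg f) (hm : 0 < m) (k : ℕ) : cell_UG δ (cell_u m δ f k) := by
  cases k with
  | succ k =>
    obtain ⟨C, hC⟩ := bdd_D_ch hf hm k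
    exact cell_UG.of_bdd fun t _ y => hC _ y
  | zero =>
    obtain ⟨C, hC⟩ := (isCompact_Icc (a := (0 : ℝ)) (b := δ)).exists_bound_of_continuousOn
      (f := fun t => cell_u m δ f 0 t 0) ((cell_cont hf hm 0).comp (f := fun t : ℝ => (t, (0 : ℝ)))
        (by fun_prop)).continuousOn
    refine ⟨|C| + 1, fun t ht y => ?_⟩
    have h1 := (lip_ch hf.lip hm (δ - t)).dist_le_mul y 0
    have h2 : |ch m (δ - t) f 0| ≤ C := by simpa [cell_u] using hC t ht
    simp only [NNReal.coe_one, one_mul, Real.dist_eq, sub_zero] at h1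
    have h3 : |cell_u m δ f 0 t y| ≤ |C| + |y| := by
      have := abs_sub_abs_le_abs_sub (ch m (δ - t) f y) (ch m (δ - t) f 0)
      simp only [cell_u, iteratedDeriv_zero]
      linarith [le_abs_self C]
    have h4 : (|C| + 1) * |y| + 1 ≤ Real.exp ((|C| + 1) * |y|) := Real.add_one_le_exp _
    have h5 := abs_nonneg C
    have h6 := abs_nonneg y
    nlinarith [mul_nonneg h5 h6, mul_nonneg h5 (mul_nonneg h5 h6)]

theorem cell_flip {F : ℝ × ℝ → ℝ} {a b t y : ℝ} (h : HasFDerivAt F (lin a b) (δ - t, y)) :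
    HasFDerivAt (fun p : ℝ × ℝ => F (δ - p.1, p.2)) (lin (-a) b) (t, y) := by
  have h1 : HasFDerivAt (fun p : ℝ × ℝ => (δ - p.1, p.2))
      ((-ContinuousLinearMap.fst ℝ ℝ ℝ).prod (ContinuousLinearMap.snd ℝ ℝ ℝ)) (t, y) :=
    (hasFDerivAt_fst.const_sub δ).prodMk hasFDerivAt_snd
  exact (h.comp (t, y) h1).congr_fderiv (by ext <;> simp)

theorem cell_comp {F : ℝ × ℝ → ℝ} {a b : ℝ} {p : ℝ × ℝ} (h : HasFDerivAt F (lin a b) p) {φ : ℝ → ℝ} {c : ℝ}
    (hφ : HasDerivAt φ c (F p)) : HasFDerivAt (fun q => φ (F q)) (lin (c * a) (c * b)) p := by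
  exact (hφ.comp_hasFDerivAt p h).congr_fderiv (by ext <;> simp)

theorem cell_sub {F G : ℝ × ℝ → ℝ} {a b a' b' : ℝ} {p : ℝ × ℝ} (h : HasFDerivAt F (lin a b) p)
    (h' : HasFDerivAt G (lin a' b') p) : HasFDerivAt (fun q => F q - G q) (lin (a - a') (b - b')) p := by
  exact (h.sub h').congr_fderiv (by ext <;> simp)

theorem cell_const_mul (c : ℝ) (O : ℝ → ℝ → ℝ) (t : ℝ) :
    cE m δ f ν (fun t y => c * O t y) t = c * cE m δ f ν O t := by
  simp only [cE, flow, mul_left_comm _ c, integral_const_mul]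

theorem cell (hA : Adm β m f) (hm : 0 < m) (hmβ : m ≤ β) (hδ : 0 < δ) (hν : Gd ν)
    (hq : QM (unt m δ f ν)) :
    CellIneq m δ (∫ x, D 1 (ch m δ f) x ^ 2 ∂ν) (∫ y, D 1 f y ^ 2 ∂adv m δ f ν)
      (∫ x, D 2 (ch m δ f) x ^ 2 ∂ν) (∫ y, D 2 f y ^ 2 ∂adv m δ f ν)
      (∫ x, D 2 (ch m δ f) x ^ 3 ∂ν) (∫ y, D 2 f y ^ 3 ∂adv m δ f ν)
      (∫ x, D 3 (ch m δ f) x ^ 2 ∂ν) (∫ y, D 3 f y ^ 2 ∂adv m δ f ν)
      (∫ x, ch m δ f x ∂ν) (∫ y, f y ∂adv m δ f ν) := by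
  have hf := hA.reg
  set u := cell_u m δ f with hu
  have uc := fun k => cell_cont (δ := δ) hf hm k
  have ud := fun k => cell_dy (δ := δ) hf hm k
  have um := fun k => cell_meas (δ := δ) hf hm k
  have ub := fun k => cell_ug (δ := δ) hf hm k
  rw [← hu] at uc ud um ub
  have c2 := cell_UG.const (δ := δ) 2
  have cm := cell_UG.const (δ := δ) m
  have p0 : ∀ t ∈ Set.Ioo 0 δ, ∀ y, HasFDerivAt (fun p : ℝ × ℝ => u 0 p.1 p.2)
      (lin (-((u 2 t y + m * u 1 t y ^ 2) / 2)) (u 1 t y)) (t, y) := fun t ht y =>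
    cell_flip (pde0 hf hm (sub_pos.2 ht.2) y)
  have p1 : ∀ t ∈ Set.Ioo 0 δ, ∀ y, HasFDerivAt (fun p : ℝ × ℝ => u 1 p.1 p.2)
      (lin (-((u 3 t y + 2 * m * u 1 t y * u 2 t y) / 2)) (u 2 t y)) (t, y) := fun t ht y =>
    cell_flip (pde1 hf hm (sub_pos.2 ht.2) y)
  have p2 : ∀ t ∈ Set.Ioo 0 δ, ∀ y, HasFDerivAt (fun p : ℝ × ℝ => u 2 p.1 p.2)
      (lin (-((u 4 t y + 2 * m * u 2 t y ^ 2 + 2 * m * u 1 t y * u 3 t y) / 2)) (u 3 t y)) (t, y) := fun t ht y =>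
    cell_flip (pde2 hf hm (sub_pos.2 ht.2) y)
  have p3 : ∀ t ∈ Set.Ioo 0 δ, ∀ y, HasFDerivAt (fun p : ℝ × ℝ => u 3 p.1 p.2)
      (lin (-((u 5 t y + 6 * m * u 2 t y * u 3 t y + 2 * m * u 1 t y * u 4 t y) / 2)) (u 4 t y)) (t, y) :=
    fun t ht y => cell_flip (pde3 hf hm (sub_pos.2 ht.2) y)
  have sq : ∀ x : ℝ, HasDerivAt (fun z : ℝ => z ^ 2) (2 * x) x := fun x => by simpa using hasDerivAt_pow 2 x
  have cu : ∀ x : ℝ, HasDerivAt (fun z : ℝ => 2 * m * z ^ 3) (6 * m * x ^ 2) x := fun x =>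
    ((hasDerivAt_pow 3 x).const_mul (2 * m)).congr_deriv (by push_cast; ring)
  obtain ⟨ce, de⟩ := cell_deriv hf hm hδ hν (O := u 0) (Ot := fun t y => -((u 2 t y + m * u 1 t y ^ 2) / 2))
    (Oy := u 1) (Oyy := u 2) (uc 0) p0 (fun t _ y => ud 1 t y)
    (fun t => (((um 2 t).add (((um 1 t).pow_const 2).const_mul m)).div_const 2).neg) (um 1) (um 2)
    (cell_four (ub 0) (((ub 2).add (cm.mul ((ub 1).pow 2))).div 2).neg (ub 1) (ub 2))
  obtain ⟨cv, dv⟩ := cell_deriv hf hm hδ hν (O := fun t y => u 1 t y ^ 2)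
    (Ot := fun t y => 2 * u 1 t y * -((u 3 t y + 2 * m * u 1 t y * u 2 t y) / 2))
    (Oy := fun t y => 2 * u 1 t y * u 2 t y) (Oyy := fun t y => 2 * u 2 t y * u 2 t y + 2 * u 1 t y * u 3 t y)
    ((uc 1).pow 2) (fun t ht y => cell_comp (p1 t ht y) (sq _))
    (fun t _ y => ((ud 1 t y).const_mul 2).mul (ud 2 t y))
    (fun t => by have := um 1 t; have := um 2 t; have := um 3 t; fun_prop)
    (fun t => by have := um 1 t; have := um 2 t; fun_prop)
    (fun t => by have := um 1 t; have := um 2 t; have := um 3 t; fun_prop)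
    (cell_four ((ub 1).pow 2) ((c2.mul (ub 1)).mul (((ub 3).add (((c2.mul cm).mul (ub 1)).mul (ub 2))).div 2).neg)
      ((c2.mul (ub 1)).mul (ub 2)) (((c2.mul (ub 2)).mul (ub 2)).add ((c2.mul (ub 1)).mul (ub 3))))
  have b2 := ((((ub 4).add ((c2.mul cm).mul ((ub 2).pow 2))).add (((c2.mul cm).mul (ub 1)).mul (ub 3))).div 2).neg
  obtain ⟨cg, dg⟩ := cell_deriv hf hm hδ hν (O := fun t y => u 2 t y ^ 2)
    (Ot := fun t y => 2 * u 2 t y * -((u 4 t y + 2 * m * u 2 t y ^ 2 + 2 * m * u 1 t y * u 3 t y) / 2))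
    (Oy := fun t y => 2 * u 2 t y * u 3 t y) (Oyy := fun t y => 2 * u 3 t y * u 3 t y + 2 * u 2 t y * u 4 t y)
    ((uc 2).pow 2) (fun t ht y => cell_comp (p2 t ht y) (sq _))
    (fun t _ y => ((ud 2 t y).const_mul 2).mul (ud 3 t y))
    (fun t => by have := um 1 t; have := um 2 t; have := um 3 t; have := um 4 t; fun_prop)
    (fun t => by have := um 2 t; have := um 3 t; fun_prop)
    (fun t => by have := um 2 t; have := um 3 t; have := um 4 t; fun_prop)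
    (cell_four ((ub 2).pow 2) ((c2.mul (ub 2)).mul b2)
      ((c2.mul (ub 2)).mul (ub 3)) (((c2.mul (ub 3)).mul (ub 3)).add ((c2.mul (ub 2)).mul (ub 4))))
  have c6 := (cell_UG.const (δ := δ) 6).mul cm
  obtain ⟨cg1, dg1⟩ := cell_deriv hf hm hδ hν (O := fun t y => u 3 t y ^ 2 - 2 * m * u 2 t y ^ 3)
    (Ot := fun t y => 2 * u 3 t y * -((u 5 t y + 6 * m * u 2 t y * u 3 t y + 2 * m * u 1 t y * u 4 t y) / 2) -
      6 * m * u 2 t y ^ 2 * -((u 4 t y + 2 * m * u 2 t y ^ 2 + 2 * m * u 1 t y * u 3 t y) / 2))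
    (Oy := fun t y => 2 * u 3 t y * u 4 t y - 6 * m * u 2 t y ^ 2 * u 3 t y)
    (Oyy := fun t y => 2 * u 4 t y * u 4 t y + 2 * u 3 t y * u 5 t y -
      (6 * m * (2 * u 2 t y * u 3 t y) * u 3 t y + 6 * m * u 2 t y ^ 2 * u 4 t y))
    (((uc 3).pow 2).sub (continuous_const.mul ((uc 2).pow 3)))
    (fun t ht y => cell_sub (cell_comp (p3 t ht y) (sq _)) (cell_comp (p2 t ht y) (cu _)))
    (fun t _ y => (((ud 3 t y).const_mul 2).mul (ud 4 t y)).sub
      ((((sq _).comp y (ud 2 t y)).const_mul (6 * m)).mul (ud 3 t y)))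
    (fun t => by have := um 1 t; have := um 2 t; have := um 3 t; have := um 4 t; have := um 5 t; fun_prop)
    (fun t => by have := um 2 t; have := um 3 t; have := um 4 t; fun_prop)
    (fun t => by have := um 2 t; have := um 3 t; have := um 4 t; have := um 5 t; fun_prop)
    (cell_four (((ub 3).pow 2).sub ((c2.mul cm).mul ((ub 2).pow 3)))
      (((c2.mul (ub 3)).mul ((((ub 5).add ((c6.mul (ub 2)).mul (ub 3))).add
        (((c2.mul cm).mul (ub 1)).mul (ub 4))).div 2).neg).sub ((c6.mul ((ub 2).pow 2)).mul b2))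
      (((c2.mul (ub 3)).mul (ub 4)).sub ((c6.mul ((ub 2).pow 2)).mul (ub 3)))
      ((((c2.mul (ub 4)).mul (ub 4)).add ((c2.mul (ub 3)).mul (ub 5))).sub
        (((c6.mul ((c2.mul (ub 2)).mul (ub 3))).mul (ub 3)).add ((c6.mul ((ub 2).pow 2)).mul (ub 4)))))
  have hmono : MonotoneOn (cE m δ f ν fun t y => u 3 t y ^ 2 - 2 * m * u 2 t y ^ 3) (Set.Icc 0 δ) := by
    refine monotoneOn_of_deriv_nonneg (convex_Icc 0 δ) cg1 (fun t ht => ?_) fun t ht => ?_
    · rw [interior_Icc] at ht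
      exact (dg1 t ht).differentiableAt.differentiableWithinAt
    · rw [interior_Icc] at ht
      rw [(dg1 t ht).deriv]
      convert cell_pos (δ := δ) hA hm hmβ hν hq ht.1 using 2
      funext t y
      simp only [hu, cell_u]
      ring
  have u0 : ∀ k, u k 0 = D k (ch m δ f) := fun k => by funext y; simp [hu, cell_u]
  have u1 : ∀ k, u k δ = D k f := fun k => by funext y; simp [hu, cell_u, ch_zero hm.ne']
  have r0 := reg_ch hf hm δ
  have hν' := gd_adv hf.lip hν m δ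
  have key := calc_cell hm hδ ce cv cg (fun t ht => by
      refine (de t ht).congr_deriv ?_
      rw [← cell_const_mul]
      congr 1
      funext t y
      simp only [hu, cell_u]
      ring)
    (fun t ht => by
      refine (dv t ht).congr_deriv ?_
      congr 1
      funext t y
      simp only [hu, cell_u]
      ring)
    (fun t ht => by
      refine (dg t ht).congr_deriv ?_
      congr 1
      funext t y
      simp only [hu, cell_u]
      ring) hmono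
    (B0 := ∫ x, D 2 (ch m δ f) x ^ 3 ∂ν) (B1 := ∫ y, D 2 f y ^ 3 ∂adv m δ f ν)
    (C0 := ∫ x, D 3 (ch m δ f) x ^ 2 ∂ν) (C1 := ∫ y, D 3 f y ^ 2 ∂adv m δ f ν)
    (by
      rw [cE_zero hf.lip]
      simp only [u0]
      rw [integral_sub (hν.integrable ((r0.eg 3).pow 2)) (hν.integrable (((r0.eg 2).pow 3).const_mul _)),
        integral_const_mul])
    (by
      rw [cE_end hf.lip hν (by simp only [u1]; exact ((hf.eg 3).pow 2).sub (((hf.eg 2).pow 3).const_mul _))]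
      simp only [u1]
      rw [integral_sub (hν'.integrable ((hf.eg 3).pow 2)) (hν'.integrable (((hf.eg 2).pow 3).const_mul _)),
        integral_const_mul])
  rw [cE_zero hf.lip, cE_zero hf.lip, cE_zero hf.lip, cE_end hf.lip hν (by simp only [u1]; exact (hf.eg 1).pow 2),
    cE_end hf.lip hν (by simp only [u1]; exact (hf.eg 2).pow 2), cE_end hf.lip hν (by rw [u1]; exact hf.eg 0)] at key
  simpa only [u0, u1, iteratedDeriv_zero] using key

end Crest.Agent.R339.Cls
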