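import Crest.Agent.R339.Cls.Adm0
import Crest.Agent.R339.Cert

/-!
# Row 339 / Cls: `Γ'' ≥ 0`
Put `h = exp (m f)`, `a = m D1 f`, `b = m D2 f > 0`, `G = -D3 f / D2 f`, `y = D4 f / D2 f`, `X = -q'/q`, `w = 1/x`,
`U` as in `gap_certificate` and `W = q h b² U` on `(0,∞)`.  Then `a' = b`, `b' = -G b`, `G' = G² - y`,
`(q h b²)' = q h b² (a - X - 2G)`, and `T = q h b² (y² - 12 G² b + 6 b²) = m² · (integrand)`.
Hypotheses of the certificate for `x > 0`: `Adm.D1_nonneg`, `Adm.d3` (`2a ≤ G`), `Adm.mul_D2_le` (`b ≤ a w`),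
`pos_X_nonneg`, `pos_X'`.  So `Z(x) = ∫_0^x T + W(x)` has `Z' ≥ 0` on `(0,∞)`: monotone.
`W(x) → 0` as `x → 0+` (`a, G, X → 0`; `a w → a'(0)`, `G w → G'(0)` since `a 0 = G 0 = 0`) and as `x → ∞`
(`q X = -q'` and `q` have Gaussian decay, `|G| ≤ C exp (C|x|)` by `Adm.low`, `h ≤ C exp (m|x|)`).
The integrand is even (`Adm.D_neg`), so `∫_ℝ = 2 ∫_0^∞` (`integral_comp_abs`-type lemma or
`integral_add_compl` + `integral_comp_neg_Ioi`).
-/

set_option autoImplicit false
open MeasureTheory ProbabilityTheory Filter Topology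

noncomputable section

namespace Crest.Agent.R339.Cls

variable {β m : ℝ} {f q : ℝ → ℝ}

theorem pos_gauss {c : ℝ} (hc : 0 < c) (c' : ℝ) :
    Tendsto (fun x : ℝ => Real.exp (-(c * x ^ 2)) * Real.exp (c' * x)) atTop (𝓝 0) := by
  have h1 : Tendsto (fun x : ℝ => x * (c * x - c')) atTop atTop :=
    tendsto_id.atTop_mul_atTop₀ (tendsto_atTop_add_const_right _ (-c') (tendsto_id.const_mul_atTop hc))
  refine (Real.tendsto_exp_neg_atTop_nhds_zero.comp h1).congr fun x => ?_
  rw [Function.comp_apply, ← Real.exp_add]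
  congr 1
  ring

/-- If `q' (x₀) > 0` with `x₀ > 0` then `q' > 0` on `[x₀,∞)` by `ang`, contradicting the decay. -/
theorem pos_X_nonneg (hq : QC q) {x : ℝ} (hx : 0 < x) : 0 ≤ -deriv q x / q x := by
  by_contra hn
  push Not at hn
  have h1 : ∀ z, x ≤ z → 0 ≤ deriv q z := fun z hz => by
    have h2 := hq.ang z x hx hz
    have h3 : z * (-deriv q x / q x) < 0 := mul_neg_of_pos_of_neg (hx.trans_le hz) hn
    have h4 : -deriv q z / q z < 0 := by
      by_contra h5
      push Not at h5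
      nlinarith
    rw [div_neg_iff] at h4
    rcases h4 with h4 | h4
    · exact absurd h4.2 (hq.pos z).le.not_gt
    · linarith [h4.1]
  have h2 : MonotoneOn q (Set.Ici x) :=
    monotoneOn_of_deriv_nonneg (convex_Ici x) hq.d1.continuous.continuousOn hq.d1.differentiableOn fun z hz =>
      h1 z (interior_subset hz)
  obtain ⟨C, c, hc, h3⟩ := hq.dec
  have h4 := (pos_gauss hc 0).const_mul C
  rw [mul_zero] at h4
  have h5 : q x ≤ 0 := ge_of_tendsto h4 (by
    filter_upwards [eventually_ge_atTop x] with z hz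
    simpa using (h2 Set.self_mem_Ici hz hz).trans (h3 z).1)
  exact absurd (hq.pos x) h5.not_gt

/-- `X(x)/x` antitone and differentiable gives `X' ≤ X/x`. -/
theorem pos_X' (hq : QC q) {x : ℝ} (hx : 0 < x) :
    DifferentiableAt ℝ (fun z => -deriv q z / q z) x ∧
      deriv (fun z => -deriv q z / q z) x ≤ -deriv q x / q x * x⁻¹ := by
  have hd : DifferentiableAt ℝ (fun z => -deriv q z / q z) x :=
    ((hq.d2 x).neg).div (hq.d1 x) (hq.pos x).ne'
  refine ⟨hd, ?_⟩
  have h1 : AntitoneOn (fun z => -deriv q z / q z * z⁻¹) (Set.Ioi 0) := fun y hy z hz hyz => by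
    have h2 := hq.ang z y hy hyz
    have hy' : (0 : ℝ) < y := hy
    have hz' : (0 : ℝ) < z := hz
    simp only [← div_eq_mul_inv]
    rw [div_le_div_iff₀ hz' hy']
    linarith
  have h2 := h1.derivWithin_nonpos (x := x)
  rw [derivWithin_of_mem_nhds (Ioi_mem_nhds hx), (hd.hasDerivAt.fun_mul (hasDerivAt_inv hx.ne')).deriv] at h2
  have h3 := mul_le_mul_of_nonneg_right h2 hx.le
  have h4 : (deriv (fun z => -deriv q z / q z) x * x⁻¹ + -deriv q x / q x * -(x ^ 2)⁻¹) * x =
      deriv (fun z => -deriv q z / q z) x - -deriv q x / q x * x⁻¹ := by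
    field_simp
    ring
  linarith

/-- the multiplier -/
def posU (G a X w b : ℝ) : ℝ :=
  (52/125 : ℝ)*G^3 + (54/125 : ℝ)*G^2*(a - X) + (-2209/500 : ℝ)*G*b + (-41/50 : ℝ)*a*b + (339/500 : ℝ)*X*(b - a*w) +
    (-161/500 : ℝ)*G^2*w + (36/25 : ℝ)*G*a*w + (-869/500 : ℝ)*a^2*w

/-- its derivative -/
def posdU (G a X w b y X1 : ℝ) : ℝ :=
  (3*(52/125 : ℝ)*G^2 + 2*(54/125 : ℝ)*G*(a - X) + (-2209/500 : ℝ)*b + 2*(-161/500 : ℝ)*G*w + (36/25 : ℝ)*a*w) * (G^2 - y)
      + ((54/125 : ℝ)*G^2 + (-41/50 : ℝ)*b - (339/500 : ℝ)*X*w + (36/25 : ℝ)*G*w + 2*(-869/500 : ℝ)*a*w) * b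
      + (-(54/125 : ℝ)*G^2 + (339/500 : ℝ)*(b - a*w)) * X1
      + (-(339/500 : ℝ)*X*a + (-161/500 : ℝ)*G^2 + (36/25 : ℝ)*G*a + (-869/500 : ℝ)*a^2) * (-w^2)
      + ((-2209/500 : ℝ)*G + (-41/50 : ℝ)*a + (339/500 : ℝ)*X) * (-G*b)

theorem pos_cert {G a X w b y X1 : ℝ} (ha : 0 ≤ a) (hG : 2 * a ≤ G) (hX : 0 ≤ X) (hw : 0 ≤ w)
    (hb : 0 ≤ b) (hD : b ≤ a * w) (hX1 : X1 ≤ X * w) :
    0 ≤ y ^ 2 - 12 * G ^ 2 * b + 6 * b ^ 2 + (a - X - 2 * G) * posU G a X w b + posdU G a X w b y X1 := by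
  have := gap_certificate G a X w b y X1 ha hG hX hw hb hD hX1
  unfold posU posdU
  linarith

theorem pos_deriv {G a X w b : ℝ → ℝ} {x y X1 : ℝ} (hG : HasDerivAt G (G x ^ 2 - y) x) (ha : HasDerivAt a (b x) x)
    (hX : HasDerivAt X X1 x) (hw : HasDerivAt w (-w x ^ 2) x) (hb : HasDerivAt b (-G x * b x) x) :
    HasDerivAt (fun z => posU (G z) (a z) (X z) (w z) (b z)) (posdU (G x) (a x) (X x) (w x) (b x) y X1) x := by
  unfold posU posdU
  refine (((((((((hG.fun_pow 3).const_mul _).fun_add (((hG.fun_pow 2).const_mul _).fun_mul (ha.fun_sub hX))).fun_add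
    ((hG.const_mul _).fun_mul hb)).fun_add ((ha.const_mul _).fun_mul hb)).fun_add
    ((hX.const_mul _).fun_mul (hb.fun_sub (ha.fun_mul hw)))).fun_add (((hG.fun_pow 2).const_mul _).fun_mul hw)).fun_add
    (((hG.const_mul _).fun_mul ha).fun_mul hw)).fun_add (((ha.fun_pow 2).const_mul _).fun_mul hw)).congr_deriv ?_
  simp only [Nat.cast_ofNat, Nat.add_one_sub_one]
  ring

/-- at most exponential growth at `+∞` -/
def posE (F : ℝ → ℝ) : Prop := ∃ c : ℝ, F =O[atTop] fun x => Real.exp (c * x)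

theorem posE.mul {F G : ℝ → ℝ} (hF : posE F) (hG : posE G) : posE fun x => F x * G x := by
  obtain ⟨c, h⟩ := hF
  obtain ⟨c', h'⟩ := hG
  exact ⟨c + c', (h.mul h').congr_right fun x => by rw [← Real.exp_add, add_mul]⟩

theorem pos_exp_le {c c' : ℝ} (h : c ≤ c') : (fun x => Real.exp (c * x)) =O[atTop] fun x => Real.exp (c' * x) := by
  refine Asymptotics.IsBigO.of_bound 1 ?_
  filter_upwards [eventually_ge_atTop 0] with x hx
  rw [one_mul, Real.norm_eq_abs, Real.norm_eq_abs, Real.abs_exp, Real.abs_exp]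
  exact Real.exp_le_exp.2 (mul_le_mul_of_nonneg_right h hx)

theorem posE.add {F G : ℝ → ℝ} (hF : posE F) (hG : posE G) : posE fun x => F x + G x := by
  obtain ⟨c, h⟩ := hF
  obtain ⟨c', h'⟩ := hG
  exact ⟨max c c', (h.trans (pos_exp_le (le_max_left _ _))).add (h'.trans (pos_exp_le (le_max_right _ _)))⟩

theorem posE_of_le {F : ℝ → ℝ} (C c : ℝ) (h : ∀ x, 1 ≤ x → |F x| ≤ C * Real.exp (c * x)) : posE F := by
  refine ⟨c, Asymptotics.IsBigO.of_bound C ?_⟩
  filter_upwards [eventually_ge_atTop 1] with x hx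
  rw [Real.norm_eq_abs, Real.norm_eq_abs, Real.abs_exp]
  exact h x hx

theorem posE_of_bdd {F : ℝ → ℝ} (C : ℝ) (h : ∀ x, 1 ≤ x → |F x| ≤ C) : posE F :=
  posE_of_le C 0 fun x hx => by simpa using h x hx

theorem posE_const (c : ℝ) : posE fun _ => c := posE_of_bdd |c| fun _ _ => le_rfl

theorem posE.sub {F G : ℝ → ℝ} (hF : posE F) (hG : posE G) : posE fun x => F x - G x := by
  simpa [sub_eq_add_neg] using hF.add ((posE_const (-1)).mul hG)

theorem posE.pow {F : ℝ → ℝ} (hF : posE F) (n : ℕ) : posE fun x => F x ^ n := by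
  induction n with
  | zero => simpa using posE_const 1
  | succ n ih => simpa [pow_succ] using ih.mul hF

theorem posE.tendsto {F p : ℝ → ℝ} (hF : posE F) {C c : ℝ} (hc : 0 < c)
    (hp : ∀ x, |p x| ≤ C * Real.exp (-(c * x ^ 2))) : Tendsto (fun x => p x * F x) atTop (𝓝 0) := by
  obtain ⟨c', h⟩ := hF
  have h1 : p =O[atTop] fun x => Real.exp (-(c * x ^ 2)) := Asymptotics.IsBigO.of_bound C (Eventually.of_forall fun x => by
    rw [Real.norm_eq_abs, Real.norm_eq_abs, Real.abs_exp]; exact hp x)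
  exact (h1.mul h).trans_tendsto (pos_gauss hc c')

theorem posE_U {G a w b : ℝ → ℝ} (hG : posE G) (ha : posE a) (hw : posE w) (hb : posE b) (X : ℝ) :
    posE fun x => posU (G x) (a x) X (w x) (b x) := by
  unfold posU
  have c := posE_const
  exact (((((((c _).mul (hG.pow 3)).add (((c _).mul (hG.pow 2)).mul (ha.sub (c _)))).add (((c _).mul hG).mul hb)).add
    (((c _).mul ha).mul hb)).add ((c _).mul (hb.sub (ha.mul hw)))).add (((c _).mul (hG.pow 2)).mul hw)).add
    ((((c _).mul hG).mul ha).mul hw) |>.add (((c _).mul (ha.pow 2)).mul hw)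

theorem pos_slope {F : ℝ → ℝ} {F' : ℝ} (h : HasDerivAt F F' 0) (h0 : F 0 = 0) :
    Tendsto (fun x => F x * x⁻¹) (𝓝[>] 0) (𝓝 F') :=
  h.tendsto_slope_zero_right.congr fun x => by simp [h0, mul_comm]

theorem pos_main (hA : Adm β m f) (hm : 0 < m) (hq : QC q) :
    0 ≤ ∫ y, Real.exp (m * f y) *
      (D 4 f y ^ 2 - 12 * m * D 2 f y * D 3 f y ^ 2 + 6 * m ^ 2 * D 2 f y ^ 4) * q y := by
  set I : ℝ → ℝ := fun y => Real.exp (m * f y) *
      (D 4 f y ^ 2 - 12 * m * D 2 f y * D 3 f y ^ 2 + 6 * m ^ 2 * D 2 f y ^ 4) * q y with hI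
  by_cases hint : Integrable I; swap
  · exact (integral_undef hint).ge
  have hd := hA.reg.hasDerivAt
  have hp := hA.D2_pos
  have hf : ∀ x, HasDerivAt f (D 1 f x) x := fun x => by simpa [D] using hd 0 x
  have hc : ∀ k, Continuous (D k f) := fun k => (hA.reg.diff k).continuous
  have hIc : Continuous I := by
    have h0 : Continuous f := hA.reg.lip.continuous
    have h1 := hq.d1.continuous
    have h2 := hc 2
    have h3 := hc 3
    have h4 := hc 4
    simp only [hI]
    fun_prop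
  have heven : (fun x => I |x|) = I := funext fun x => by
    rcases abs_cases x with h | h <;> rw [h.1]
    simp only [hI, hA.D_neg, hA.even, hq.even]
    ring
  rw [← heven, integral_comp_abs]
  -- the functions of the certificate
  set h : ℝ → ℝ := fun x => Real.exp (m * f x) with hh
  set a : ℝ → ℝ := fun x => m * D 1 f x with ha
  set b : ℝ → ℝ := fun x => m * D 2 f x with hb
  set G : ℝ → ℝ := fun x => -D 3 f x / D 2 f x with hG
  set X : ℝ → ℝ := fun x => -deriv q x / q x with hX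
  have dh : ∀ x, HasDerivAt h (h x * a x) x := fun x => ((hf x).const_mul m).exp
  have da : ∀ x, HasDerivAt a (b x) x := fun x => (hd 1 x).const_mul m
  have db : ∀ x, HasDerivAt b (-G x * b x) x := fun x => ((hd 2 x).const_mul m).congr_deriv (by
    have := (hp x).ne'
    simp only [hG, hb]
    field_simp)
  have dG : ∀ x, HasDerivAt G (G x ^ 2 - D 4 f x / D 2 f x) x := fun x =>
    ((hd 3 x).fun_neg.fun_div (hd 2 x) (hp x).ne').congr_deriv (by
      have := (hp x).ne'
      simp only [hG]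
      field_simp
      ring)
  have dq : ∀ x, HasDerivAt q (-X x * q x) x := fun x => (hq.d1 x).hasDerivAt.congr_deriv (by
    have := (hq.pos x).ne'
    simp only [hX]
    field_simp)
  set W : ℝ → ℝ := fun x => q x * h x * b x ^ 2 * posU (G x) (a x) (X x) x⁻¹ (b x) with hW
  set Z : ℝ → ℝ := fun x => m ^ 2 * (∫ t in (0 : ℝ)..x, I t) + W x with hZ
  have dZ : ∀ x, 0 < x → ∃ Z', HasDerivAt Z Z' x ∧ 0 ≤ Z' := fun x hx => by
    obtain ⟨h1, h2⟩ := pos_X' hq hx
    have dw : HasDerivAt (fun z : ℝ => z⁻¹) (-x⁻¹ ^ 2) x := (hasDerivAt_inv hx.ne').congr_deriv (by rw [inv_pow])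
    have dU := pos_deriv (w := fun z => z⁻¹) (dG x) (da x) h1.hasDerivAt dw (db x)
    refine ⟨_, ((hIc.integral_hasStrictDerivAt 0 x).hasDerivAt.const_mul _).fun_add
      ((((dq x).fun_mul (dh x)).fun_mul ((db x).fun_pow 2)).fun_mul dU), ?_⟩
    have hb0 : 0 < b x := mul_pos hm (hp x)
    have cert := pos_cert (y := D 4 f x / D 2 f x) (mul_nonneg hm.le (hA.D1_nonneg hx.le) : 0 ≤ a x)
      (show 2 * a x ≤ G x by
        have := hA.d3 x hx.le
        simp only [ha, hG]
        rw [le_div_iff₀ (hp x)]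
        linarith) (pos_X_nonneg hq hx : 0 ≤ X x) (inv_nonneg.2 hx.le) hb0.le
      (show b x ≤ a x * x⁻¹ by
        have := mul_le_mul_of_nonneg_left (hA.mul_D2_le hm.le hx.le) hm.le
        simp only [ha, hb]
        rw [← div_eq_mul_inv, le_div_iff₀ hx]
        linarith) h2
    have e1 : m ^ 2 * I x = q x * h x * b x ^ 2 * ((D 4 f x / D 2 f x) ^ 2 - 12 * G x ^ 2 * b x + 6 * b x ^ 2) := by
      have := (hp x).ne'
      simp only [hI, hh, hb, hG]
      field_simp
    have hpos : 0 ≤ q x * h x * b x ^ 2 := mul_nonneg (mul_nonneg (hq.pos x).le (Real.exp_pos _).le) (sq_nonneg _)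
    refine (mul_nonneg hpos cert).trans_eq ?_
    rw [e1]
    simp only [Nat.cast_ofNat, Nat.add_one_sub_one]
    ring
  have hmono : MonotoneOn Z (Set.Ioi 0) := by
    refine monotoneOn_of_deriv_nonneg (convex_Ioi 0) (fun x hx => ?_) (fun x hx => ?_) fun x hx => ?_
    · exact (dZ x hx).choose_spec.1.continuousAt.continuousWithinAt
    · exact (dZ x (interior_subset hx)).choose_spec.1.differentiableAt.differentiableWithinAt
    · obtain ⟨Z', h1, h2⟩ := dZ x (interior_subset hx)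
      rwa [h1.deriv]
  -- the limit at `0`
  have l0 : Tendsto Z (𝓝[>] 0) (𝓝 0) := by
    have a0 : a 0 = 0 := by simp only [ha, hA.D1_zero, mul_zero]
    have G0 : G 0 = 0 := by
      have := hA.D_neg 3 0
      rw [neg_zero] at this
      have h3 : D 3 f 0 = 0 := by linarith
      simp [hG, h3]
    have X0 : X 0 = 0 := by
      have h1 : deriv q 0 = 0 := by
        have h2 := deriv_comp_neg q 0
        rw [show (fun x => q (-x)) = q from funext hq.even, neg_zero] at h2
        linarith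
      simp [hX, h1]
    have ct : ∀ {F : ℝ → ℝ}, ContinuousAt F 0 → Tendsto F (𝓝[>] 0) (𝓝 (F 0)) := fun hF =>
      hF.tendsto.mono_left nhdsWithin_le_nhds
    have ta := ct (da 0).continuousAt
    have tb := ct (db 0).continuousAt
    have tG := ct (dG 0).continuousAt
    have tX' : Tendsto X (𝓝[>] 0) (𝓝 (X 0)) :=
      ct ((hq.d2 0).continuousAt.neg.div (hq.d1 0).continuousAt (hq.pos 0).ne')
    rw [X0] at tX'
    rw [a0] at ta
    rw [G0] at tG
    have sa := pos_slope (da 0) a0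
    have sG := pos_slope (dG 0) G0
    have tU := (((((((tG.pow 3).const_mul (52/125 : ℝ)).add (((tG.pow 2).const_mul (54/125 : ℝ)).mul (ta.sub tX'))).add
      ((tG.const_mul (-2209/500 : ℝ)).mul tb)).add ((ta.const_mul (-41/50 : ℝ)).mul tb)).add
      ((tX'.const_mul (339/500 : ℝ)).mul (tb.sub sa))).add ((tG.const_mul (-161/500 : ℝ)).mul sG)).add
      ((tG.const_mul (36/25 : ℝ)).mul sa) |>.add ((ta.const_mul (-869/500 : ℝ)).mul sa)
    have tU' : Tendsto (fun x => posU (G x) (a x) (X x) x⁻¹ (b x)) (𝓝[>] 0) (𝓝 0) := by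
      convert tU using 2
      · unfold posU; ring
      · ring
    have tI := ct (hIc.integral_hasStrictDerivAt 0 0).hasDerivAt.continuousAt
    have := (tI.const_mul (m ^ 2)).add ((((ct (dq 0).continuousAt).mul (ct (dh 0).continuousAt)).mul (tb.pow 2)).mul tU')
    simpa using this
  -- the limit at `∞`
  have l1 : Tendsto Z atTop (𝓝 (m ^ 2 * ∫ t in Set.Ioi (0 : ℝ), I t)) := by
    have eD : ∀ k, posE (D (k + 1) f) := fun k => by
      obtain ⟨C, hC⟩ := hA.reg.bdd k
      exact posE_of_bdd C fun x _ => hC x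
    have ea : posE a := (posE_const m).mul (eD 0)
    have eb : posE b := (posE_const m).mul (eD 1)
    have ew : posE fun x : ℝ => x⁻¹ := posE_of_bdd 1 fun x hx => by
      rw [abs_of_nonneg (by positivity)]; exact inv_le_one_of_one_le₀ hx
    have eh : posE h := posE_of_le (Real.exp (m * f 0)) m fun x hx => by
      have := hA.reg.lip.dist_le_mul x 0
      rw [Real.dist_eq, Real.dist_eq, NNReal.coe_one, one_mul, sub_zero, abs_of_nonneg (by linarith : 0 ≤ x)] at this
      rw [hh, Real.abs_exp, ← Real.exp_add, ← mul_add]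
      exact Real.exp_le_exp.2 (mul_le_mul_of_nonneg_left (by linarith [le_abs_self (f x - f 0)]) hm.le)
    have eG : posE G := by
      obtain ⟨c, C, hc0, hl⟩ := hA.low
      have e1 : posE fun x => (D 2 f x)⁻¹ := posE_of_le c⁻¹ C fun x hx => by
        have h1 := hl x
        rw [abs_of_nonneg (by linarith : 0 ≤ x)] at h1
        rw [abs_of_pos (inv_pos.2 (hp x))]
        refine (inv_anti₀ (by positivity) h1).trans_eq ?_
        rw [mul_inv, Real.exp_neg, inv_inv]
      simpa [hG, div_eq_mul_inv] using ((posE_const (-1)).mul (eD 2)).mul e1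
    obtain ⟨C, c, hc0, hdec⟩ := hq.dec
    have e0 := (eh.mul (eb.pow 2)).mul (posE_U eG ea ew eb 0)
    have e1 := (eh.mul (eb.pow 2)).mul ((posE_U eG ea ew eb 0).sub (posE_U eG ea ew eb 1))
    have t0 := e0.tendsto hc0 (p := q) fun x => by rw [abs_of_pos (hq.pos x)]; exact (hdec x).1
    have t1 := e1.tendsto hc0 (p := deriv q) fun x => (hdec x).2
    have tW : Tendsto W atTop (𝓝 0) := by
      have := t0.add t1
      rw [add_zero] at this
      refine this.congr fun x => ?_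
      have e : deriv q x = -X x * q x := (dq x).deriv
      simp only [hW, e]
      unfold posU
      ring
    have := ((intervalIntegral_tendsto_integral_Ioi 0 hint.integrableOn tendsto_id).const_mul (m ^ 2)).add tW
    simpa using this
  have h1 : 0 ≤ Z 1 := le_of_tendsto l0 (by
    filter_upwards [Ioo_mem_nhdsGT (zero_lt_one' ℝ)] with x hx
    exact hmono hx.1 (zero_lt_one' ℝ) hx.2.le)
  have h2 : Z 1 ≤ m ^ 2 * ∫ t in Set.Ioi (0 : ℝ), I t := ge_of_tendsto l1 (by
    filter_upwards [eventually_ge_atTop 1] with x hx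
    exact hmono (zero_lt_one' ℝ) (zero_lt_one.trans_le hx) hx)
  have h3 := nonneg_of_mul_nonneg_right (h1.trans h2) (by positivity : 0 < m ^ 2)
  positivity

end Crest.Agent.R339.Cls
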