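import Crest.Agent.R339.Cls.Pde
import Crest.Agent.R339.Cls.Calc
import Crest.Agent.R339.Cls.Pos
import Crest.Agent.R339.Cls.Adm

/-!
# Row 339 / Cls: one cell
Let `Φ t = ch m (δ - t) f`, `h t y = Zs m (δ - t) f y = exp (m Φ t y)`, `μ = unt m δ f ν`, `u k = D k (Φ t) y`.
For an observable `O t y` put `cE O t = flow μ (h · O) t`.  With `𝓛 O = O_t + m u₁ O_y + ½ O_yy` one has
`(hO)_t + ½ (hO)_yy = h 𝓛O`, so `heat` gives `d/dt cE O = cE (𝓛 O)` (`cell_deriv`).  By `pde0`–`pde3`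
(time is `δ - t`, so signs flip): `𝓛 Φ = (m/2) u₁²`, `𝓛 u₁² = u₂²`, `𝓛 u₂² = u₃² - 2m u₂³`,
`𝓛 (u₃² - 2m u₂³) = u₄² - 12 m u₂ u₃² + 6 m² u₂⁴`, and the last `cE` is `≥ 0` by `integral_smo` + `pos_main`
(`adm_ch`, `hq t`).  End points: `cE O 0 = ∫ O 0 dν` (`integral_unt`), `cE O δ = ∫ O δ d(adv)` (`ch_zero`,
`integral_adv`).  Finish with `calc_cell`.
-/

set_option autoImplicit false
open MeasureTheory ProbabilityTheory Filter Topology

noncomputable section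

namespace Crest.Agent.R339.Cls

variable {β m δ : ℝ} {f : ℝ → ℝ} {ν : Measure ℝ}

/-- Expectation of the observable `O t` at time `t` inside the cell. -/
def cE (m δ : ℝ) (f : ℝ → ℝ) (ν : Measure ℝ) (O : ℝ → ℝ → ℝ) (t : ℝ) : ℝ :=
  flow (unt m δ f ν) (fun t y => Zs m (δ - t) f y * O t y) t

theorem cE_zero (hf : LipschitzWith 1 f) (O : ℝ → ℝ → ℝ) : cE m δ f ν O 0 = ∫ x, O 0 x ∂ν := by
  simp only [cE, flow, Real.sqrt_zero, zero_mul, add_zero, sub_zero, integral_const, probReal_univ, smul_eq_mul, one_mul]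
  rw [integral_unt hf]
  refine integral_congr_ae (ae_of_all _ fun x => ?_)
  simp only
  rw [mul_div_cancel_left₀ _ (Zs_pos hf m δ x).ne']

theorem cE_end (hf : LipschitzWith 1 f) (hν : Gd ν) {O : ℝ → ℝ → ℝ} (hO : EG (O δ)) :
    cE m δ f ν O δ = ∫ y, O δ y ∂adv m δ f ν := by
  rw [integral_adv hf hν hO, cE, flow, integral_unt hf]
  refine integral_congr_ae (ae_of_all _ fun x => ?_)
  have e : ∀ y, Zs m 0 f y = Real.exp (m * f y) := fun y => by simp [Zs]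
  simp only [tE, sub_self, e, mul_comm]

theorem cell1_Zs_le (hf : LipschitzWith 1 f) (hm : 0 ≤ m) (δ : ℝ) :
    ∃ A : ℝ, 0 ≤ A ∧ ∀ s ≤ δ, ∀ y, Zs m s f y ≤ A * Real.exp (m * |y|) := by
  refine ⟨Real.exp (m * |f 0|) * ∫ g, Real.exp (m * √δ * |g|) ∂γ1, by positivity, fun s hs y => ?_⟩
  rw [mul_right_comm, ← integral_const_mul]
  refine integral_mono_of_nonneg (ae_of_all _ fun g => (Real.exp_pos _).le) ((heat_int_gauss _).const_mul _)
    (ae_of_all _ fun g => ?_)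
  simp only
  rw [← Real.exp_add, ← Real.exp_add, mul_assoc, ← mul_add, ← mul_add]
  have h1 := hf.dist_le_mul (y + √s * g) 0
  rw [Real.dist_eq, Real.dist_eq, NNReal.coe_one, one_mul, sub_zero] at h1
  have h2 : |y + √s * g| ≤ |y| + √δ * |g| := by
    refine (abs_add_le _ _).trans ?_
    rw [abs_mul, abs_of_nonneg (Real.sqrt_nonneg s)]
    gcongr
  have h3 : f (y + √s * g) ≤ |f 0| + |y| + √δ * |g| := by
    linarith [le_abs_self (f 0), le_abs_self (f (y + √s * g) - f 0)]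
  gcongr

theorem cell1_Hk_le (hf : Reg f) (hm : 0 ≤ m) (δ : ℝ) : ∃ A : ℝ, 0 ≤ A ∧ ∀ s ≤ δ, ∀ y,
    |Hk m s f 0 y| ≤ A * Real.exp (m * |y|) ∧ |Hk m s f 1 y| ≤ A * Real.exp (m * |y|) ∧
      |Hk m s f 2 y| ≤ A * Real.exp (m * |y|) := by
  obtain ⟨A, A0, hA⟩ := cell1_Zs_le hf.lip hm δ
  choose C hC using abs_Hk_le hf m
  have key : ∀ k, ∀ s ≤ δ, ∀ y, ∀ B, |C k| ≤ B → |Hk m s f k y| ≤ B * A * Real.exp (m * |y|) := fun k s hs y B hB => by
    refine (hC k s y).trans ?_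
    rw [mul_assoc]
    exact mul_le_mul ((le_abs_self _).trans hB) (hA s hs y) (Zs_pos hf.lip _ _ _).le ((abs_nonneg _).trans hB)
  have p0 := abs_nonneg (C 0)
  have p1 := abs_nonneg (C 1)
  have p2 := abs_nonneg (C 2)
  exact ⟨(|C 0| + |C 1| + |C 2|) * A, by positivity, fun s hs y =>
    ⟨key 0 s hs y _ (by linarith), key 1 s hs y _ (by linarith), key 2 s hs y _ (by linarith)⟩⟩

theorem cell_deriv (hf : Reg f) (hm : 0 < m) (hδ : 0 < δ) (hν : Gd ν) {O Ot Oy Oyy : ℝ → ℝ → ℝ}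
    (hc : Continuous fun p : ℝ × ℝ => O p.1 p.2)
    (hF : ∀ t ∈ Set.Ioo 0 δ, ∀ y, HasFDerivAt (fun p : ℝ × ℝ => O p.1 p.2) (lin (Ot t y) (Oy t y)) (t, y))
    (hyy : ∀ t ∈ Set.Ioo 0 δ, ∀ y, HasDerivAt (Oy t) (Oyy t y) y)
    (mt : ∀ t, Measurable (Ot t)) (my : ∀ t, Measurable (Oy t)) (myy : ∀ t, Measurable (Oyy t))
    (hb : ∃ C : ℝ, ∀ t ∈ Set.Icc 0 δ, ∀ y, |O t y| ≤ C * Real.exp (C * |y|) ∧
      |Ot t y| ≤ C * Real.exp (C * |y|) ∧ |Oy t y| ≤ C * Real.exp (C * |y|) ∧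
      |Oyy t y| ≤ C * Real.exp (C * |y|)) :
    ContinuousOn (cE m δ f ν O) (Set.Icc 0 δ) ∧ ∀ t ∈ Set.Ioo 0 δ,
      HasDerivAt (cE m δ f ν O) (cE m δ f ν
        (fun t y => Ot t y + m * D 1 (ch m (δ - t) f) y * Oy t y + Oyy t y / 2) t) t := by
  obtain ⟨C, hb⟩ := hb
  obtain ⟨A, A0, hA⟩ := cell1_Hk_le hf hm.le δ
  have C0 : 0 ≤ C := by simpa using (abs_nonneg _).trans (hb 0 ⟨le_rfl, hδ.le⟩ 0).1
  have cH : ∀ k, Continuous fun p : ℝ × ℝ => Hk m (δ - p.1) f k p.2 := fun k =>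
    (continuous_Hk hf m k).comp (f := fun p : ℝ × ℝ => (δ - p.1, p.2)) (by fun_prop)
  have mH : ∀ k t, Measurable (Hk m (δ - t) f k) := fun k t => ((cH k).comp (Continuous.prodMk_right t)).measurable
  have mO : ∀ t, Measurable (O t) := fun t => (hc.comp (Continuous.prodMk_right t)).measurable
  have key := heat (ge_unt hf.lip hν m δ) hδ (W := fun t y => Hk m (δ - t) f 0 y * O t y)
    (Wt := fun t y => -(Hk m (δ - t) f 2 y / 2) * O t y + Hk m (δ - t) f 0 y * Ot t y)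
    (Wy := fun t y => Hk m (δ - t) f 1 y * O t y + Hk m (δ - t) f 0 y * Oy t y)
    (Wyy := fun t y => Hk m (δ - t) f 2 y * O t y + 2 * (Hk m (δ - t) f 1 y * Oy t y) + Hk m (δ - t) f 0 y * Oyy t y)
    ((cH 0).mul hc) (fun t ht y => ?_) (fun t ht y => ?_)
    (fun t => (((mH 2 t).div_const 2).neg.mul (mO t)).add ((mH 0 t).mul (mt t)))
    (fun t => ((mH 1 t).mul (mO t)).add ((mH 0 t).mul (my t)))
    (fun t => (((mH 2 t).mul (mO t)).add (((mH 1 t).mul (my t)).const_mul 2)).add ((mH 0 t).mul (myy t)))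
    ⟨4 * (A * C) + (m + C), fun t ht y => ?_⟩
  · have e : cE m δ f ν O = flow (unt m δ f ν) fun t y => Hk m (δ - t) f 0 y * O t y := by
      funext t
      simp only [cE, Hk_zero]
    rw [e]
    refine ⟨key.1, fun t ht => ?_⟩
    convert key.2 t ht using 1
    rw [cE]
    congr 1
    funext t y
    rw [D1_ch_Hk hf hm, ← Hk_zero]
    have : Hk m (δ - t) f 0 y ≠ 0 := by rw [Hk_zero]; exact (Zs_pos hf.lip _ _ _).ne'
    field_simp
    ring
  · have h1 : HasFDerivAt (fun p : ℝ × ℝ => (δ - p.1, p.2))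
        ((-ContinuousLinearMap.fst ℝ ℝ ℝ).prod (ContinuousLinearMap.snd ℝ ℝ ℝ)) (t, y) :=
      (hasFDerivAt_fst.const_sub δ).prodMk hasFDerivAt_snd
    have h2 := (pde_Hk hf m (sub_pos.2 ht.2) 0 y).comp (t, y) h1
    refine (h2.mul (hF t ht y)).congr_fderiv ?_
    ext <;> simp <;> ring
  · have h0 : HasDerivAt (O t) (Oy t y) y := by
      have := (hF t ht y).comp_hasDerivAt y ((hasDerivAt_const y t).prodMk (hasDerivAt_id y))
      simpa [Function.comp_def] using this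
    refine (((hasDerivAt_Hk hf m (δ - t) 1 y).mul h0).add
      ((hasDerivAt_Hk hf m (δ - t) 0 y).mul (hyy t ht y))).congr_deriv ?_
    ring
  · obtain ⟨a0, a1, a2⟩ := hA (δ - t) (by linarith [ht.1]) y
    obtain ⟨b0, b1, b2, b3⟩ := hb t ht y
    set P := A * C * Real.exp ((m + C) * |y|) with hP
    have pr : ∀ {u v : ℝ}, |u| ≤ A * Real.exp (m * |y|) → |v| ≤ C * Real.exp (C * |y|) → -P ≤ u * v ∧ u * v ≤ P :=
      fun hu hv => by
        rw [← abs_le, abs_mul, hP, add_mul, Real.exp_add, mul_mul_mul_comm]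
        exact mul_le_mul hu hv (abs_nonneg _) (by positivity)
    have P0 : 0 ≤ P := by positivity
    have fin : 4 * P ≤ (4 * (A * C) + (m + C)) * Real.exp ((4 * (A * C) + (m + C)) * |y|) := by
      have : 0 ≤ A * C := by positivity
      have h1 : m + C ≤ 4 * (A * C) + (m + C) := by linarith
      have h2 : 4 * (A * C) ≤ 4 * (A * C) + (m + C) := by linarith
      rw [hP, ← mul_assoc]
      exact mul_le_mul h2 (Real.exp_le_exp.2 (mul_le_mul_of_nonneg_right h1 (abs_nonneg _))) (by positivity)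
        (by linarith)
    refine ⟨abs_le.2 ⟨?_, ?_⟩, abs_le.2 ⟨?_, ?_⟩, abs_le.2 ⟨?_, ?_⟩, abs_le.2 ⟨?_, ?_⟩⟩ <;>
      linarith [pr a0 b0, pr a0 b1, pr a0 b2, pr a0 b3, pr a1 b0, pr a1 b2, pr a2 b0]

theorem cell_pos (hA : Adm β m f) (hm : 0 < m) (hmβ : m ≤ β) (hν : Gd ν) (hq : QM (unt m δ f ν))
    {t : ℝ} (ht : 0 < t) :
    0 ≤ cE m δ f ν (fun t y => D 4 (ch m (δ - t) f) y ^ 2 -
      12 * m * D 2 (ch m (δ - t) f) y * D 3 (ch m (δ - t) f) y ^ 2 +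
        6 * m ^ 2 * D 2 (ch m (δ - t) f) y ^ 4) t := by
  have hA' := adm_ch hA hm hmβ (δ - t)
  have hR := hA'.reg
  have hf := hA.reg.lip
  have eZ : Zs m (δ - t) f = fun y => Real.exp (m * ch m (δ - t) f y) := funext fun y => (exp_ch hf hm.ne' _ y).symm
  have e : EG fun y => Real.exp (m * ch m (δ - t) f y) * (D 4 (ch m (δ - t) f) y ^ 2 -
      12 * m * D 2 (ch m (δ - t) f) y * D 3 (ch m (δ - t) f) y ^ 2 + 6 * m ^ 2 * D 2 (ch m (δ - t) f) y ^ 4) :=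
    (EG.exp_lip hR.lip m).mul ((((hR.eg 4).pow 2).sub (((hR.eg 2).const_mul _).mul ((hR.eg 3).pow 2))).add
      (((hR.eg 2).pow 4).const_mul _))
  simp only [cE, flow, eZ]
  rw [(integral_smo (ge_unt hf hν m δ) e ht).2]
  exact pos_main hA' hm (hq t ht)

end Crest.Agent.R339.Cls
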