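import Crest.Agent.R339.Cls.Adm0

/-!
# Row 339 / Cls: the classes along the grid (inductions on `j`)
-/

set_option autoImplicit false
open MeasureTheory ProbabilityTheory Filter Topology

noncomputable section

namespace Crest.Agent.R339.Cls

variable {β η : ℝ} {K : ℕ} {γ : ℕ → ℝ}

theorem Par.pos (h : Par β η K γ) (hη : 0 < η) (j : ℕ) : 0 < γ j :=
  hη.trans_le (h.low.trans (h.mono (Nat.zero_le j)))

theorem Par.le (h : Par β η K γ) (j : ℕ) : γ j ≤ β := by
  rw [← h.top (max j K) (le_max_right _ _)]; exact h.mono (le_max_left _ _)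

theorem lip_lc (hβ : 0 < β) : LipschitzWith 1 (lc β) := (adm_lc hβ).reg.lip

theorem lip_Phi (hβ : 0 < β) (hγ : ∀ j, 0 < γ j) (K j : ℕ) : LipschitzWith 1 (Phi β K γ j) := by
  unfold Phi
  induction K - j with
  | zero => exact lip_lc hβ
  | succ r ih => exact lip_ch ih (hγ _) _

theorem gd_nu (hβ : 0 < β) (hγ : ∀ j, 0 < γ j) (K j : ℕ) : Gd (nu β K γ j) := by
  induction j with
  | zero => exact gd_dirac 0
  | succ j ih => exact gd_adv (lip_Phi hβ hγ K _) ih _ _

end Crest.Agent.R339.Cls
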