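import Crest.Agent.R339.Cls.Base

/-!
# Row 339 / Cls: Gaussian integration by parts
`gauss_ibp`: write `γ1` with its density (`gaussianReal_of_var_ne_zero`, `integral_gaussianReal_eq_integral_smul`)
and use `integral_mul_deriv_eq_deriv_mul_of_integrable` (or `integral_of_hasDerivAt_of_tendsto`).
`tE_ibp`: apply it to `g ↦ F(x+√s g) exp(m f(x+√s g))`.
-/

set_option autoImplicit false
open MeasureTheory ProbabilityTheory Filter Topology

noncomputable section

namespace Crest.Agent.R339.Cls

theorem ibp_int {G : ℝ → ℝ} (hG : EG G) : Integrable fun x => gaussianPDFReal 0 1 x * G x := by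
  have h := hG.integrable_gauss 1 0
  rw [γ1, gaussianReal_of_var_ne_zero _ one_ne_zero,
    integrable_withDensity_iff_integrable_smul' (measurable_gaussianPDF _ _) (ae_of_all _ fun _ => gaussianPDF_lt_top)] at h
  simpa using h

theorem ibp_deriv (x : ℝ) : HasDerivAt (gaussianPDFReal 0 1) (-x * gaussianPDFReal 0 1 x) x := by
  have h := ((((hasDerivAt_id' x).sub_const 0).pow 2).neg.div_const (2 * ((1 : NNReal) : ℝ))).exp.const_mul
    (√(2 * Real.pi * ((1 : NNReal) : ℝ)))⁻¹
  refine h.congr_deriv ?_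
  simp only [gaussianPDFReal, NNReal.coe_one, Pi.neg_apply, Pi.pow_apply]
  ring

theorem ibp_aff {F : ℝ → ℝ} (hF : EG F) (x c : ℝ) : EG fun g => F (x + c * g) := by
  obtain ⟨hm, C, hC⟩ := hF
  have h0 : 0 ≤ C := by simpa using (abs_nonneg _).trans (hC 0)
  refine ⟨hm.comp (by fun_prop), max (C * Real.exp (C * |x|)) (C * |c|), fun g => (hC _).trans ?_⟩
  calc _ ≤ C * Real.exp (C * |x| + C * |c| * |g|) := by
        rw [mul_assoc C, ← mul_add, ← abs_mul]
        gcongr
        exact abs_add_le _ _
    _ ≤ _ := by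
        rw [Real.exp_add, ← mul_assoc]
        gcongr
        exacts [le_max_left _ _, le_max_right _ _]

theorem gauss_ibp {F F' : ℝ → ℝ} (hd : ∀ x, HasDerivAt F (F' x) x) (hF : EG F) (hF' : EG F') :
    ∫ g, g * F g ∂γ1 = ∫ g, F' g ∂γ1 := by
  rw [integral_gaussianReal_eq_integral_smul one_ne_zero, integral_gaussianReal_eq_integral_smul one_ne_zero]
  simp only [smul_eq_mul]
  rw [integral_mul_deriv_eq_deriv_mul_of_integrable (fun x _ => ibp_deriv x) (fun x _ => hd x) (ibp_int hF')
    ((ibp_int (eg_id.mul hF)).neg.congr (ae_of_all _ fun x => by simp only [Pi.neg_apply, Pi.mul_apply]; ring))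
    (ibp_int hF), ← integral_neg]
  exact integral_congr_ae (ae_of_all _ fun x => by ring)

theorem tE_ibp {m s : ℝ} {f F F' : ℝ → ℝ} (hf : Reg f) (hs : 0 ≤ s)
    (hd : ∀ x, HasDerivAt F (F' x) x) (hF : EG F) (hF' : EG F') (x : ℝ) :
    tE m s f (fun y => (y - x) * F y) x = s * tE m s f (fun y => F' y + m * D 1 f y * F y) x := by
  have h1 : EG (D 1 f) := (hf.bdd 0).elim fun C hC => .of_bdd (hf.diff 1).continuous.measurable hC
  have h2 := gauss_ibp (F := fun g => F (x + √s * g) * Real.exp (m * f (x + √s * g)))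
    (F' := fun g => √s * ((F' (x + √s * g) + m * D 1 f (x + √s * g) * F (x + √s * g)) * Real.exp (m * f (x + √s * g))))
    (fun g => by
      have h3 := ((hd _).mul ((hf.hasDerivAt 0 (x + √s * g)).const_mul m).exp).comp g
        (((hasDerivAt_id' g).const_mul √s).const_add x)
      refine h3.congr_deriv ?_
      simp only [D, iteratedDeriv_zero]
      ring)
    (ibp_aff (hF.mul (.exp_lip hf.lip m)) x _)
    ((ibp_aff ((hF'.add ((h1.const_mul m).mul hF)).mul (.exp_lip hf.lip m)) x _).const_mul _)
  rw [integral_const_mul] at h2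
  simp only [← mul_assoc _ (F _)] at h2
  simp only [tE, add_sub_cancel_left, mul_assoc √s]
  rw [integral_const_mul, h2, ← mul_assoc, Real.mul_self_sqrt hs, mul_div_assoc]

end Crest.Agent.R339.Cls
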