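import Crest.Agent.R339.Cls.Adm0
import Crest.Agent.R339.Cls.Ibp

/-!
# Row 339 / Cls: exact one-step identities
`integral_adv` + `D1_ch`, `D2_ch`, `sq_tE_le`, `tE_ibp` (with `F = D 1 f`:
`tE (y · D1 f y) x = x · D1 (ch) x + s · tE (D2 f + m (D1 f)²) x`).
`step_V_lt`: if `tE (F - c)² x = 0` with `c = tE F x`, then `F (x + √s g) = c` for all `g` (continuity, the Gaussian
has full support), impossible for a strictly monotone `F` and `s > 0`; so `tE F² - (tE F)² > 0` everywhere;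
`integral_pos_iff_support_of_nonneg`.
-/

set_option autoImplicit false
open MeasureTheory ProbabilityTheory Filter Topology

noncomputable section

namespace Crest.Agent.R339.Cls

variable {β m s : ℝ} {f : ℝ → ℝ} {ν : Measure ℝ}

theorem step_eg (hf : Reg f) (m : ℝ) : EG fun y => D 2 f y + m * D 1 f y ^ 2 :=
  (hf.eg 2).add (((hf.eg 1).pow 2).const_mul m)

theorem step_int (hf : Reg f) (hm : 0 < m) (hν : Gd ν) (s : ℝ) :
    ∫ x, D 2 (ch m s f) x ∂ν + m * ∫ x, D 1 (ch m s f) x ^ 2 ∂ν =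
      ∫ x, tE m s f (fun y => D 2 f y + m * D 1 f y ^ 2) x ∂ν := by
  have hr := reg_ch hf hm s
  rw [← integral_const_mul, ← integral_add (hν.integrable (hr.eg 2)) (hν.integrable (((hr.eg 1).pow 2).const_mul m))]
  refine integral_congr_ae (.of_forall fun x => ?_)
  simp only [D2_ch hf hm, D1_ch hf hm, sub_add_cancel]

theorem step_A (hf : Reg f) (hm : 0 < m) (hν : Gd ν) (s : ℝ) :
    ∫ x, D 2 (ch m s f) x ∂ν + m * ∫ x, D 1 (ch m s f) x ^ 2 ∂ν =
      ∫ y, D 2 f y ∂adv m s f ν + m * ∫ y, D 1 f y ^ 2 ∂adv m s f ν := by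
  have hν' := gd_adv hf.lip hν m s
  rw [step_int hf hm hν, ← integral_const_mul, ← integral_add (hν'.integrable (hf.eg 2))
    (hν'.integrable (((hf.eg 1).pow 2).const_mul m)), integral_adv hf.lip hν (step_eg hf m)]

theorem step_var {F : ℝ → ℝ} (hf : LipschitzWith 1 f) (hF : EG F) (hi : Function.Injective F) (m : ℝ) (hs : 0 < s)
    (x : ℝ) : tE m s f F x ^ 2 < tE m s f (fun y => F y ^ 2) x := by
  set c := tE m s f F x with hc
  have h1 : tE m s f (fun y => (F y - c) ^ 2) x = tE m s f (fun y => F y ^ 2) x - c ^ 2 := by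
    have e : (fun y => (F y - c) ^ 2) = fun y => F y ^ 2 - 2 * c * F y + c ^ 2 := funext fun y => by ring
    rw [e, tE_add hf ((hF.pow 2).sub (hF.const_mul _)) (eg_const _), tE_sub hf (hF.pow 2) (hF.const_mul _),
      tE_const_mul, tE_const hf, ← hc]
    ring
  rw [← sub_pos, ← h1]
  refine div_pos ((integral_pos_iff_support_of_nonneg (fun g => by positivity)
    (integrable_tilt hf ((hF.sub (eg_const c)).pow 2) m s x)).2 (pos_iff_ne_zero.2 ?_)) (Zs_pos hf m s x)
  have : NullSingletonClass γ1 := nullSingletonClass_gaussianReal one_ne_zero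
  have h2 : {g : ℝ | ¬ F (x + √s * g) ≠ c}.Subsingleton := fun g hg g' hg' => by
    have := hi ((not_not.1 hg).trans (not_not.1 hg').symm)
    exact mul_left_cancel₀ (Real.sqrt_pos.2 hs).ne' (add_left_cancel this)
  refine frequently_ae_mem_iff.1 (Eventually.frequently ?_)
  filter_upwards [ae_iff.2 (h2.measure_zero γ1)] with g hg
  exact mul_ne_zero (pow_ne_zero 2 (sub_ne_zero.2 hg)) (Real.exp_pos _).ne'

theorem step_V_lt {m' : ℝ} (hA : Adm β m' f) (hm : 0 < m) (hs : 0 < s) (hν : Gd ν) :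
    ∫ x, D 1 (ch m s f) x ^ 2 ∂ν < ∫ y, D 1 f y ^ 2 ∂adv m s f ν := by
  have hf := hA.reg
  have := hν.1
  have i1 := hν.integrable (EG.tE hf.lip ((hf.eg 1).pow 2) m s)
  have i2 := hν.integrable ((EG.tE hf.lip (hf.eg 1) m s).pow 2)
  have h := fun x => sub_pos.2 (step_var hf.lip (hf.eg 1) hA.D1_strictMono.injective m hs x)
  simp only [D1_ch hf hm]
  rw [integral_adv hf.lip hν ((hf.eg 1).pow 2), ← sub_pos, ← integral_sub i1 i2,
    integral_pos_iff_support_of_nonneg (fun x => (h x).le) (i1.sub i2),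
    Function.support_eq_univ fun x => (h x).ne', measure_univ]
  exact one_pos

theorem step_M (hf : Reg f) (hm : 0 < m) (hs : 0 ≤ s) (hν : Gd ν) :
    ∫ y, y * D 1 f y ∂adv m s f ν = ∫ x, x * D 1 (ch m s f) x ∂ν +
      s * (∫ x, D 2 (ch m s f) x ∂ν + m * ∫ x, D 1 (ch m s f) x ^ 2 ∂ν) := by
  have e1 := (reg_ch hf hm s).eg 1
  rw [step_int hf hm hν, integral_adv hf.lip hν (eg_id.mul (hf.eg 1)), ← integral_const_mul,
    ← integral_add (hν.integrable (eg_id.mul e1)) (hν.integrable ((EG.tE hf.lip (step_eg hf m) m s).const_mul s))]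
  refine integral_congr_ae (.of_forall fun x => ?_)
  have h1 := tE_ibp (m := m) hf hs (hf.hasDerivAt 1) (hf.eg 1) (hf.eg 2) x
  have h2 := tE_sub hf.lip (eg_id.mul (hf.eg 1)) ((hf.eg 1).const_mul x) m s x
  rw [tE_const_mul, ← D1_ch hf hm] at h2
  simp only [sub_mul, mul_assoc, ← pow_two] at h1
  simp only
  linarith

/-- Conditional covariance of `u(Y)` and `Y`: `tE_ibp` twice (`F = D 1 f` and `F = 1`) and `D2_ch`. -/
theorem step_cov (hf : Reg f) (hm : 0 < m) (hs : 0 ≤ s) (x : ℝ) :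
    tE m s f (fun y => (y - x) * (D 1 f y - D 1 (ch m s f) x)) x = s * D 2 (ch m s f) x := by
  have h1 := tE_ibp (m := m) hf hs (fun y => (hf.hasDerivAt 1 y).sub_const (D 1 (ch m s f) x))
    ((hf.eg 1).sub (eg_const _)) (hf.eg 2) x
  have h2 := tE_sub hf.lip (step_eg hf m) ((hf.eg 1).const_mul (m * D 1 (ch m s f) x)) m s x
  rw [tE_const_mul] at h2
  have e : (fun y => D (1 + 1) f y + m * D 1 f y * (D 1 f y - D 1 (ch m s f) x)) =
      fun y => D 2 f y + m * D 1 f y ^ 2 - m * D 1 (ch m s f) x * D 1 f y := funext fun y => by ring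
  rw [h1, e, h2, D2_ch hf hm, D1_ch hf hm]
  ring

end Crest.Agent.R339.Cls
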