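import Crest.Agent.R339.Cls.Trans
import Crest.Agent.R339.Cls.Step
import Crest.Agent.R339.Cls.Grid0

/-!
# Row 339 / Cls: the message passing scheme
`k + 1 = K`.  `T j` from `transport` for `(γ j, dl K, Phi (j+1))`.  `X 0 = 0`, `X (j+1) g = T j (X j g) (g j)`
(`j < K`): continuous, odd, depends on the coordinates `< j`, `|X j g| ≤ C + C ∑ |g i|`.
`chain_fubini` (resampling one coordinate) gives by induction `∫ F (X j g) = ∫ F d(nu j)` for `EG F`, and for bounded
`H` depending on coordinates `< j`: `∫ H · Ψ(X j g, X (j+1) g) = ∫ H · tE (Ψ (X j g) ·) (X j g)`.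
`u j = D 1 (Phi j) (X j ·)`, `d j = u (j+1) - u j` are orthogonal martingale increments (`D1_ch`),
`∫ d j² = sV (j+1) - sV j > 0` (`step_V_lt`), `s = u K = ∑ d j` (`Adm.D1_zero`), `m q = d q / √(ΔV q)`.
`∫ s m q = √(ΔV q)`; `∫ s g_j = ∫ d j g_j` and
`√δ ∫ d j g_j = ∫ d j (X (j+1) - X j) - ∫ d j (X (j+1) - X j - √δ g_j) ≥ δ sA j - β δ √(ΔV j)` (`step_cov`,
Cauchy–Schwarz).  Finally `∑ √(ΔV q) √(ΔV (q+1)) ≤ ∑ ΔV ≤ 1` (AM–GM, telescoping).
-/

set_option autoImplicit false
open MeasureTheory ProbabilityTheory Filter Topology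

noncomputable section

namespace Crest.Agent.R339.Cls

instance chain_prob (k : ℕ) : IsProbabilityMeasure (gk k) := by
  unfold gk; infer_instance

theorem chain_mp {k : ℕ} (j : Fin (k + 1)) :
    MeasurePreserving (fun p : (Fin (k + 1) → ℝ) × ℝ => Function.update p.1 j p.2) ((gk k).prod γ1) (gk k) := by
  have hm : Measurable fun p : (Fin (k + 1) → ℝ) × ℝ => Function.update p.1 j p.2 := measurable_update'
  refine ⟨hm, ?_⟩
  unfold gk
  refine (Measure.pi_eq fun s hs => ?_).symm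
  have e : (fun p : (Fin (k + 1) → ℝ) × ℝ => Function.update p.1 j p.2) ⁻¹' Set.pi Set.univ s =
      (Set.pi Set.univ (Function.update s j Set.univ)) ×ˢ s j := by
    ext p
    simp only [Set.mem_preimage, Set.mem_pi, Set.mem_univ, true_imp_iff, Set.mem_prod]
    constructor
    · intro h
      refine ⟨fun i => ?_, by simpa using h j⟩
      by_cases hi : i = j
      · subst hi; simp
      · have := h i
        rw [Function.update_of_ne hi] at this ⊢
        exact this
    · intro h i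
      by_cases hi : i = j
      · subst hi; simpa using h.2
      · have := h.1 i
        rw [Function.update_of_ne hi] at this ⊢
        exact this
  rw [Measure.map_apply hm (MeasurableSet.univ_pi hs), e, Measure.prod_prod, Measure.pi_pi,
    Fintype.prod_eq_mul_prod_subtype_ne _ j, Fintype.prod_eq_mul_prod_subtype_ne (fun i => gaussianReal 0 1 (s i)) j,
    Function.update_self, measure_univ, one_mul, mul_comm]
  congr 1
  exact Finset.prod_congr rfl fun i _ => by rw [Function.update_of_ne i.2]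

theorem chain_fubini {k : ℕ} (j : Fin (k + 1)) {Ψ : (Fin (k + 1) → ℝ) → ℝ} (hΨ : Integrable Ψ (gk k)) :
    ∫ g, Ψ g ∂gk k = ∫ g, ∫ z, Ψ (Function.update g j z) ∂γ1 ∂gk k := by
  have h := chain_mp j
  have h1 : Integrable (fun p : (Fin (k + 1) → ℝ) × ℝ => Ψ (Function.update p.1 j p.2)) ((gk k).prod γ1) :=
    h.integrable_comp_of_integrable hΨ
  refine Eq.trans ?_ (integral_prod _ h1)
  rw [← integral_map h.measurable.aemeasurable (h.map_eq.symm ▸ hΨ.1), h.map_eq]

/-- the coordinates, extended by zero -/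
def chainEx {k : ℕ} (g : Fin (k + 1) → ℝ) (j : ℕ) : ℝ := if h : j < k + 1 then g ⟨j, h⟩ else 0

/-- the transported chain -/
def chainX {k : ℕ} (T : ℕ → ℝ → ℝ → ℝ) : ℕ → (Fin (k + 1) → ℝ) → ℝ
  | 0, _ => 0
  | j + 1, g => T j (chainX T j g) (chainEx g j)

structure ChainTD (β : ℝ) (K : ℕ) (γ : ℕ → ℝ) (T : ℕ → ℝ → ℝ → ℝ) : Prop where
  cont : ∀ j, Continuous fun p : ℝ × ℝ => T j p.1 p.2
  odd : ∀ j x g, T j (-x) (-g) = -T j x g
  near : ∀ j x g, |T j x g - x - √(dl K) * g| ≤ β * dl K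
  law : ∀ j (F : ℝ → ℝ), Measurable F → ∀ x,
    ∫ g, F (T j x g) ∂γ1 = tE (γ j) (dl K) (Phi β K γ (j + 1)) F x

theorem chain_ex_coe {k : ℕ} (g : Fin (k + 1) → ℝ) (i : Fin (k + 1)) : chainEx g i = g i := by
  simp [chainEx, i.2]

theorem chain_ex_cont {k : ℕ} (j : ℕ) : Continuous fun g : Fin (k + 1) → ℝ => chainEx g j := by
  unfold chainEx
  split_ifs
  · exact continuous_apply _
  · exact continuous_const

theorem chain_ex_neg {k : ℕ} (g : Fin (k + 1) → ℝ) (j : ℕ) : chainEx (-g) j = -chainEx g j := by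
  unfold chainEx
  split_ifs <;> simp

section
variable {β η : ℝ} {k : ℕ} {γ : ℕ → ℝ} {T : ℕ → ℝ → ℝ → ℝ}

theorem chain_X_cont (hT : ChainTD β (k + 1) γ T) (j : ℕ) : Continuous (chainX (k := k) T j) := by
  induction j with
  | zero => exact continuous_const
  | succ j ih => exact (hT.cont j).comp (ih.prodMk (chain_ex_cont j))

theorem chain_X_neg (hT : ChainTD β (k + 1) γ T) (j : ℕ) (g : Fin (k + 1) → ℝ) :
    chainX T j (-g) = -chainX T j g := by
  induction j with
  | zero => simp [chainX]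
  | succ j ih => rw [chainX, chainX, ih, chain_ex_neg, hT.odd]

theorem chain_X_dep (T : ℕ → ℝ → ℝ → ℝ) (j : ℕ) {g g' : Fin (k + 1) → ℝ}
    (h : ∀ i : Fin (k + 1), i.val < j → g i = g' i) : chainX T j g = chainX T j g' := by
  induction j with
  | zero => rfl
  | succ j ih =>
    rw [chainX, chainX, ih fun i hi => h i (by omega)]
    congr 1
    unfold chainEx
    split_ifs with hj
    · exact h _ (by simp)
    · rfl

theorem chain_X_upd (T : ℕ → ℝ → ℝ → ℝ) {j : ℕ} {i : Fin (k + 1)} (h : j ≤ i) (g : Fin (k + 1) → ℝ) (z : ℝ) :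
    chainX T j (Function.update g i z) = chainX T j g :=
  chain_X_dep T j fun l hl => Function.update_of_ne (by rintro rfl; omega) _ _

theorem chain_X_succ (T : ℕ → ℝ → ℝ → ℝ) (i : Fin (k + 1)) (g : Fin (k + 1) → ℝ) (z : ℝ) :
    chainX T (i + 1) (Function.update g i z) = T i (chainX T i g) z := by
  rw [chainX, chain_X_upd T le_rfl, chain_ex_coe, Function.update_self]

/-- conditioning on the past -/
theorem chain_cond (hT : ChainTD β (k + 1) γ T) (j : Fin (k + 1)) {Ψ : (Fin (k + 1) → ℝ) → ℝ → ℝ}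
    (hΨ : ∀ g z, Ψ (Function.update g j z) = Ψ g) (hm : ∀ g, Measurable (Ψ g))
    (hi : Integrable (fun g => Ψ g (chainX T (j + 1) g)) (gk k)) :
    ∫ g, Ψ g (chainX T (j + 1) g) ∂gk k =
      ∫ g, tE (γ j) (dl (k + 1)) (Phi β (k + 1) γ (j + 1)) (Ψ g) (chainX T j g) ∂gk k := by
  rw [chain_fubini j hi]
  refine integral_congr_ae (Eventually.of_forall fun g => ?_)
  simp only [hΨ, chain_X_succ]
  exact hT.law j _ (hm g) _

theorem chain_law (hβ : 0 < β) (hγ : ∀ j, 0 < γ j) (hT : ChainTD β (k + 1) γ T) {j : ℕ} (hj : j ≤ k + 1)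
    {F : ℝ → ℝ} (hF : Measurable F) {C : ℝ} (hC : ∀ x, |F x| ≤ C) :
    ∫ g, F (chainX T j g) ∂gk k = ∫ x, F x ∂nu β (k + 1) γ j := by
  induction j generalizing F with
  | zero => simp [chainX, nu]
  | succ j ih =>
    have hl := lip_Phi hβ hγ (k + 1) (j + 1)
    have hE : EG F := EG.of_bdd hF hC
    have h1 := chain_cond hT ⟨j, by omega⟩ (Ψ := fun _ => F) (fun _ _ => rfl) (fun _ => hF)
      (Integrable.of_bound (hF.comp (chain_X_cont hT _).measurable).aestronglyMeasurable C
        (Eventually.of_forall fun g => hC _))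
    rw [nu, integral_adv hl (gd_nu hβ hγ _ _) hE, ← ih (by omega) (hE.tE hl _ _).1 (abs_tE_le hl hE hC _ _)]
    exact h1

/-- the martingale -/
def chainU (β : ℝ) (k : ℕ) (γ : ℕ → ℝ) (T : ℕ → ℝ → ℝ → ℝ) (j : ℕ) (g : Fin (k + 1) → ℝ) : ℝ :=
  D 1 (Phi β (k + 1) γ j) (chainX T j g)

theorem chain_U_cont (hA : ∀ j, Adm β η (Phi β (k + 1) γ j)) (hT : ChainTD β (k + 1) γ T) (j : ℕ) :
    Continuous (chainU β k γ T j) :=
  ((hA j).reg.diff 1).continuous.comp (chain_X_cont hT j)

theorem chain_U_abs (hA : ∀ j, Adm β η (Phi β (k + 1) γ j)) (j : ℕ) (g : Fin (k + 1) → ℝ) :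
    |chainU β k γ T j g| ≤ 1 := (hA j).reg.abs_D1 _

theorem chain_U_neg (hA : ∀ j, Adm β η (Phi β (k + 1) γ j)) (hT : ChainTD β (k + 1) γ T) (j : ℕ)
    (g : Fin (k + 1) → ℝ) : chainU β k γ T j (-g) = -chainU β k γ T j g := by
  unfold chainU
  rw [chain_X_neg hT, (hA j).D_neg]
  ring

theorem chain_U_upd {j : ℕ} {i : Fin (k + 1)} (h : j ≤ i) (g : Fin (k + 1) → ℝ) (z : ℝ) :
    chainU β k γ T j (Function.update g i z) = chainU β k γ T j g := by
  unfold chainU
  rw [chain_X_upd T h]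

theorem chain_int_U (hA : ∀ j, Adm β η (Phi β (k + 1) γ j)) (hT : ChainTD β (k + 1) γ T) (j : ℕ)
    {H : (Fin (k + 1) → ℝ) → ℝ} (hH : Integrable H (gk k)) :
    Integrable (fun g => H g * chainU β k γ T j g) (gk k) :=
  hH.mul_bdd (chain_U_cont hA hT j).aestronglyMeasurable (Eventually.of_forall fun g => chain_U_abs hA j g)

theorem chain_U_int (hA : ∀ j, Adm β η (Phi β (k + 1) γ j)) (hT : ChainTD β (k + 1) γ T) (j : ℕ) :
    Integrable (chainU β k γ T j) (gk k) :=
  Integrable.of_bound (chain_U_cont hA hT j).aestronglyMeasurable 1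
    (Eventually.of_forall fun g => chain_U_abs hA j g)

theorem chain_mart (hγ : ∀ j, 0 < γ j) (hA : ∀ j, Adm β η (Phi β (k + 1) γ j)) (hT : ChainTD β (k + 1) γ T)
    (j : Fin (k + 1)) {H : (Fin (k + 1) → ℝ) → ℝ} (hH : Integrable H (gk k))
    (hd : ∀ g z, H (Function.update g j z) = H g) :
    ∫ g, H g * chainU β k γ T (j + 1) g ∂gk k = ∫ g, H g * chainU β k γ T j g ∂gk k := by
  have h1 := chain_cond hT j (Ψ := fun g y => H g * D 1 (Phi β (k + 1) γ (j + 1)) y)
    (fun g z => by simp only [hd]) (fun g => (((hA _).reg.diff 1).continuous.measurable).const_mul _)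
    (chain_int_U hA hT _ hH)
  refine h1.trans (integral_congr_ae (Eventually.of_forall fun g => ?_))
  simp only [chainU]
  rw [tE_const_mul, Phi_step β γ j.2, D1_ch (hA _).reg (hγ _)]

theorem chain_mart' (hγ : ∀ j, 0 < γ j) (hA : ∀ j, Adm β η (Phi β (k + 1) γ j)) (hT : ChainTD β (k + 1) γ T)
    {j l : ℕ} (hjl : j ≤ l) (hl : l ≤ k + 1) {H : (Fin (k + 1) → ℝ) → ℝ} (hH : Integrable H (gk k))
    (hd : ∀ i : Fin (k + 1), j ≤ i → ∀ g z, H (Function.update g i z) = H g) :
    ∫ g, H g * chainU β k γ T l g ∂gk k = ∫ g, H g * chainU β k γ T j g ∂gk k := by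
  induction l, hjl using Nat.le_induction with
  | base => rfl
  | succ l hjl ih =>
    rw [← ih (by omega)]
    exact chain_mart hγ hA hT ⟨l, by omega⟩ hH (hd _ hjl)

theorem chain_V (hβ : 0 < β) (hγ : ∀ j, 0 < γ j) (hA : ∀ j, Adm β η (Phi β (k + 1) γ j))
    (hT : ChainTD β (k + 1) γ T) {j : ℕ} (hj : j ≤ k + 1) :
    ∫ g, chainU β k γ T j g * chainU β k γ T j g ∂gk k = sV β (k + 1) γ j := by
  have h := chain_law hβ hγ hT hj (F := fun x => D 1 (Phi β (k + 1) γ j) x ^ 2) (C := 1)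
    (((hA j).reg.diff 1).continuous.measurable.pow_const 2) fun x => by
      rw [abs_pow]; exact pow_le_one₀ (abs_nonneg _) ((hA j).reg.abs_D1 x)
  rw [sV, ← h]
  simp only [chainU, sq]

theorem chain_V_mem (hβ : 0 < β) (hγ : ∀ j, 0 < γ j) (hA : ∀ j, Adm β η (Phi β (k + 1) γ j))
    (hT : ChainTD β (k + 1) γ T) {j : ℕ} (hj : j ≤ k + 1) :
    0 ≤ sV β (k + 1) γ j ∧ sV β (k + 1) γ j ≤ 1 := by
  rw [← chain_V hβ hγ hA hT hj]
  refine ⟨integral_nonneg fun g => mul_self_nonneg _, ?_⟩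
  have h := integral_mono (chain_int_U hA hT j (chain_U_int hA hT j)) (integrable_const (1 : ℝ)) fun g => by
    have := abs_le.1 (chain_U_abs (T := T) hA j g)
    show _ ≤ (1 : ℝ)
    nlinarith [this.1, this.2]
  simpa using h

theorem chain_V_lt (hβ : 0 < β) (hγ : ∀ j, 0 < γ j) (hA : ∀ j, Adm β η (Phi β (k + 1) γ j)) {j : ℕ}
    (hj : j < k + 1) : sV β (k + 1) γ j < sV β (k + 1) γ (j + 1) := by
  rw [sV, sV, nu, Phi_step β γ hj]
  exact step_V_lt (hA _) (hγ _) (dl_pos k.succ_pos) (gd_nu hβ hγ _ _)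

/-- the increments -/
def chainD (β : ℝ) (k : ℕ) (γ : ℕ → ℝ) (T : ℕ → ℝ → ℝ → ℝ) (j : ℕ) (g : Fin (k + 1) → ℝ) : ℝ :=
  chainU β k γ T (j + 1) g - chainU β k γ T j g

theorem chain_D_cont (hA : ∀ j, Adm β η (Phi β (k + 1) γ j)) (hT : ChainTD β (k + 1) γ T) (j : ℕ) :
    Continuous (chainD β k γ T j) := (chain_U_cont hA hT _).sub (chain_U_cont hA hT _)

theorem chain_D_abs (hA : ∀ j, Adm β η (Phi β (k + 1) γ j)) (j : ℕ) (g : Fin (k + 1) → ℝ) :
    |chainD β k γ T j g| ≤ 2 := by
  have h1 := abs_le.1 (chain_U_abs (T := T) hA j g)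
  have h2 := abs_le.1 (chain_U_abs (T := T) hA (j + 1) g)
  unfold chainD
  rw [abs_le]
  constructor <;> linarith [h1.1, h1.2, h2.1, h2.2]

theorem chain_D_int (hA : ∀ j, Adm β η (Phi β (k + 1) γ j)) (hT : ChainTD β (k + 1) γ T) (j : ℕ) :
    Integrable (chainD β k γ T j) (gk k) := (chain_U_int hA hT _).sub (chain_U_int hA hT _)

theorem chain_int_D (hA : ∀ j, Adm β η (Phi β (k + 1) γ j)) (hT : ChainTD β (k + 1) γ T) (j : ℕ)
    {H : (Fin (k + 1) → ℝ) → ℝ} (hH : Integrable H (gk k)) :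
    Integrable (fun g => H g * chainD β k γ T j g) (gk k) :=
  hH.mul_bdd (chain_D_cont hA hT j).aestronglyMeasurable (Eventually.of_forall fun g => chain_D_abs hA j g)

theorem chain_D_upd {j : ℕ} {i : Fin (k + 1)} (h : j + 1 ≤ i) (g : Fin (k + 1) → ℝ) (z : ℝ) :
    chainD β k γ T j (Function.update g i z) = chainD β k γ T j g := by
  unfold chainD
  rw [chain_U_upd h, chain_U_upd (by omega)]

theorem chain_D_orth (hγ : ∀ j, 0 < γ j) (hA : ∀ j, Adm β η (Phi β (k + 1) γ j)) (hT : ChainTD β (k + 1) γ T)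
    (j : Fin (k + 1)) {H : (Fin (k + 1) → ℝ) → ℝ} (hH : Integrable H (gk k))
    (hd : ∀ g z, H (Function.update g j z) = H g) : ∫ g, H g * chainD β k γ T j g ∂gk k = 0 := by
  simp only [chainD, mul_sub]
  rw [integral_sub (chain_int_U hA hT _ hH) (chain_int_U hA hT _ hH), chain_mart hγ hA hT j hH hd, sub_self]

theorem chain_UD (hβ : 0 < β) (hγ : ∀ j, 0 < γ j) (hA : ∀ j, Adm β η (Phi β (k + 1) γ j))
    (hT : ChainTD β (k + 1) γ T) (j : Fin (k + 1)) :
    ∫ g, chainD β k γ T j g * chainU β k γ T (j + 1) g ∂gk k =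
      sV β (k + 1) γ (j + 1) - sV β (k + 1) γ j := by
  simp only [chainD, sub_mul]
  rw [integral_sub (chain_int_U hA hT _ (chain_U_int hA hT _)) (chain_int_U hA hT _ (chain_U_int hA hT _)),
    chain_mart hγ hA hT j (chain_U_int hA hT _) (chain_U_upd le_rfl), chain_V hβ hγ hA hT (by omega),
    chain_V hβ hγ hA hT (by omega)]

theorem chain_DD (hβ : 0 < β) (hγ : ∀ j, 0 < γ j) (hA : ∀ j, Adm β η (Phi β (k + 1) γ j))
    (hT : ChainTD β (k + 1) γ T) (j : Fin (k + 1)) :
    ∫ g, chainD β k γ T j g * chainD β k γ T j g ∂gk k = sV β (k + 1) γ (j + 1) - sV β (k + 1) γ j := by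
  have h1 := chain_UD hβ hγ hA hT j
  have h2 := chain_D_orth hγ hA hT j (chain_U_int hA hT j) (chain_U_upd le_rfl)
  have e : ∀ g, chainD β k γ T j g * chainD β k γ T j g =
      chainD β k γ T j g * chainU β k γ T (j + 1) g - chainU β k γ T j g * chainD β k γ T j g := fun g => by
    unfold chainD; ring
  simp only [e]
  rw [integral_sub (chain_int_U hA hT _ (chain_D_int hA hT _)) (chain_int_D hA hT _ (chain_U_int hA hT _)),
    h1, h2, sub_zero]

theorem chain_eval_int (j : Fin (k + 1)) : Integrable (fun g : Fin (k + 1) → ℝ => g j) (gk k) := by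
  unfold gk
  exact integrable_eval IsGaussian.integrable_id

theorem chain_sg (hγ : ∀ j, 0 < γ j) (hA : ∀ j, Adm β η (Phi β (k + 1) γ j))
    (hT : ChainTD β (k + 1) γ T) (j : Fin (k + 1)) :
    ∫ g, g j * chainU β k γ T (k + 1) g ∂gk k = ∫ g, g j * chainD β k γ T j g ∂gk k := by
  have hi := chain_eval_int j
  rw [chain_mart' hγ hA hT (j := j + 1) (by omega) le_rfl hi fun i hi g z =>
    Function.update_of_ne (by rintro rfl; omega) _ _]
  simp only [chainD, mul_sub]
  rw [integral_sub (chain_int_U hA hT _ hi) (chain_int_U hA hT _ hi), chain_fubini j (chain_int_U hA hT j hi)]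
  simp only [Function.update_self, chain_U_upd le_rfl, integral_mul_const, integral_id_gaussianReal, zero_mul,
    integral_zero, sub_zero]

theorem chain_cov (hβ : 0 < β) (hγ : ∀ j, 0 < γ j) (hA : ∀ j, Adm β η (Phi β (k + 1) γ j))
    (hT : ChainTD β (k + 1) γ T) (j : Fin (k + 1))
    (hi : Integrable (fun g => (chainX T (j + 1) g - chainX T j g) * chainD β k γ T j g) (gk k)) :
    ∫ g, (chainX T (j + 1) g - chainX T j g) * chainD β k γ T j g ∂gk k = dl (k + 1) * sA β (k + 1) γ j := by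
  have h1 := chain_cond hT j
    (Ψ := fun g y => (y - chainX T j g) * (D 1 (Phi β (k + 1) γ (j + 1)) y - chainU β k γ T j g))
    (fun g z => by simp only [chain_X_upd T le_rfl, chain_U_upd le_rfl])
    (fun g => (measurable_id.sub_const _).mul ((((hA _).reg.diff 1).continuous.measurable).sub_const _)) hi
  refine h1.trans ?_
  obtain ⟨C, hC⟩ := (hA j).reg.bdd 1
  rw [sA, ← chain_law hβ hγ hT (by omega) ((hA j).reg.diff 2).continuous.measurable hC, ← integral_const_mul]
  refine integral_congr_ae (Eventually.of_forall fun g => ?_)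
  simp only [chainU]
  rw [Phi_step β γ j.2]
  exact step_cov (hA _).reg (hγ _) (dl_pos k.succ_pos).le _

theorem chain_low (hβ : 0 < β) (hγ : ∀ j, 0 < γ j) (hA : ∀ j, Adm β η (Phi β (k + 1) γ j))
    (hT : ChainTD β (k + 1) γ T) (j : Fin (k + 1)) :
    √(dl (k + 1)) * sA β (k + 1) γ j - β * √(dl (k + 1)) * √(sV β (k + 1) γ (j + 1) - sV β (k + 1) γ j) ≤
      ∫ g, g j * chainU β k γ T (k + 1) g ∂gk k := by
  rw [chain_sg hγ hA hT]
  have hδ := dl_pos k.succ_pos
  set δ := dl (k + 1) with hδ'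
  set a := √(sV β (k + 1) γ (j + 1) - sV β (k + 1) γ j) with ha
  have hV := sub_pos.2 (chain_V_lt hβ hγ hA j.2)
  have ha0 : 0 < a := Real.sqrt_pos.2 hV
  have haa : a * a = sV β (k + 1) γ (j + 1) - sV β (k + 1) γ j := Real.mul_self_sqrt hV.le
  have hr : 0 < √δ := Real.sqrt_pos.2 hδ
  have hrr : √δ * √δ = δ := Real.mul_self_sqrt hδ.le
  set R : (Fin (k + 1) → ℝ) → ℝ := fun g => chainX T (j + 1) g - chainX T j g - √δ * g j with hR
  have hRb : ∀ g, |R g| ≤ β * δ := fun g => by
    have := hT.near j (chainX T j g) (g j)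
    simp only [hR, chainX, chain_ex_coe]
    exact this
  have hRc : Continuous R := ((chain_X_cont hT _).sub (chain_X_cont hT _)).sub
    (continuous_const.mul (continuous_apply j))
  have hRi : Integrable R (gk k) := Integrable.of_bound hRc.aestronglyMeasurable _ (Eventually.of_forall hRb)
  have i1 := chain_int_D hA hT j hRi
  have i2 := chain_int_D hA hT j (chain_eval_int j)
  have e : ∀ g, (chainX T (j + 1) g - chainX T j g) * chainD β k γ T j g =
      R g * chainD β k γ T j g + √δ * (g j * chainD β k γ T j g) := fun g => by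
    simp only [hR]; ring
  have h1 := chain_cov hβ hγ hA hT j (by simp only [e]; exact i1.add (i2.const_mul _))
  simp only [e] at h1
  rw [integral_add i1 (i2.const_mul _), integral_const_mul] at h1
  have i3 := chain_int_D hA hT j (chain_D_int hA hT j)
  have h2 : ∫ g, R g * chainD β k γ T j g ∂gk k ≤
      ∫ g, (β * δ / (2 * a) * (chainD β k γ T j g * chainD β k γ T j g) + β * δ * a / 2) ∂gk k := by
    refine integral_mono i1 ((i3.const_mul _).add (integrable_const _)) fun g => ?_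
    have h3 : R g * chainD β k γ T j g ≤ β * δ * |chainD β k γ T j g| := by
      refine (le_abs_self _).trans ?_
      rw [abs_mul]
      exact mul_le_mul_of_nonneg_right (hRb g) (abs_nonneg _)
    refine h3.trans ?_
    rw [← abs_mul_abs_self (chainD β k γ T j g)]
    set t := |chainD β k γ T j g|
    have h4 : t ≤ t * t / (2 * a) + a / 2 := by
      rw [div_add_div _ _ (by positivity) (by positivity), le_div_iff₀ (by positivity)]
      nlinarith [sq_nonneg (t - a)]
    calc β * δ * t ≤ β * δ * (t * t / (2 * a) + a / 2) := mul_le_mul_of_nonneg_left h4 (by positivity)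
      _ = _ := by ring
  rw [integral_add (i3.const_mul _) (integrable_const _), integral_const_mul, chain_DD hβ hγ hA hT, ← haa] at h2
  simp only [integral_const, probReal_univ, smul_eq_mul, one_mul] at h2
  have e2 : β * δ / (2 * a) * (a * a) + β * δ * a / 2 = β * δ * a := by field_simp; ring
  rw [e2] at h2
  refine le_of_mul_le_mul_left ?_ hr
  have e3 : √δ * (√δ * sA β (k + 1) γ j - β * √δ * a) = δ * sA β (k + 1) γ j - β * δ * a := by
    rw [mul_sub, ← mul_assoc, hrr]
    congr 1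
    calc √δ * (β * √δ * a) = β * (√δ * √δ) * a := by ring
      _ = _ := by rw [hrr]
  rw [e3]
  linarith

theorem chain_sum {V : ℕ → ℝ} (hV : ∀ j < k + 1, V j < V (j + 1)) (h0 : ∀ j ≤ k + 1, 0 ≤ V j ∧ V j ≤ 1) :
    ∑ q ∈ Finset.range k, √(V (q + 1) - V q) * √(V (q + 1 + 1) - V (q + 1)) ≤ 1 := by
  have h1 : ∑ q ∈ Finset.range k, √(V (q + 1) - V q) * √(V (q + 1 + 1) - V (q + 1)) ≤
      ∑ q ∈ Finset.range k, ((V (q + 1) + V (q + 1 + 1)) / 2 - (V q + V (q + 1)) / 2) := by
    refine Finset.sum_le_sum fun q hq => ?_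
    have hq' := Finset.mem_range.1 hq
    have a1 := Real.mul_self_sqrt (sub_pos.2 (hV q (by omega))).le
    have a2 := Real.mul_self_sqrt (sub_pos.2 (hV (q + 1) (by omega))).le
    nlinarith [sq_nonneg (√(V (q + 1) - V q) - √(V (q + 1 + 1) - V (q + 1)))]
  rw [Finset.sum_range_sub (fun q => (V q + V (q + 1)) / 2)] at h1
  linarith [(h0 k (by omega)).2, (h0 (k + 1) le_rfl).2, (h0 0 (by omega)).1, (h0 (0 + 1) (by omega)).1]

end

theorem chain {β η : ℝ} {k : ℕ} {γ : ℕ → ℝ} (hβ : 0 < β) (hη : 0 < η) (hγ : Par β η (k + 1) γ)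
    (hA : ∀ j ≤ k + 1, Adm β η (Phi β (k + 1) γ j)) :
    ∃ (m : Fin k → (Fin (k + 1) → ℝ) → ℝ) (s : (Fin (k + 1) → ℝ) → ℝ), ClsData k m s ∧
      algVal β (k + 1) (sV β (k + 1) γ) (sA β (k + 1) γ) ≤ clsVal k m s := by
  have hp := hγ.pos hη
  have hδ := dl_pos k.succ_pos
  have hA' : ∀ j, Adm β η (Phi β (k + 1) γ j) := fun j => by
    rcases le_total j (k + 1) with h | h
    · exact hA j h
    · have e : Phi β (k + 1) γ j = Phi β (k + 1) γ (k + 1) := by
        unfold Phi
        rw [Nat.sub_eq_zero_of_le h, Nat.sub_self]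
      rw [e]
      exact hA _ le_rfl
  choose T h1 h2 h3 h4 using fun j => transport (hA' (j + 1)).reg.lip (hA' (j + 1)).even (hp j) hδ
  have hT : ChainTD β (k + 1) γ T :=
    ⟨h1, h2, fun j x g => (h3 j x g).trans (mul_le_mul_of_nonneg_right (hγ.le j) hδ.le), h4⟩
  set V := sV β (k + 1) γ with hV
  have hVlt : ∀ j < k + 1, V j < V (j + 1) := fun j hj => chain_V_lt hβ hp hA' hj
  have ha : ∀ q : Fin k, 0 < √(V (q + 1) - V q) := fun q => Real.sqrt_pos.2 (sub_pos.2 (hVlt q (by omega)))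
  have haa : ∀ q : Fin k, √(V (q + 1) - V q) * √(V (q + 1) - V q) = V (q + 1) - V q := fun q =>
    Real.mul_self_sqrt (sub_pos.2 (hVlt q (by omega))).le
  refine ⟨fun q g => (√(V (q + 1) - V q))⁻¹ * chainD β k γ T q g, chainU β k γ T (k + 1), ⟨?_, ?_, ?_, ?_, ?_, ?_,
    ?_, ?_⟩, ?_⟩
  · intro q g g' h
    simp only [chainD, chainU]
    rw [chain_X_dep T (q + 1) (g := g) (g' := g') fun i hi => h i (by omega),
      chain_X_dep T q (g := g) (g' := g') fun i hi => h i (by omega)]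
  · exact fun q => continuous_const.mul (chain_D_cont hA' hT q)
  · exact chain_U_cont hA' hT _
  · intro q g
    simp only [chainD, chain_U_neg hA' hT]
    ring
  · exact chain_U_neg hA' hT _
  · exact fun q => (MemLp.of_bound (chain_D_cont hA' hT q).aestronglyMeasurable 2
      (Eventually.of_forall fun g => chain_D_abs hA' q g)).const_mul _
  · exact chain_U_abs hA' _
  · intro q q'
    have e : ∀ g, (√(V (q + 1) - V q))⁻¹ * chainD β k γ T q g * ((√(V (q' + 1) - V q'))⁻¹ * chainD β k γ T q' g) =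
        ((√(V (q + 1) - V q))⁻¹ * (√(V (q' + 1) - V q'))⁻¹) * (chainD β k γ T q g * chainD β k γ T q' g) :=
      fun g => by ring
    simp only [e]
    rw [integral_const_mul]
    rcases lt_trichotomy q q' with h | h | h
    · rw [if_neg h.ne]
      have := chain_D_orth hp hA' hT q'.castSucc (chain_D_int hA' hT q) (chain_D_upd (by simpa using h))
      simp only [Fin.val_castSucc] at this
      rw [this, mul_zero]
    · subst h
      have := chain_DD hβ hp hA' hT q.castSucc
      simp only [Fin.val_castSucc] at this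
      rw [if_pos rfl, this, ← hV, ← mul_inv, haa, inv_mul_cancel₀ (sub_pos.2 (hVlt q (by omega))).ne']
    · rw [if_neg h.ne']
      have := chain_D_orth hp hA' hT q.castSucc (chain_D_int hA' hT q') (chain_D_upd (by simpa using h))
      simp only [Fin.val_castSucc] at this
      simp only [mul_comm (chainD β k γ T q _)]
      rw [this, mul_zero]
  · have hs := chain_sum hVlt fun j hj => chain_V_mem hβ hp hA' hT hj
    have key : ∀ q : Fin k, √(dl (k + 1) * (V (q + 1) - V q)) * sA β (k + 1) γ (q + 1) -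
        β * √(dl (k + 1)) * (√(V (q + 1) - V q) * √(V (q + 1 + 1) - V (q + 1))) ≤
        (∫ g, chainU β k γ T (k + 1) g * ((√(V (q + 1) - V q))⁻¹ * chainD β k γ T q g) ∂gk k) *
          ∫ g, chainU β k γ T (k + 1) g * g q.succ ∂gk k := fun q => by
      have e : ∀ g, chainU β k γ T (k + 1) g * ((√(V (q + 1) - V q))⁻¹ * chainD β k γ T q g) =
          (√(V (q + 1) - V q))⁻¹ * (chainD β k γ T q g * chainU β k γ T (k + 1) g) := fun g => by ring
      have h5 := chain_UD hβ hp hA' hT q.castSucc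
      have h6 := chain_low hβ hp hA' hT q.succ
      simp only [Fin.val_castSucc, Fin.val_succ] at h5 h6
      simp only [e, mul_comm (chainU β k γ T (k + 1) _)]
      rw [integral_const_mul, chain_mart' hp hA' hT (j := q + 1) (by omega) le_rfl (chain_D_int hA' hT q)
        fun i hi => chain_D_upd hi, h5, ← hV, (inv_mul_eq_iff_eq_mul₀ (ha q).ne').2 (haa q).symm,
        Real.sqrt_mul hδ.le]
      have := mul_le_mul_of_nonneg_left h6 (ha q).le
      rw [← hV] at this
      linarith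
    unfold algVal clsVal
    refine le_trans ?_ (Finset.sum_le_sum fun q _ => key q)
    rw [Finset.sum_sub_distrib, ← Finset.mul_sum,
      Fin.sum_univ_eq_sum_range (fun q => √(dl (k + 1) * (V (q + 1) - V q)) * sA β (k + 1) γ (q + 1)),
      Fin.sum_univ_eq_sum_range (fun q => √(V (q + 1) - V q) * √(V (q + 1 + 1) - V (q + 1))), Nat.add_sub_cancel]
    have : 0 ≤ β * √(dl (k + 1)) := by positivity
    nlinarith

end Crest.Agent.R339.Cls
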