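import Mathlib
import Crest.Agent.R339.Defs

/-!
# Row 339, classical half (`S_CLS`): definitions and blueprint

Grid `t_j = j δ`, `δ = 1/K`.  `γ : ℕ → ℝ` monotone, `η ≤ γ ≤ β`, `γ j = β` for `j ≥ K`.
`Phi K = lc β = log (2 cosh βx)/β`, `Phi j = ch (γ j) δ (Phi (j+1))` (Cole–Hopf step),
`nu j` = law of the tilted chain `X_j` (`X_0 = 0`), `u_j = Phi j'(X_j)` is an exact martingale.
* Guerra (`Guerra.lean`): `E max H / n ≤ PP β K γ` for every such `γ`.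
* Foc (`Foc*.lean`): a minimiser of `PP` satisfies coordinatewise first-order conditions.
* Cell (`Heat`, `Pde`, `Cell*`): inside one cell, `v(t) = E u²`, `v' = Γ = E Φ''²`,
  `Γ' = E[Φ'''² - 2γΦ''³]`, `Γ'' = E[Φ''''² - 12γΦ''Φ'''² + 6γ²Φ''⁴] ≥ 0` (`Pos.lean`: certificate
  `R339/Cert.lean` + integration by parts; shape classes `Adm` for `Φ`, `QC` for the forward density).
* Trans/Chain: the tilted chain is realised on iid Gaussians by monotone transport; the messages are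
  the normalised martingale increments.
* Real: elementary estimates on the sequences (`Facts`).

NAMING RULE: public statements are in `Crest.Agent.R339.Cls`; prefix every auxiliary lemma with the
file name in lower case (`heat_…`, `pos_…`).
-/

set_option autoImplicit false
open MeasureTheory ProbabilityTheory Filter Topology

noncomputable section

namespace Crest.Agent.R339.Cls

/-- Standard Gaussian. -/
abbrev γ1 : Measure ℝ := gaussianReal 0 1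

/-- Partition function of one step (`s` is the variance). -/
def Zs (m s : ℝ) (f : ℝ → ℝ) (x : ℝ) : ℝ := ∫ g, Real.exp (m * f (x + √s * g)) ∂γ1

/-- Cole–Hopf step. -/
def ch (m s : ℝ) (f : ℝ → ℝ) (x : ℝ) : ℝ := m⁻¹ * Real.log (Zs m s f x)

/-- Tilted expectation of `F` after one step from `x`. -/
def tE (m s : ℝ) (f F : ℝ → ℝ) (x : ℝ) : ℝ :=
  (∫ g, F (x + √s * g) * Real.exp (m * f (x + √s * g)) ∂γ1) / Zs m s f x

/-- Law after one tilted step. -/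
def adv (m s : ℝ) (f : ℝ → ℝ) (ν : Measure ℝ) : Measure ℝ :=
  ((ν.prod γ1).withDensity fun p =>
    ENNReal.ofReal (Real.exp (m * f (p.1 + √s * p.2)) / Zs m s f p.1)).map fun p => p.1 + √s * p.2

/-- The law divided by the partition function. -/
def unt (m s : ℝ) (f : ℝ → ℝ) (ν : Measure ℝ) : Measure ℝ :=
  ν.withDensity fun x => ENNReal.ofReal (Zs m s f x)⁻¹

/-- Measurable, at most exponential growth. -/
def EG (F : ℝ → ℝ) : Prop := Measurable F ∧ ∃ C : ℝ, ∀ x, |F x| ≤ C * Real.exp (C * |x|)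

/-- Finite measure with all exponential moments. -/
def Ge (μ : Measure ℝ) : Prop :=
  IsFiniteMeasure μ ∧ ∀ c : ℝ, Integrable (fun x => Real.exp (c * |x|)) μ

/-- Probability measure with all exponential moments. -/
def Gd (ν : Measure ℝ) : Prop := IsProbabilityMeasure ν ∧ Ge ν

/-- `k`-th derivative. -/
abbrev D (k : ℕ) (f : ℝ → ℝ) : ℝ → ℝ := iteratedDeriv k f

/-- Smooth, `1`-Lipschitz, all derivatives of order `≥ 1` bounded. -/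
structure Reg (f : ℝ → ℝ) : Prop where
  lip : LipschitzWith 1 f
  diff : ∀ k, Differentiable ℝ (D k f)
  bdd : ∀ k, ∃ C : ℝ, ∀ x, |D (k + 1) f x| ≤ C

/-- Shape class of the backward solutions. -/
structure Adm (β m : ℝ) (f : ℝ → ℝ) : Prop where
  reg : Reg f
  even : ∀ x, f (-x) = f x
  d2 : ∀ x, D 2 f x ≤ β * (1 - D 1 f x ^ 2)
  low : ∃ c C : ℝ, 0 < c ∧ ∀ x, c * Real.exp (-(C * |x|)) ≤ D 2 f x
  d3 : ∀ x, 0 ≤ x → D 3 f x + 2 * m * D 1 f x * D 2 f x ≤ 0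

/-- Heat flow of the derivatives of `exp (m f)`. -/
def Hk (m s : ℝ) (f : ℝ → ℝ) (k : ℕ) (y : ℝ) : ℝ :=
  ∫ g, D k (fun z => Real.exp (m * f z)) (y + √s * g) ∂γ1

/-- Heat kernel. -/
def ker (s z : ℝ) : ℝ := (√(2 * Real.pi * s))⁻¹ * Real.exp (-z ^ 2 / (2 * s))

/-- Heat flow of a measure. -/
def smo (μ : Measure ℝ) (s y : ℝ) : ℝ := ∫ x, ker s (y - x) ∂μ

/-- Shape class of the forward densities: with `X = -q'/q`, `X(x)/x` is antitone on `(0,∞)`. -/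
structure QC (q : ℝ → ℝ) : Prop where
  pos : ∀ x, 0 < q x
  even : ∀ x, q (-x) = q x
  d1 : Differentiable ℝ q
  d2 : Differentiable ℝ (deriv q)
  dec : ∃ C c : ℝ, 0 < c ∧ ∀ x, q x ≤ C * Real.exp (-(c * x ^ 2)) ∧
    |deriv q x| ≤ C * Real.exp (-(c * x ^ 2))
  ang : ∀ x y, 0 < y → y ≤ x → y * (-deriv q x / q x) ≤ x * (-deriv q y / q y)

/-- The heat flow of `μ` is in the shape class. -/
def QM (μ : Measure ℝ) : Prop := ∀ s, 0 < s → QC (smo μ s)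

/-- `∫∫ W(t, x + √t g) dγ(g) dμ(x)`. -/
def flow (μ : Measure ℝ) (W : ℝ → ℝ → ℝ) (t : ℝ) : ℝ := ∫ x, ∫ g, W t (x + √t * g) ∂γ1 ∂μ

/-- Terminal condition. -/
def lc (β x : ℝ) : ℝ := Real.log (2 * Real.cosh (β * x)) / β

/-- Backward recursion, counted from the terminal time. -/
def Psi (β δ : ℝ) (ζ : ℕ → ℝ) : ℕ → ℝ → ℝ
  | 0 => lc β
  | r + 1 => ch (ζ r) δ (Psi β δ ζ r)

/-- Mesh. -/
def dl (K : ℕ) : ℝ := 1 / (K : ℝ)

/-- `Φ(t_j, ·)`. -/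
def Phi (β : ℝ) (K : ℕ) (γ : ℕ → ℝ) (j : ℕ) : ℝ → ℝ :=
  Psi β (dl K) (fun r => γ (K - 1 - r)) (K - j)

/-- Law of `X_j`. -/
def nu (β : ℝ) (K : ℕ) (γ : ℕ → ℝ) : ℕ → Measure ℝ
  | 0 => Measure.dirac 0
  | j + 1 => adv (γ j) (dl K) (Phi β K γ (j + 1)) (nu β K γ j)

/-- `∫_{t_j}^{t_{j+1}} t dt`. -/
def tau (K j : ℕ) : ℝ := dl K * (j * dl K) + dl K ^ 2 / 2

/-- The Parisi functional. -/
def PP (β : ℝ) (K : ℕ) (γ : ℕ → ℝ) : ℝ :=
  Phi β K γ 0 0 - (1 / 2) * ∑ j ∈ Finset.range K, γ j * tau K j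

/-- Admissible order parameters. -/
structure Par (β η : ℝ) (K : ℕ) (γ : ℕ → ℝ) : Prop where
  mono : Monotone γ
  low : η ≤ γ 0
  top : ∀ j, K ≤ j → γ j = β

def sV (β : ℝ) (K : ℕ) (γ : ℕ → ℝ) (j : ℕ) : ℝ := ∫ x, D 1 (Phi β K γ j) x ^ 2 ∂nu β K γ j
def sA (β : ℝ) (K : ℕ) (γ : ℕ → ℝ) (j : ℕ) : ℝ := ∫ x, D 2 (Phi β K γ j) x ∂nu β K γ j
def sG (β : ℝ) (K : ℕ) (γ : ℕ → ℝ) (j : ℕ) : ℝ := ∫ x, D 2 (Phi β K γ j) x ^ 2 ∂nu β K γ j
def sB (β : ℝ) (K : ℕ) (γ : ℕ → ℝ) (j : ℕ) : ℝ := ∫ x, D 2 (Phi β K γ j) x ^ 3 ∂nu β K γ j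
def sC (β : ℝ) (K : ℕ) (γ : ℕ → ℝ) (j : ℕ) : ℝ := ∫ x, D 3 (Phi β K γ j) x ^ 2 ∂nu β K γ j
def sE (β : ℝ) (K : ℕ) (γ : ℕ → ℝ) (j : ℕ) : ℝ := ∫ x, Phi β K γ j x ∂nu β K γ j

/-- First-order conditions (`E (j+1) - E j = γ j ∂Φ_0(0)/∂γ_j`). -/
def Foc (η : ℝ) (K : ℕ) (γ E : ℕ → ℝ) : Prop :=
  ∀ j < K, (γ j < γ (j + 1) → γ j * tau K j ≤ 2 * (E (j + 1) - E j)) ∧
    ((if j = 0 then η else γ (j - 1)) < γ j → 2 * (E (j + 1) - E j) ≤ γ j * tau K j)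

/-- The inequalities of one cell: `V, G, B, C, E` at the left (`0`) and right (`1`) end. -/
def CellIneq (m δ V0 V1 G0 G1 B0 B1 C0 C1 E0 E1 : ℝ) : Prop :=
  δ * (C0 - 2 * m * B0) ≤ G1 - G0 ∧ G1 - G0 ≤ δ * (C1 - 2 * m * B1) ∧
    ∀ L : ℝ, |C0 - 2 * m * B0| ≤ L → |C1 - 2 * m * B1| ≤ L →
      |V1 - V0 - δ * G0| ≤ L * δ ^ 2 ∧
        |2 * (E1 - E0) - m * (δ * V0 + δ ^ 2 * G0 / 2)| ≤ m * (L * δ ^ 3)

/-- Everything the final estimate uses. -/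
structure Facts (β η c : ℝ) (K : ℕ) (γ V A G B C E : ℕ → ℝ) : Prop where
  par : Par β η K γ
  V0 : V 0 = 0
  Vmono : ∀ j < K, V j ≤ V (j + 1)
  VK : V K ≤ 1 - c
  Arec : ∀ j < K, A j + γ j * V j = A (j + 1) + γ j * V (j + 1)
  AK : A K = β * (1 - V K)
  A0 : ∀ j ≤ K, 0 ≤ A j
  AG : ∀ j ≤ K, A j ^ 2 ≤ G j
  Gle : ∀ j ≤ K, G j ≤ β ^ 2
  B0 : ∀ j ≤ K, 0 ≤ B j
  Ble : ∀ j ≤ K, B j ≤ β ^ 3
  C0 : ∀ j ≤ K, 0 ≤ C j
  CK : C K ≤ 4 * β ^ 4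
  cell : ∀ j < K, CellIneq (γ j) (dl K) (V j) (V (j + 1)) (G j) (G (j + 1)) (B j) (B (j + 1))
    (C j) (C (j + 1)) (E j) (E (j + 1))
  EK : E K ≤ Real.log 2 / β + dl K * ∑ j ∈ Finset.range K, (A j + γ j * V j)
  foc : Foc η K γ E

/-- The value reached by the chain. -/
def algVal (β : ℝ) (K : ℕ) (V A : ℕ → ℝ) : ℝ :=
  ∑ q ∈ Finset.range (K - 1), √(dl K * (V (q + 1) - V q)) * A (q + 1) - β * √(dl K)

theorem Phi_top (β : ℝ) (K : ℕ) (γ : ℕ → ℝ) : Phi β K γ K = lc β := by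
  simp [Phi, Psi]

theorem Phi_step (β : ℝ) {K : ℕ} (γ : ℕ → ℝ) {j : ℕ} (hj : j < K) :
    Phi β K γ j = ch (γ j) (dl K) (Phi β K γ (j + 1)) := by
  unfold Phi
  obtain ⟨r, hr⟩ : ∃ r, K - j = r + 1 := ⟨K - j - 1, by omega⟩
  rw [hr, show K - (j + 1) = r by omega, Psi, show K - 1 - r = j by omega]

theorem dl_pos {K : ℕ} (hK : 0 < K) : 0 < dl K := by
  unfold dl; positivity

theorem D_succ (k : ℕ) (f : ℝ → ℝ) : D (k + 1) f = deriv (D k f) := iteratedDeriv_succ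

theorem Reg.hasDerivAt {f : ℝ → ℝ} (h : Reg f) (k : ℕ) (x : ℝ) :
    HasDerivAt (D k f) (D (k + 1) f x) x := by
  rw [D_succ]; exact (h.diff k x).hasDerivAt

end Crest.Agent.R339.Cls
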