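import Crest.Agent.R339.Cls.Foc3

/-!
# Row 339 / Cls: a minimiser of the Parisi functional and its first-order conditions
Only the class `LipschitzWith 1` is needed.
* `foc_ch_sub`: `ch` is a contraction for the sup norm.
* `foc_ch_pert`: `ch f' - ch f = m⁻¹ log tE (exp (m (f' - f)))`; `|e^u - 1 - u| ≤ u²`, `|log (1+u) - u| ≤ 2u²`.
* `foc_ch_m`: Taylor expansion in `m`, uniformly in `x`: with `ψ_x(g) = f(x+√s g) - f x`, `|ψ_x g| ≤ √s |g|`,
  `ch m' s f x = f x + m'⁻¹ log ∫ exp (m' ψ_x)`; `Λ(m') = log ∫ exp (m' ψ_x)` satisfies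
  `Λ(m') - Λ(m) = log tE (exp ((m'-m) ψ_x))`, `|e^u - 1 - u| ≤ u² e^{|u|}`, `∫ exp (m ψ_x) ≥ exp (-m √s)`.
* `foc_deriv`: `Phi` at levels `> j` does not depend on `γ j`; at level `j` use `foc_ch_m`, at levels `i < j`
  downward induction with `foc_ch_pert`: `Phi' i - Phi i = ε ψ_i + O(ε²)`, `ψ_i = tE ψ_{i+1}`, and
  `∫ ψ_i dnu_i` does not depend on `i` (`integral_adv`); `nu 0 = dirac 0`.
* `foc_exists`: minimise `a ↦ PP (extension of a by β)` over the compact set of monotone `a : Fin K → ℝ` with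
  values in `[η, β]` (`IsCompact.exists_isMinOn`; continuity from `foc_lip`); one-sided variation of one coordinate
  keeps monotonicity; sign of a one-sided derivative at a minimum (`HasDerivAt` + slopes).
-/

set_option autoImplicit false
open MeasureTheory ProbabilityTheory Filter Topology

noncomputable section

namespace Crest.Agent.R339.Cls

variable {β η m s : ℝ} {f f' ψ : ℝ → ℝ} {K : ℕ} {γ : ℕ → ℝ}

theorem foc_mem (h : Par β η K γ) (j : ℕ) : γ j ∈ Set.Icc η β :=
  ⟨h.low.trans (h.mono (Nat.zero_le j)), h.le j⟩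

theorem foc_compact (β η : ℝ) (K : ℕ) : IsCompact {γ : ℕ → ℝ | Par β η K γ} := by
  refine (isCompact_univ_pi fun _ : ℕ => (isCompact_Icc : IsCompact (Set.Icc η β))).of_isClosed_subset ?_
    fun γ h j _ => foc_mem h j
  have e : {γ : ℕ → ℝ | Par β η K γ} = (⋂ i, ⋂ j, ⋂ _ : i ≤ j, {γ : ℕ → ℝ | γ i ≤ γ j}) ∩
      ({γ : ℕ → ℝ | η ≤ γ 0} ∩ ⋂ j, ⋂ _ : K ≤ j, {γ : ℕ → ℝ | γ j = β}) := by
    ext γ
    simp only [Set.mem_setOf_eq, Set.mem_inter_iff, Set.mem_iInter]
    exact ⟨fun h => ⟨fun _ _ hij => h.mono hij, h.low, h.top⟩, fun h => ⟨fun _ _ hij => h.1 _ _ hij, h.2.1, h.2.2⟩⟩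
  rw [e]
  refine IsClosed.inter (isClosed_iInter fun i => isClosed_iInter fun j => isClosed_iInter fun _ => ?_)
    (IsClosed.inter ?_ (isClosed_iInter fun j => isClosed_iInter fun _ => ?_))
  · exact isClosed_le (continuous_apply i) (continuous_apply j)
  · exact isClosed_le continuous_const (continuous_apply 0)
  · exact isClosed_eq (continuous_apply j) continuous_const

theorem foc_cont (hβ : 0 < β) (hη : 0 < η) (K : ℕ) : ContinuousOn (PP β K) {γ : ℕ → ℝ | Par β η K γ} := by
  obtain ⟨C, hC⟩ := foc_lip hβ hη K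
  refine ContinuousOn.sub (fun γ hγ => ?_) (Continuous.continuousOn (by fun_prop))
  refine tendsto_iff_norm_sub_tendsto_zero.2 (squeeze_zero' (Eventually.of_forall fun _ => norm_nonneg _)
    (g := fun γ' : ℕ → ℝ => C * ∑ j ∈ Finset.range K, |γ' j - γ j|)
    (eventually_nhdsWithin_of_forall fun γ' hγ' => hC γ γ' (foc_mem hγ) (foc_mem hγ')) ?_)
  have hc : Continuous fun γ' : ℕ → ℝ => C * ∑ j ∈ Finset.range K, |γ' j - γ j| := by fun_prop
  simpa using (hc.tendsto γ).mono_left nhdsWithin_le_nhds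

theorem foc_update (h : Par β η K γ) {j : ℕ} (hj : j < K) {v : ℝ} (h1 : (if j = 0 then η else γ (j - 1)) ≤ v)
    (h2 : v ≤ γ (j + 1)) : Par β η K (Function.update γ j v) := by
  refine ⟨monotone_nat_of_le_succ fun n => ?_, ?_, fun n hn => ?_⟩
  · by_cases e : n = j
    · subst e
      rwa [Function.update_self, Function.update_of_ne (Nat.succ_ne_self n)]
    · rw [Function.update_of_ne e]
      by_cases e' : n + 1 = j
      · subst e'
        rw [Function.update_self]
        simpa using h1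
      · rw [Function.update_of_ne e']
        exact h.mono (Nat.le_succ n)
  · by_cases e : j = 0
    · subst e
      simpa using h1
    · rw [Function.update_of_ne (Ne.symm e)]
      exact h.low
  · rw [Function.update_of_ne (by omega)]
    exact h.top n hn

theorem foc_lo (h : Par β η K γ) (j : ℕ) : (if j = 0 then η else γ (j - 1)) ≤ γ j := by
  split_ifs with e
  · subst e
    exact h.low
  · exact h.mono (Nat.sub_le j 1)

theorem foc_PP_deriv (hβ : 0 < β) (hγ : ∀ j, 0 < γ j) {j : ℕ} (hj : j < K) :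
    HasDerivAt (fun ε => PP β K (Function.update γ j (γ j + ε)))
      ((sE β K γ (j + 1) - sE β K γ j) / γ j - 1 / 2 * tau K j) 0 := by
  have e : ∀ ε : ℝ, ∑ i ∈ Finset.range K, Function.update γ j (γ j + ε) i * tau K i =
      ∑ i ∈ Finset.range K, γ i * tau K i + ε * tau K j := fun ε => by
    have e1 : ∀ i, Function.update γ j (γ j + ε) i * tau K i = γ i * tau K i + if i = j then ε * tau K i else 0 := fun i => by
      by_cases hi : i = j
      · subst hi
        rw [Function.update_self, if_pos rfl, add_mul]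
      · rw [Function.update_of_ne hi, if_neg hi, add_zero]
    simp only [e1, Finset.sum_add_distrib, Finset.sum_ite_eq', Finset.mem_range, hj, if_true]
  simp only [PP, e]
  refine (foc_deriv hβ hγ hj).sub (HasDerivAt.const_mul _ (HasDerivAt.const_add _ ?_))
  simpa using (hasDerivAt_id (0 : ℝ)).mul_const (tau K j)

theorem foc_exists (hη : 0 < η) (hηβ : η ≤ β) (K : ℕ) (hK : 0 < K) :
    ∃ γ : ℕ → ℝ, Par β η K γ ∧ Foc η K γ (sE β K γ) := by
  have hβ : 0 < β := hη.trans_le hηβ
  obtain ⟨γ, hγ, hmin⟩ := (foc_compact β η K).exists_isMinOn ⟨fun _ => β, monotone_const, hηβ, fun _ _ => rfl⟩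
    (foc_cont hβ hη K)
  have hγ : Par β η K γ := hγ
  refine ⟨γ, hγ, fun j hj => ?_⟩
  have hp := hγ.pos hη j
  have hd := foc_PP_deriv (K := K) hβ (hγ.pos hη) hj
  have hm : ∀ ε : ℝ, (if j = 0 then η else γ (j - 1)) ≤ γ j + ε → γ j + ε ≤ γ (j + 1) →
      0 ≤ PP β K (Function.update γ j (γ j + (0 + ε))) - PP β K (Function.update γ j (γ j + 0)) := fun ε h1 h2 => by
    rw [zero_add, add_zero, Function.update_eq_self, sub_nonneg]
    exact hmin (foc_update hγ hj h1 h2)
  have hlo := foc_lo hγ j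
  have hhi : γ j ≤ γ (j + 1) := hγ.mono (Nat.le_succ j)
  refine ⟨fun h => ?_, fun h => ?_⟩
  · have h1 := ge_of_tendsto (b := 0) hd.tendsto_slope_zero_right (by
      filter_upwards [Ioo_mem_nhdsGT (sub_pos.2 h)] with ε hε
      exact smul_nonneg (inv_nonneg.2 hε.1.le) (hm ε (by linarith [hε.1]) (by linarith [hε.2])))
    rw [sub_nonneg, le_div_iff₀ hp] at h1
    linarith
  · have h1 := le_of_tendsto (b := 0) hd.tendsto_slope_zero_left (by
      filter_upwards [Ioo_mem_nhdsLT (sub_neg.2 h)] with ε hε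
      exact smul_nonpos_of_nonpos_of_nonneg (inv_nonpos.2 hε.2.le) (hm ε (by linarith [hε.1]) (by linarith [hε.2])))
    rw [sub_nonpos, div_le_iff₀ hp] at h1
    linarith

end Crest.Agent.R339.Cls
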