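import Crest.Agent.R339.Cls.Grid0

/-!
# Row 339 / Cls: a minimiser of the Parisi functional and its first-order conditions
Only the class `LipschitzWith 1` is needed.
* `foc_ch_sub`: `ch` is a contraction for the sup norm.
* `foc_ch_pert`: `ch f' - ch f = m⁻¹ log tE (exp (m (f' - f)))`; `|e^u - 1 - u| ≤ u²`, `|log (1+u) - u| ≤ 2u²`.
* `foc_ch_m`: Taylor expansion in `m`, uniformly in `x`: with `ψ_x(g) = f(x+√s g) - f x`, `|ψ_x g| ≤ √s |g|`,
  `ch m' s f x = f x + m'⁻¹ log ∫ exp (m' ψ_x)`; `Λ(m') = log ∫ exp (m' ψ_x)` satisfies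
  `Λ(m') - Λ(m) = log tE (exp ((m'-m) ψ_x))`, `|e^u - 1 - u| ≤ u² e^{|u|}`, `∫ exp (m ψ_x) ≥ exp (-m √s)`.
* `foc_deriv`: `Phi` at levels `> j` does not depend on `γ j`; at level `j` use `foc_ch_m`, at levels `i < j`
  downward induction with `foc_ch_pert`: `Phi' i - Phi i = ε ψ_i + O(ε²)`, `ψ_i = tE ψ_{i+1}`, and
  `∫ ψ_i dnu_i` does not depend on `i` (`integral_adv`); `nu 0 = dirac 0`.
* `foc_exists`: minimise `a ↦ PP (extension of a by β)` over the compact set of monotone `a : Fin K → ℝ` with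
  values in `[η, β]` (`IsCompact.exists_isMinOn`; continuity from `foc_lip`); one-sided variation of one coordinate
  keeps monotonicity; sign of a one-sided derivative at a minimum (`HasDerivAt` + slopes).
-/

set_option autoImplicit false
open MeasureTheory ProbabilityTheory Filter Topology

noncomputable section

namespace Crest.Agent.R339.Cls

variable {β η m s : ℝ} {f f' ψ : ℝ → ℝ} {K : ℕ} {γ : ℕ → ℝ}

theorem foc1_eg (hf : LipschitzWith 1 f) (hf' : LipschitzWith 1 f') (m : ℝ) :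
    EG fun y => Real.exp (m * (f' y - f y)) := by
  have h := (EG.exp_lip hf' m).mul (EG.exp_lip hf (-m))
  simp only [← Real.exp_add] at h
  convert h using 3
  ring

theorem foc1_exp (hf : LipschitzWith 1 f) (hf' : LipschitzWith 1 f') (hm : 0 < m) (s x : ℝ) :
    Real.exp (m * (ch m s f' x - ch m s f x)) = tE m s f (fun y => Real.exp (m * (f' y - f y))) x := by
  rw [mul_sub, Real.exp_sub, exp_ch hf hm.ne', exp_ch hf' hm.ne', tE, Zs]
  simp only [← Real.exp_add, mul_sub, sub_add_cancel]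

theorem foc1_le (hf : LipschitzWith 1 f) (hf' : LipschitzWith 1 f') (hm : 0 < m) {e : ℝ}
    (h : ∀ y, f' y - f y ≤ e) (s x : ℝ) : ch m s f' x - ch m s f x ≤ e := by
  refine le_of_mul_le_mul_left (Real.exp_le_exp.1 ?_) hm
  rw [foc1_exp hf hf' hm, ← tE_const hf m s (Real.exp (m * e)) x]
  exact tE_mono hf (foc1_eg hf hf' m) (eg_const _)
    (fun y => Real.exp_le_exp.2 (mul_le_mul_of_nonneg_left (h y) hm.le)) m s x

theorem foc_ch_sub (hf : LipschitzWith 1 f) (hf' : LipschitzWith 1 f') (hm : 0 < m) {e : ℝ}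
    (h : ∀ y, |f' y - f y| ≤ e) (s x : ℝ) : |ch m s f' x - ch m s f x| ≤ e := by
  rw [abs_sub_le_iff]
  exact ⟨foc1_le hf hf' hm (fun y => (abs_sub_le_iff.1 (h y)).1) s x,
    foc1_le hf' hf hm (fun y => (abs_sub_le_iff.1 (h y)).2) s x⟩

theorem foc_ch_pert (hm : 0 < m) (B : ℝ) : ∃ C e₀ : ℝ, 0 < e₀ ∧ ∀ (s : ℝ) (f f' ψ : ℝ → ℝ) (ε : ℝ),
    LipschitzWith 1 f → LipschitzWith 1 f' → Measurable ψ → (∀ y, |ψ y| ≤ B) → |ε| ≤ e₀ →
    (∀ y, |f' y - f y - ε * ψ y| ≤ B * ε ^ 2) →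
    ∀ x, |ch m s f' x - ch m s f x - ε * tE m s f ψ x| ≤ C * ε ^ 2 := by
  refine ⟨8 * m * B ^ 2 + B, (2 * m * |B| + 1)⁻¹, by positivity, fun s f f' ψ ε hf hf' hψ hB hε h x => ?_⟩
  have hB0 : 0 ≤ B := (abs_nonneg _).trans (hB 0)
  have he0 := abs_nonneg ε
  rw [abs_of_nonneg hB0, ← one_div, le_div_iff₀ (by positivity)] at hε
  have h1 : 0 ≤ |ε| * (2 * m * B) := by positivity
  have he1 : |ε| ≤ 1 := by linarith
  have hd : ∀ y, |f' y - f y| ≤ 2 * B * |ε| := fun y => by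
    have a1 := abs_add_le (f' y - f y - ε * ψ y) (ε * ψ y)
    have a2 : |ε| * |ψ y| ≤ |ε| * B := mul_le_mul_of_nonneg_left (hB y) he0
    have a3 : B * |ε| * |ε| ≤ B * |ε| * 1 := mul_le_mul_of_nonneg_left he1 (by positivity)
    have a4 := h y
    rw [← sq_abs ε] at a4
    rw [sub_add_cancel, abs_mul] at a1
    linarith
  have key : ∀ d : ℝ, |d| ≤ 2 * B * |ε| → |Real.exp (m * d) - 1 - m * d| ≤ 4 * m ^ 2 * B ^ 2 * ε ^ 2 := fun d hd => by
    have a1 : |m * d| ≤ m * (2 * B * |ε|) := by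
      rw [abs_mul, abs_of_pos hm]
      exact mul_le_mul_of_nonneg_left hd hm.le
    refine (Real.abs_exp_sub_one_sub_id_le (a1.trans (by linarith))).trans ?_
    rw [← sq_abs (m * d), ← sq_abs ε]
    exact (pow_le_pow_left₀ (abs_nonneg _) a1 2).trans (le_of_eq (by ring))
  have eψ := (EG.of_bdd hψ hB).const_mul (m * ε)
  have e1 := (foc1_eg hf hf' m).sub (eg_const 1)
  have h2 := abs_tE_le hf (e1.sub eψ) (C := 4 * m ^ 2 * B ^ 2 * ε ^ 2 + m * (B * ε ^ 2)) (fun y => by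
    have a1 := key _ (hd y)
    have a2 := mul_le_mul_of_nonneg_left (h y) hm.le
    rw [← abs_of_pos hm, ← abs_mul, abs_of_pos hm] at a2
    refine le_trans (le_of_eq ?_) ((abs_add_le _ _).trans (add_le_add a1 a2))
    congr 1
    ring) m s x
  rw [tE_sub hf e1 eψ, tE_sub hf (foc1_eg hf hf' m) (eg_const 1), tE_const hf, tE_const_mul,
    ← foc1_exp hf hf' hm] at h2
  have h3 := key _ (foc_ch_sub hf hf' hm hd s x)
  refine le_of_mul_le_mul_left ?_ hm
  rw [← abs_of_pos hm, ← abs_mul, abs_of_pos hm]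
  rw [abs_le] at h2 h3 ⊢
  constructor <;> linarith [h2.1, h2.2, h3.1, h3.2]

end Crest.Agent.R339.Cls
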