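import Crest.Agent.R339.Cls.Foc1

/-!
# Row 339 / Cls: a minimiser of the Parisi functional and its first-order conditions
Only the class `LipschitzWith 1` is needed.
* `foc_ch_sub`: `ch` is a contraction for the sup norm.
* `foc_ch_pert`: `ch f' - ch f = m⁻¹ log tE (exp (m (f' - f)))`; `|e^u - 1 - u| ≤ u²`, `|log (1+u) - u| ≤ 2u²`.
* `foc_ch_m`: Taylor expansion in `m`, uniformly in `x`: with `ψ_x(g) = f(x+√s g) - f x`, `|ψ_x g| ≤ √s |g|`,
  `ch m' s f x = f x + m'⁻¹ log ∫ exp (m' ψ_x)`; `Λ(m') = log ∫ exp (m' ψ_x)` satisfies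
  `Λ(m') - Λ(m) = log tE (exp ((m'-m) ψ_x))`, `|e^u - 1 - u| ≤ u² e^{|u|}`, `∫ exp (m ψ_x) ≥ exp (-m √s)`.
* `foc_deriv`: `Phi` at levels `> j` does not depend on `γ j`; at level `j` use `foc_ch_m`, at levels `i < j`
  downward induction with `foc_ch_pert`: `Phi' i - Phi i = ε ψ_i + O(ε²)`, `ψ_i = tE ψ_{i+1}`, and
  `∫ ψ_i dnu_i` does not depend on `i` (`integral_adv`); `nu 0 = dirac 0`.
* `foc_exists`: minimise `a ↦ PP (extension of a by β)` over the compact set of monotone `a : Fin K → ℝ` with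
  values in `[η, β]` (`IsCompact.exists_isMinOn`; continuity from `foc_lip`); one-sided variation of one coordinate
  keeps monotonicity; sign of a one-sided derivative at a minimum (`HasDerivAt` + slopes).
-/

set_option autoImplicit false
open MeasureTheory ProbabilityTheory Filter Topology

noncomputable section

namespace Crest.Agent.R339.Cls

variable {β η m s : ℝ} {f f' ψ : ℝ → ℝ} {K : ℕ} {γ : ℕ → ℝ}

theorem foc2_exp (u : ℝ) : |Real.exp u - 1 - u| ≤ u ^ 2 * Real.exp |u| := by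
  have h1 := Real.add_one_le_exp u
  have h2 : Real.exp u - 1 ≤ u * Real.exp u := by
    have h3 := Real.add_one_le_exp (-u)
    have h4 : Real.exp (-u) * Real.exp u = 1 := by rw [← Real.exp_add]; simp
    nlinarith [Real.exp_pos u]
  rw [abs_of_nonneg (by linarith)]
  rcases le_total 0 u with hu | hu
  · rw [abs_of_nonneg hu]
    nlinarith [mul_le_mul_of_nonneg_left h2 hu]
  · have h5 : 1 ≤ Real.exp |u| := Real.one_le_exp (abs_nonneg u)
    nlinarith [mul_le_mul_of_nonneg_left h5 (sq_nonneg u), mul_nonneg (neg_nonneg.2 hu) (sub_nonneg.2 h1)]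

theorem foc2_log {c x y : ℝ} (hc : 0 < c) (hx : c ≤ x) (hy : c ≤ y) :
    |Real.log y - Real.log x - (y - x) / x| ≤ (y - x) ^ 2 / c ^ 2 := by
  have hx0 : 0 < x := hc.trans_le hx
  have hy0 : 0 < y := hc.trans_le hy
  have h1 := Real.log_le_sub_one_of_pos (div_pos hy0 hx0)
  have h2 := Real.log_le_sub_one_of_pos (div_pos hx0 hy0)
  rw [Real.log_div hy0.ne' hx0.ne'] at h1
  rw [Real.log_div hx0.ne' hy0.ne'] at h2
  have e1 : (y - x) / x = y / x - 1 := by field_simp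
  have e2 : y / x - 1 + (x / y - 1) = (y - x) ^ 2 / (x * y) := by field_simp; ring
  have h3 : (y - x) ^ 2 / (x * y) ≤ (y - x) ^ 2 / c ^ 2 :=
    div_le_div_of_nonneg_left (sq_nonneg _) (by positivity) (by nlinarith)
  rw [abs_of_nonpos (by linarith)]
  linarith

theorem foc2_real {η R c B : ℝ} (hη : 0 < η) (hc : 0 < c) : ∃ C : ℝ, 0 ≤ C ∧ ∀ m m' M M' N : ℝ, m ∈ Set.Icc η R →
    m' ∈ Set.Icc η R → M ∈ Set.Icc c B → c ≤ M' → |N| ≤ B → |M' - M - (m' - m) * N| ≤ B * (m' - m) ^ 2 →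
    |(N / M - m⁻¹ * Real.log M) / m| ≤ C ∧
      |m'⁻¹ * Real.log M' - m⁻¹ * Real.log M - (m' - m) * ((N / M - m⁻¹ * Real.log M) / m)| ≤ C * (m' - m) ^ 2 := by
  obtain ⟨L, hL⟩ : ∃ L, L = |Real.log c| + |Real.log B| := ⟨_, rfl⟩
  obtain ⟨T, hT⟩ : ∃ T, T = |B| / c + (|B| + |B| * |R|) ^ 2 / c ^ 2 := ⟨_, rfl⟩
  have hL0 : 0 ≤ L := by rw [hL]; positivity
  have hT0 : 0 ≤ T := by rw [hT]; positivity
  refine ⟨(|B| / c + η⁻¹ * L) / η + (L * η⁻¹ ^ 3 + |B| / c * η⁻¹ ^ 2 + T * η⁻¹), by positivity,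
    fun m m' M M' N hm hm' hM hM' hN hd => ?_⟩
  have hm0 : 0 < m := hη.trans_le hm.1
  have hm0' : 0 < m' := hη.trans_le hm'.1
  have hM0 : 0 < M := hc.trans_le hM.1
  have hB : 0 < B := hM0.trans_le hM.2
  have hi : m⁻¹ ≤ η⁻¹ := inv_anti₀ hη hm.1
  have hi' : m'⁻¹ ≤ η⁻¹ := inv_anti₀ hη hm'.1
  have hl : |Real.log M| ≤ L := by
    have h1 := Real.log_le_log hc hM.1
    have h2 := Real.log_le_log hM0 hM.2
    rw [hL, abs_le]
    constructor <;> linarith [neg_abs_le (Real.log c), le_abs_self (Real.log B), abs_nonneg (Real.log c),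
      abs_nonneg (Real.log B)]
  have hD : |N / M| ≤ |B| / c := by
    rw [abs_div, abs_of_pos hM0, abs_of_pos hB]
    exact div_le_div₀ hB.le hN hc hM.1
  have h1 : |(N / M - m⁻¹ * Real.log M) / m| ≤ (|B| / c + η⁻¹ * L) / η := by
    rw [abs_div, abs_of_pos hm0]
    refine div_le_div₀ (by positivity) ((abs_sub _ _).trans (add_le_add hD ?_)) hη hm.1
    rw [abs_mul, abs_of_pos (inv_pos.2 hm0)]
    gcongr
  refine ⟨h1.trans (le_add_of_nonneg_right (by positivity)), ?_⟩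
  obtain ⟨ε, hε⟩ : ∃ ε, ε = m' - m := ⟨_, rfl⟩
  have hεR : |ε| ≤ |R| := by
    rw [hε, abs_le]
    constructor <;> linarith [hm.2, hm'.2, le_abs_self R]
  rw [← hε] at hd ⊢
  have h2 : |M' - M| ≤ (|B| + |B| * |R|) * |ε| := by
    have h3 : |M' - M| ≤ |M' - M - ε * N| + |ε * N| := by
      simpa using abs_add_le (M' - M - ε * N) (ε * N)
    have h4 : |ε * N| ≤ |B| * |ε| := by
      rw [abs_mul, mul_comm, abs_of_pos hB]; gcongr
    have h5 : B * ε ^ 2 ≤ |B| * |R| * |ε| := by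
      rw [abs_of_pos hB, ← sq_abs ε, sq, mul_assoc]; gcongr
    linarith
  have h3 : |Real.log M' - Real.log M - ε * (N / M)| ≤ T * ε ^ 2 := by
    have h4 := foc2_log hc hM.1 hM'
    have h5 : (M' - M) ^ 2 / c ^ 2 ≤ (|B| + |B| * |R|) ^ 2 / c ^ 2 * ε ^ 2 := by
      rw [div_mul_eq_mul_div, ← sq_abs (M' - M), ← sq_abs ε, ← mul_pow]; gcongr
    have h6 : |(M' - M - ε * N) / M| ≤ |B| / c * ε ^ 2 := by
      rw [abs_div, abs_of_pos hM0, abs_of_pos hB, div_mul_eq_mul_div]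
      exact div_le_div₀ (by positivity) hd hc hM.1
    have e : Real.log M' - Real.log M - ε * (N / M) =
        (Real.log M' - Real.log M - (M' - M) / M) + (M' - M - ε * N) / M := by field_simp; ring
    rw [e, hT, add_mul]
    linarith [abs_add_le (Real.log M' - Real.log M - (M' - M) / M) ((M' - M - ε * N) / M)]
  have e : m'⁻¹ * Real.log M' - m⁻¹ * Real.log M - ε * ((N / M - m⁻¹ * Real.log M) / m) =
      Real.log M * (m⁻¹ * m⁻¹ * m'⁻¹) * ε ^ 2 - N / M * (m⁻¹ * m'⁻¹) * ε ^ 2 +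
        (Real.log M' - Real.log M - ε * (N / M)) * m'⁻¹ := by
    rw [hε]; field_simp; ring
  have a1 : |Real.log M * (m⁻¹ * m⁻¹ * m'⁻¹) * ε ^ 2| ≤ L * η⁻¹ ^ 3 * ε ^ 2 := by
    rw [abs_mul, abs_mul, abs_of_nonneg (sq_nonneg ε), abs_of_pos (by positivity : 0 < m⁻¹ * m⁻¹ * m'⁻¹),
      show η⁻¹ ^ 3 = η⁻¹ * η⁻¹ * η⁻¹ by ring]
    gcongr
  have a2 : |N / M * (m⁻¹ * m'⁻¹) * ε ^ 2| ≤ |B| / c * η⁻¹ ^ 2 * ε ^ 2 := by
    rw [abs_mul, abs_mul, abs_of_nonneg (sq_nonneg ε), abs_of_pos (by positivity : 0 < m⁻¹ * m'⁻¹), sq η⁻¹]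
    gcongr
  have a3 : |(Real.log M' - Real.log M - ε * (N / M)) * m'⁻¹| ≤ T * η⁻¹ * ε ^ 2 := by
    rw [abs_mul, abs_of_pos (inv_pos.2 hm0'), mul_right_comm]
    gcongr
  have a4 : 0 ≤ (|B| / c + η⁻¹ * L) / η * ε ^ 2 := by positivity
  rw [e]
  refine ((abs_add_le _ _).trans (add_le_add_left (abs_sub _ _) _)).trans ?_
  linarith

theorem foc2_int (c : ℝ) : Integrable (fun g : ℝ => Real.exp (c * |g|)) γ1 := by
  have h : LipschitzWith 1 fun x : ℝ => |x| := lipschitzWith_one_norm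
  simpa using (EG.exp_lip h c).integrable_gauss 1 0

theorem foc2_core (hη : 0 < η) (R a : ℝ) (ha : 0 ≤ a) : ∃ C : ℝ, 0 ≤ C ∧ ∀ ψ : ℝ → ℝ, Measurable ψ →
    (∀ g, |ψ g| ≤ a * |g|) → ∀ m ∈ Set.Icc η R, ∀ m' ∈ Set.Icc η R,
    |((∫ g, ψ g * Real.exp (m * ψ g) ∂γ1) / (∫ g, Real.exp (m * ψ g) ∂γ1) -
      m⁻¹ * Real.log (∫ g, Real.exp (m * ψ g) ∂γ1)) / m| ≤ C ∧
    |m'⁻¹ * Real.log (∫ g, Real.exp (m' * ψ g) ∂γ1) - m⁻¹ * Real.log (∫ g, Real.exp (m * ψ g) ∂γ1) -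
      (m' - m) * (((∫ g, ψ g * Real.exp (m * ψ g) ∂γ1) / (∫ g, Real.exp (m * ψ g) ∂γ1) -
        m⁻¹ * Real.log (∫ g, Real.exp (m * ψ g) ∂γ1)) / m)| ≤ C * (m' - m) ^ 2 := by
  obtain ⟨C, hC0, hC⟩ := foc2_real (R := R) (B := ∫ g, Real.exp ((2 * R + 2) * a * |g|) ∂γ1) hη
    (integral_exp_pos (foc2_int (-(R * a))))
  refine ⟨C, hC0, fun ψ hψ hb m hm m' hm' => ?_⟩
  have hR : 0 < R := hη.trans_le (hm.1.trans hm.2)
  have hw := foc2_int ((2 * R + 2) * a)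
  have hp : ∀ g, 0 ≤ a * |g| := fun g => by positivity
  have b0 : ∀ t, |t| ≤ R → ∀ g, |t * ψ g| ≤ R * (a * |g|) := fun t ht g => by
    rw [abs_mul]; exact mul_le_mul ht (hb g) (abs_nonneg _) hR.le
  have hI : ∀ t ∈ Set.Icc η R, |t| ≤ R := fun t ht => by rw [abs_of_pos (hη.trans_le ht.1)]; exact ht.2
  have b1 : ∀ g, |ψ g| ≤ Real.exp (a * |g|) := fun g => by linarith [hb g, Real.add_one_le_exp (a * |g|)]
  have b2 : ∀ t ∈ Set.Icc η R, ∀ g, ‖Real.exp (t * ψ g)‖ ≤ Real.exp ((2 * R + 2) * a * |g|) := fun t ht g => by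
    rw [Real.norm_eq_abs, Real.abs_exp]
    refine Real.exp_le_exp.2 ((le_abs_self _).trans ((b0 t (hI t ht) g).trans ?_))
    nlinarith [hp g]
  have b3 : ∀ g, ‖ψ g * Real.exp (m * ψ g)‖ ≤ Real.exp ((2 * R + 2) * a * |g|) := fun g => by
    rw [Real.norm_eq_abs, abs_mul, Real.abs_exp]
    refine (mul_le_mul_of_nonneg_right (b1 g) (Real.exp_pos _).le).trans ?_
    rw [← Real.exp_add]
    refine Real.exp_le_exp.2 ?_
    nlinarith [hp g, b0 m (hI m hm) g, le_abs_self (m * ψ g)]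
  have i2 : ∀ t ∈ Set.Icc η R, Integrable (fun g => Real.exp (t * ψ g)) γ1 := fun t ht =>
    hw.mono' (by fun_prop) (Eventually.of_forall (b2 t ht))
  have i3 : Integrable (fun g => ψ g * Real.exp (m * ψ g)) γ1 := hw.mono' (by fun_prop) (Eventually.of_forall b3)
  have lo : ∀ t ∈ Set.Icc η R, ∫ g, Real.exp (-(R * a) * |g|) ∂γ1 ≤ ∫ g, Real.exp (t * ψ g) ∂γ1 := fun t ht =>
    integral_mono (foc2_int _) (i2 t ht) fun g =>
      Real.exp_le_exp.2 (by linarith [b0 t (hI t ht) g, neg_abs_le (t * ψ g)])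
  refine hC m m' _ _ _ hm hm' ⟨lo m hm, (le_abs_self _).trans ?_⟩ (lo m' hm') ?_ ?_
  · exact norm_integral_le_of_norm_le hw (Eventually.of_forall (b2 m hm))
  · exact norm_integral_le_of_norm_le hw (Eventually.of_forall b3)
  · have i4 : Integrable (fun g => Real.exp (m' * ψ g) - Real.exp (m * ψ g)) γ1 := (i2 m' hm').sub (i2 m hm)
    rw [← integral_const_mul, ← integral_sub (i2 m' hm') (i2 m hm), ← integral_sub i4 (i3.const_mul _),
      ← integral_mul_const, ← Real.norm_eq_abs]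
    refine norm_integral_le_of_norm_le (hw.mul_const _) (Eventually.of_forall fun g => ?_)
    have hε : |m' - m| ≤ R := by
      rw [abs_le]; constructor <;> linarith [hm.1, hm.2, hm'.1, hm'.2]
    have e : Real.exp (m' * ψ g) - Real.exp (m * ψ g) - (m' - m) * (ψ g * Real.exp (m * ψ g)) =
        Real.exp (m * ψ g) * (Real.exp ((m' - m) * ψ g) - 1 - (m' - m) * ψ g) := by
      rw [show m' * ψ g = m * ψ g + (m' - m) * ψ g by ring, Real.exp_add]; ring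
    have c1 : Real.exp (m * ψ g) ≤ Real.exp (R * (a * |g|)) :=
      Real.exp_le_exp.2 ((le_abs_self _).trans (b0 m (hI m hm) g))
    have c2 : Real.exp |(m' - m) * ψ g| ≤ Real.exp (R * (a * |g|)) := Real.exp_le_exp.2 (b0 _ hε g)
    have c3 : ψ g ^ 2 ≤ Real.exp (a * |g|) ^ 2 := by
      rw [← sq_abs]; exact pow_le_pow_left₀ (abs_nonneg _) (b1 g) 2
    have e2 : Real.exp ((2 * R + 2) * a * |g|) * (m' - m) ^ 2 =
        Real.exp (R * (a * |g|)) * ((m' - m) ^ 2 * Real.exp (a * |g|) ^ 2 * Real.exp (R * (a * |g|))) := by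
      rw [show (2 * R + 2) * a * |g| = R * (a * |g|) + (a * |g| + a * |g|) + R * (a * |g|) by ring, Real.exp_add,
        Real.exp_add, Real.exp_add]
      ring
    rw [Real.norm_eq_abs, e, abs_mul, Real.abs_exp, e2]
    refine mul_le_mul c1 ((foc2_exp _).trans ?_) (abs_nonneg _) (Real.exp_pos _).le
    rw [mul_pow]
    gcongr

theorem foc2_main (hη : 0 < η) (R s : ℝ) : ∃ C : ℝ, 0 ≤ C ∧ ∀ f : ℝ → ℝ, LipschitzWith 1 f →
    ∀ m ∈ Set.Icc η R, ∀ m' ∈ Set.Icc η R, ∀ x, |(tE m s f f x - ch m s f x) / m| ≤ C ∧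
      |ch m' s f x - ch m s f x - (m' - m) * ((tE m s f f x - ch m s f x) / m)| ≤ C * (m' - m) ^ 2 := by
  obtain ⟨C, hC0, hC⟩ := foc2_core hη R √s (Real.sqrt_nonneg s)
  refine ⟨C, hC0, fun f hf m hm m' hm' x => ?_⟩
  have hc := hf.continuous
  have h := hC (fun g => f (x + √s * g) - f x) (by fun_prop) (fun g => by
    have := hf.dist_le_mul (x + √s * g) x
    simpa [Real.dist_eq, abs_mul, abs_of_nonneg (Real.sqrt_nonneg s)] using this) m hm m' hm'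
  have eZ : ∀ t, ∫ g, Real.exp (t * (f (x + √s * g) - f x)) ∂γ1 = Zs t s f x / Real.exp (t * f x) := fun t => by
    rw [Zs, ← integral_div]
    simp only [mul_sub, Real.exp_sub]
  have eL : ∀ t ∈ Set.Icc η R, t⁻¹ * Real.log (Zs t s f x / Real.exp (t * f x)) = ch t s f x - f x := fun t ht => by
    have ht0 : t ≠ 0 := (hη.trans_le ht.1).ne'
    rw [Real.log_div (Zs_pos hf t s x).ne' (Real.exp_pos _).ne', Real.log_exp, ch]
    field_simp
  have eN : (∫ g, (f (x + √s * g) - f x) * Real.exp (m * (f (x + √s * g) - f x)) ∂γ1) /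
      (Zs m s f x / Real.exp (m * f x)) = tE m s f f x - f x := by
    have h1 := tE_sub hf (EG.of_lip hf) (eg_const (f x)) m s x
    rw [tE_const hf] at h1
    rw [← h1, tE, div_div_eq_mul_div, ← integral_mul_const]
    congr 2
    funext g
    rw [mul_sub m, Real.exp_sub]
    field_simp
  simp only [eZ, eL m hm, eL m' hm', eN, sub_sub_sub_cancel_right] at h
  exact h

theorem foc_ch_m (hf : LipschitzWith 1 f) (hm : 0 < m) (s : ℝ) : ∃ C e₀ : ℝ, 0 < e₀ ∧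
    (∀ x, |(tE m s f f x - ch m s f x) / m| ≤ C) ∧ ∀ ε : ℝ, |ε| ≤ e₀ → ∀ x,
      |ch (m + ε) s f x - ch m s f x - ε * ((tE m s f f x - ch m s f x) / m)| ≤ C * ε ^ 2 := by
  obtain ⟨C, -, hC⟩ := foc2_main (half_pos hm) (2 * m) s
  have h0 : m ∈ Set.Icc (m / 2) (2 * m) := ⟨by linarith, by linarith⟩
  refine ⟨C, m / 2, half_pos hm, fun x => (hC f hf m h0 m h0 x).1, fun ε hε x => ?_⟩
  rw [abs_le] at hε
  have := (hC f hf m h0 (m + ε) ⟨by linarith [hε.1], by linarith [hε.2]⟩ x).2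
  rwa [add_sub_cancel_left] at this

/-- Uniform version: `m ↦ ch m s f x` is Lipschitz on `[η, β]`, uniformly in `f` and `x`. -/
theorem foc_ch_lip (hη : 0 < η) (β s : ℝ) : ∃ C : ℝ, ∀ f : ℝ → ℝ, LipschitzWith 1 f →
    ∀ m ∈ Set.Icc η β, ∀ m' ∈ Set.Icc η β, ∀ x, |ch m' s f x - ch m s f x| ≤ C * |m' - m| := by
  obtain ⟨C, hC0, hC⟩ := foc2_main hη β s
  refine ⟨C + C * β, fun f hf m hm m' hm' x => ?_⟩
  obtain ⟨h1, h2⟩ := hC f hf m hm m' hm' x
  have hε : |m' - m| ≤ β := by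
    rw [abs_le]; constructor <;> linarith [hm.1, hm.2, hm'.1, hm'.2]
  have h3 := abs_add_le (ch m' s f x - ch m s f x - (m' - m) * ((tE m s f f x - ch m s f x) / m))
    ((m' - m) * ((tE m s f f x - ch m s f x) / m))
  rw [sub_add_cancel, abs_mul] at h3
  have h4 : C * (m' - m) ^ 2 ≤ C * β * |m' - m| := by
    rw [← sq_abs, sq, mul_assoc]; gcongr
  nlinarith [mul_le_mul_of_nonneg_left h1 (abs_nonneg (m' - m))]

end Crest.Agent.R339.Cls
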