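import Crest.Agent.R339.Cls.Foc2

/-!
# Row 339 / Cls: a minimiser of the Parisi functional and its first-order conditions
Only the class `LipschitzWith 1` is needed.
* `foc_ch_sub`: `ch` is a contraction for the sup norm.
* `foc_ch_pert`: `ch f' - ch f = m⁻¹ log tE (exp (m (f' - f)))`; `|e^u - 1 - u| ≤ u²`, `|log (1+u) - u| ≤ 2u²`.
* `foc_ch_m`: Taylor expansion in `m`, uniformly in `x`: with `ψ_x(g) = f(x+√s g) - f x`, `|ψ_x g| ≤ √s |g|`,
  `ch m' s f x = f x + m'⁻¹ log ∫ exp (m' ψ_x)`; `Λ(m') = log ∫ exp (m' ψ_x)` satisfies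
  `Λ(m') - Λ(m) = log tE (exp ((m'-m) ψ_x))`, `|e^u - 1 - u| ≤ u² e^{|u|}`, `∫ exp (m ψ_x) ≥ exp (-m √s)`.
* `foc_deriv`: `Phi` at levels `> j` does not depend on `γ j`; at level `j` use `foc_ch_m`, at levels `i < j`
  downward induction with `foc_ch_pert`: `Phi' i - Phi i = ε ψ_i + O(ε²)`, `ψ_i = tE ψ_{i+1}`, and
  `∫ ψ_i dnu_i` does not depend on `i` (`integral_adv`); `nu 0 = dirac 0`.
* `foc_exists`: minimise `a ↦ PP (extension of a by β)` over the compact set of monotone `a : Fin K → ℝ` with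
  values in `[η, β]` (`IsCompact.exists_isMinOn`; continuity from `foc_lip`); one-sided variation of one coordinate
  keeps monotonicity; sign of a one-sided derivative at a minimum (`HasDerivAt` + slopes).
-/

set_option autoImplicit false
open MeasureTheory ProbabilityTheory Filter Topology

noncomputable section

namespace Crest.Agent.R339.Cls

variable {β η m s : ℝ} {f f' ψ : ℝ → ℝ} {K : ℕ} {γ : ℕ → ℝ}

/-- downward induction -/
theorem foc3_down (K : ℕ) (P : ℕ → Prop) (h0 : P K) (h1 : ∀ i < K, P (i + 1) → P i) : ∀ i ≤ K, P i := by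
  intro i hi
  induction hi using Nat.decreasingInduction with
  | self => exact h0
  | of_succ i hi ih => exact h1 i hi ih

theorem foc_lip (hβ : 0 < β) (hη : 0 < η) (K : ℕ) : ∃ C : ℝ, ∀ γ γ' : ℕ → ℝ,
    (∀ j, γ j ∈ Set.Icc η β) → (∀ j, γ' j ∈ Set.Icc η β) →
      |Phi β K γ' 0 0 - Phi β K γ 0 0| ≤ C * ∑ j ∈ Finset.range K, |γ' j - γ j| := by
  obtain ⟨C, hC⟩ := foc_ch_lip hη β (dl K)
  refine ⟨C, fun γ γ' hγ hγ' => ?_⟩
  have hp : ∀ j, 0 < γ j := fun j => hη.trans_le (hγ j).1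
  have hp' : ∀ j, 0 < γ' j := fun j => hη.trans_le (hγ' j).1
  have key : ∀ i ≤ K, ∀ x, |Phi β K γ' i x - Phi β K γ i x| ≤ C * ∑ j ∈ Finset.Ico i K, |γ' j - γ j| := by
    refine foc3_down K _ ?_ ?_
    · intro x
      simp [Phi_top]
    · intro i hi ih x
      rw [Phi_step β γ' hi, Phi_step β γ hi, Finset.sum_eq_sum_Ico_succ_bot hi, mul_add]
      have h1 := foc_ch_sub (lip_Phi hβ hp K (i + 1)) (lip_Phi hβ hp' K (i + 1)) (hp' i) ih (dl K) x
      have h2 := hC _ (lip_Phi hβ hp K (i + 1)) _ (hγ i) _ (hγ' i) x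
      have h3 := abs_sub_le (ch (γ' i) (dl K) (Phi β K γ' (i + 1)) x) (ch (γ' i) (dl K) (Phi β K γ (i + 1)) x)
        (ch (γ i) (dl K) (Phi β K γ (i + 1)) x)
      linarith
  rw [Finset.range_eq_Ico]
  exact key 0 (Nat.zero_le K) 0

/-- `Phi` at level `i` depends on `γ k`, `k ≥ i`, only -/
theorem foc3_indep (β : ℝ) (K : ℕ) (γ γ' : ℕ → ℝ) :
    ∀ i ≤ K, (∀ k, i ≤ k → γ' k = γ k) → Phi β K γ' i = Phi β K γ i := by
  refine foc3_down K _ ?_ ?_
  · intro _
    rw [Phi_top, Phi_top]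
  · intro i hi ih h
    rw [Phi_step β γ' hi, Phi_step β γ hi, h i le_rfl, ih fun k hk => h k (by omega)]

theorem foc3_key (hβ : 0 < β) (hγ : ∀ j, 0 < γ j) {j : ℕ} (hj : j < K) : ∀ i ≤ j,
    ∃ (ψ : ℝ → ℝ) (C e₀ : ℝ), 0 < e₀ ∧ Measurable ψ ∧ (∀ y, |ψ y| ≤ C) ∧
      (∀ ε : ℝ, |ε| ≤ e₀ → ∀ y,
        |Phi β K (Function.update γ j (γ j + ε)) i y - Phi β K γ i y - ε * ψ y| ≤ C * ε ^ 2) ∧
      ∫ x, ψ x ∂nu β K γ i = (sE β K γ (j + 1) - sE β K γ j) / γ j := by
  refine foc3_down j _ ?_ ?_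
  · have hf := lip_Phi hβ hγ K (j + 1)
    obtain ⟨C, e₀, he, h1, h2⟩ := foc_ch_m hf (hγ j) (dl K)
    have hE1 := EG.tE hf (EG.of_lip hf) (γ j) (dl K)
    have hE2 := EG.of_lip (lip_ch hf (hγ j) (dl K))
    refine ⟨fun x => (tE (γ j) (dl K) (Phi β K γ (j + 1)) (Phi β K γ (j + 1)) x -
      ch (γ j) (dl K) (Phi β K γ (j + 1)) x) / γ j, C, e₀, he, (hE1.1.sub hE2.1).div_const _, h1, fun ε hε y => ?_, ?_⟩
    · rw [Phi_step β _ hj, Phi_step β γ hj, Function.update_self,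
        foc3_indep β K γ _ (j + 1) hj fun k hk => Function.update_of_ne (by omega) _ _]
      exact h2 ε hε y
    · have hν := gd_nu hβ hγ K j
      rw [integral_div, integral_sub (hν.integrable hE1) (hν.integrable hE2), ← integral_adv hf hν (EG.of_lip hf),
        ← Phi_step β γ hj]
      rfl
  · rintro i hi ⟨ψ, C, e₀, he, hψ, h1, h2, h3⟩
    have hiK : i < K := hi.trans hj
    have hf := lip_Phi hβ hγ K (i + 1)
    obtain ⟨C', e₁, he₁, h4⟩ := foc_ch_pert (hγ i) C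
    have hE := EG.of_bdd hψ h1
    refine ⟨tE (γ i) (dl K) (Phi β K γ (i + 1)) ψ, max C C', min (min e₀ e₁) (γ j / 2),
      lt_min (lt_min he he₁) (half_pos (hγ j)), (EG.tE hf hE _ _).1,
      fun y => (abs_tE_le hf hE h1 _ _ y).trans (le_max_left _ _), fun ε hε y => ?_, ?_⟩
    · have hε0 : |ε| ≤ e₀ := hε.trans ((min_le_left _ _).trans (min_le_left _ _))
      have hε1 : |ε| ≤ e₁ := hε.trans ((min_le_left _ _).trans (min_le_right _ _))
      have hε2 : |ε| ≤ γ j / 2 := hε.trans (min_le_right _ _)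
      have hγ' : ∀ k, 0 < Function.update γ j (γ j + ε) k := by
        intro k
        by_cases hk : k = j
        · rw [hk, Function.update_self]
          have := hγ j
          have := neg_abs_le ε
          linarith
        · rw [Function.update_of_ne hk]
          exact hγ k
      rw [Phi_step β _ hiK, Phi_step β γ hiK, Function.update_of_ne hi.ne]
      exact (h4 (dl K) _ _ ψ ε hf (lip_Phi hβ hγ' K (i + 1)) hψ h1 hε1 (h2 ε hε0) y).trans
        (mul_le_mul_of_nonneg_right (le_max_right _ _) (sq_nonneg ε))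
    · rw [← h3, ← integral_adv hf (gd_nu hβ hγ K i) hE]
      rfl

theorem foc_deriv (hβ : 0 < β) (hγ : ∀ j, 0 < γ j) {j : ℕ} (hj : j < K) :
    HasDerivAt (fun ε => Phi β K (Function.update γ j (γ j + ε)) 0 0)
      ((sE β K γ (j + 1) - sE β K γ j) / γ j) 0 := by
  obtain ⟨ψ, C, e₀, he, -, -, h1, h2⟩ := foc3_key hβ hγ hj 0 (Nat.zero_le j)
  have h3 : ψ 0 = (sE β K γ (j + 1) - sE β K γ j) / γ j := by
    rw [← h2]
    show ψ 0 = ∫ x, ψ x ∂Measure.dirac 0
    rw [integral_dirac]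
  rw [← h3, hasDerivAt_iff_isLittleO_nhds_zero]
  have h4 : (fun ε : ℝ => Phi β K (Function.update γ j (γ j + ε)) 0 0 - Phi β K γ 0 0 - ε * ψ 0) =O[𝓝 0]
      fun ε : ℝ => ε ^ 2 := by
    refine Asymptotics.IsBigO.of_bound C ?_
    filter_upwards [Metric.closedBall_mem_nhds (0 : ℝ) he] with ε hε
    rw [mem_closedBall_zero_iff, Real.norm_eq_abs] at hε
    rw [Real.norm_eq_abs, Real.norm_eq_abs, abs_of_nonneg (sq_nonneg ε)]
    exact h1 ε hε 0
  have h5 := h4.trans_isLittleO (Asymptotics.isLittleO_pow_id (𝕜 := ℝ) (by norm_num : 1 < 2))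
  simpa only [zero_add, add_zero, Function.update_eq_self, smul_eq_mul] using h5

end Crest.Agent.R339.Cls
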