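import Crest.Agent.R339.Cls.QC1

/-!
# Row 339 / Cls: the shape class of the forward densities
* `qc_mul`: `X_new = X + d · D 1 f`, `Adm.D1_ang`; decay from `exp (-d f) ≤ exp (d|f 0| + d|x|)` and
  `d|x| ≤ c x²/2 + d²/(2c)`.
* `qm_density`: `Q(y) = smo = ∫ ker s (y-x) q(x) dx = ∫ q(y + √s g) dγ`; `Q' = ∫ q'(y+√s g) dγ =
  ∫ ker s (y-x) q'(x) dx` (dominated differentiation), `Q''` exists since `ker s` is smooth; Gaussian decay:
  `(y-x)²/(2s) + c x² ≥ c' y² + c'' x²`.  Angular condition: put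
  `F(a,b) = a q(a) q'(b) - b q'(a) q(b)` (`≤ 0` for `0<b<a` by `ang`; odd in `a`, antisymmetric).
  `x₁ Q(x₁) Q'(x₂) - x₂ Q'(x₁) Q(x₂) = ∫∫ ker ker F`: indeed `∫ ker s (x-y) y q(y) dy = x Q(x) + s Q'(x)`
  (integrate by parts: `hasDerivAt_ker`, or `gauss_ibp`), and the terms `s Q'(x₁) Q'(x₂)` cancel.  Then `refl_B2`.
* `qm_step`: `adv_eq_density`, `withDensity_mul`, `exp_ch`.
-/

set_option autoImplicit false
open MeasureTheory ProbabilityTheory Filter Topology

noncomputable section

namespace Crest.Agent.R339.Cls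

variable {β m s : ℝ} {f q : ℝ → ℝ}

theorem qc_mul (hq : QC q) (hA : Adm β m f) (hm : 0 ≤ m) {d : ℝ} (hd : 0 ≤ d) :
    QC fun y => q y * Real.exp (-(d * f y)) := by
  have hf : ∀ x, HasDerivAt f (D 1 f x) x := fun x => by simpa [D] using hA.reg.hasDerivAt 0 x
  have hf' : Differentiable ℝ f := fun x => (hf x).differentiableAt
  have h1 : ∀ x, HasDerivAt (fun y => q y * Real.exp (-(d * f y)))
      ((deriv q x - d * D 1 f x * q x) * Real.exp (-(d * f x))) x := fun x => by
    have h0 : HasDerivAt (fun y => Real.exp (-(d * f y))) (Real.exp (-(d * f x)) * -(d * D 1 f x)) x :=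
      ((hf x).const_mul d).neg.exp
    exact ((hq.d1 x).hasDerivAt.mul h0).congr_deriv (by ring)
  have h2 : deriv (fun y => q y * Real.exp (-(d * f y))) =
      fun x => (deriv q x - d * D 1 f x * q x) * Real.exp (-(d * f x)) := funext fun x => (h1 x).deriv
  refine ⟨fun x => mul_pos (hq.pos x) (Real.exp_pos _), fun x => by rw [hq.even, hA.even],
    fun x => (h1 x).differentiableAt, ?_, ?_, fun x y hy hxy => ?_⟩
  · rw [h2]
    exact (hq.d2.sub (((hA.reg.diff 1).const_mul d).mul hq.d1)).mul (hf'.const_mul d).neg.exp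
  · obtain ⟨C, c, hc, h⟩ := hq.dec
    have hC : 0 ≤ C := by
      have := (hq.pos 0).trans_le (h 0).1
      exact ((mul_pos_iff_of_pos_right (Real.exp_pos _)).1 this).le
    refine ⟨(1 + d) * C * Real.exp (d * |f 0| + d ^ 2 / (2 * c)), c / 2, by positivity, fun x => ?_⟩
    have a1 : Real.exp (-(c * x ^ 2)) * Real.exp (-(d * f x)) ≤
        Real.exp (d * |f 0| + d ^ 2 / (2 * c)) * Real.exp (-(c / 2 * x ^ 2)) := by
      rw [← Real.exp_add, ← Real.exp_add, Real.exp_le_exp]
      have b1 := hA.reg.lip.dist_le_mul x 0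
      rw [Real.dist_eq, Real.dist_eq, NNReal.coe_one, one_mul, sub_zero] at b1
      have b2 : -f x ≤ |f 0| + |x| := by linarith [(abs_le.1 b1).1, neg_abs_le (f 0)]
      have b3 : d * |x| ≤ c / 2 * x ^ 2 + d ^ 2 / (2 * c) := by
        have : c / 2 * x ^ 2 + d ^ 2 / (2 * c) - d * |x| = (c * |x| - d) ^ 2 / (2 * c) := by
          rw [← sq_abs x]
          field_simp
          ring
        have b4 : 0 ≤ (c * |x| - d) ^ 2 / (2 * c) := by positivity
        linarith
      have b4 := mul_le_mul_of_nonneg_left b2 hd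
      linarith
    have a2 : ∀ u : ℝ, u ≤ (1 + d) * C * Real.exp (-(c * x ^ 2)) → u * Real.exp (-(d * f x)) ≤
        (1 + d) * C * Real.exp (d * |f 0| + d ^ 2 / (2 * c)) * Real.exp (-(c / 2 * x ^ 2)) := fun u hu => by
      refine (mul_le_mul_of_nonneg_right hu (Real.exp_pos _).le).trans ?_
      rw [mul_assoc, mul_assoc _ (Real.exp _)]
      exact mul_le_mul_of_nonneg_left a1 (by positivity)
    have a3 : 0 ≤ d * (C * Real.exp (-(c * x ^ 2))) := by positivity
    refine ⟨a2 _ (by linarith [(h x).1]), ?_⟩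
    rw [h2, abs_mul, abs_of_pos (Real.exp_pos _)]
    refine a2 _ ((abs_sub _ _).trans ?_)
    have a4 : |d * D 1 f x * q x| ≤ d * (C * Real.exp (-(c * x ^ 2))) := by
      rw [abs_mul, abs_mul, abs_of_nonneg hd, abs_of_pos (hq.pos x), mul_assoc]
      refine mul_le_mul_of_nonneg_left ?_ hd
      exact (mul_le_of_le_one_left (hq.pos x).le (hA.reg.abs_D1 x)).trans (h x).1
    linarith [(h x).2]
  · have e : ∀ z, -deriv (fun y => q y * Real.exp (-(d * f y))) z / (q z * Real.exp (-(d * f z))) =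
        -deriv q z / q z + d * D 1 f z := fun z => by
      have := (hq.pos z).ne'
      rw [h2]
      field_simp
      ring
    have a1 := hq.ang x y hy hxy
    have a2 := mul_le_mul_of_nonneg_left (hA.D1_ang hm hy hxy) hd
    rw [e, e]
    linarith

theorem qc_ker (hs : 0 < s) {Z : ℝ} (hZ : 0 < Z) : QC fun y => ker s y / Z := by
  have h1 : ∀ x, HasDerivAt (fun y => ker s y / Z) (-(x / s) * ker s x / Z) x := fun x =>
    (hasDerivAt_ker s x).div_const Z
  have h2 : deriv (fun y => ker s y / Z) = fun x => -(x / s) * ker s x / Z := funext fun x => (h1 x).deriv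
  have h3 : Differentiable ℝ (ker s) := fun x => (hasDerivAt_ker s x).differentiableAt
  refine ⟨fun x => div_pos (ker_pos hs x) hZ, fun x => by rw [ker_neg], fun x => (h1 x).differentiableAt, ?_, ?_,
    fun x y hy hxy => ?_⟩
  · rw [h2]
    exact (((differentiable_id.div_const s).neg).mul h3).div_const Z
  · refine ⟨(√(2 * Real.pi * s))⁻¹ / Z * ((1 + s) / s), 1 / (4 * s), by positivity, fun x => ?_⟩
    set A := (√(2 * Real.pi * s))⁻¹ / Z with hA
    set E := Real.exp (-(1 / (4 * s) * x ^ 2)) with hE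
    have A0 : 0 ≤ A := by positivity
    have E0 : 0 < E := Real.exp_pos _
    have e1 : ker s x / Z = A * E * E := by
      rw [mul_assoc A, ker, hA, hE, ← Real.exp_add, div_mul_eq_mul_div]
      congr 3
      field_simp
      ring
    have e2 : (1 + 1 / (4 * s) * x ^ 2) * E ≤ 1 := by
      have := Real.add_one_le_exp (1 / (4 * s) * x ^ 2)
      rw [hE, Real.exp_neg, ← div_eq_mul_inv, div_le_one (Real.exp_pos _)]
      linarith
    have e3 : 0 ≤ 1 / (4 * s) * x ^ 2 := by positivity
    have e4 : |x| ≤ s + 1 / (4 * s) * x ^ 2 := by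
      have : s + 1 / (4 * s) * x ^ 2 - |x| = (2 * s - |x|) ^ 2 / (4 * s) := by
        rw [← sq_abs x]
        field_simp
        ring
      have b4 : 0 ≤ (2 * s - |x|) ^ 2 / (4 * s) := by positivity
      linarith
    have e5 : ∀ u : ℝ, u ≤ s + 1 / (4 * s) * x ^ 2 → u / s * (A * E * E) ≤ A * ((1 + s) / s) * E := fun u hu => by
      have b1 : u * E ≤ 1 + s := by
        have b2 : u ≤ (1 + s) * (1 + 1 / (4 * s) * x ^ 2) := by nlinarith [mul_nonneg hs.le e3]
        have b3 := mul_le_mul_of_nonneg_right b2 E0.le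
        have b4 := mul_le_mul_of_nonneg_left e2 (by positivity : 0 ≤ 1 + s)
        linarith
      calc u / s * (A * E * E) = A * (u * E / s) * E := by ring
        _ ≤ _ := by gcongr
    refine ⟨?_, ?_⟩
    · have := e5 s (by linarith)
      rwa [div_self hs.ne', one_mul, ← e1] at this
    · rw [h2]
      simp only
      rw [mul_div_assoc, e1, abs_mul, abs_neg, abs_div, abs_of_pos hs, abs_of_nonneg (by positivity : 0 ≤ A * E * E)]
      exact e5 _ e4
  · have e : ∀ z, -deriv (fun y => ker s y / Z) z / (ker s z / Z) = z / s := fun z => by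
      have := (ker_pos hs z).ne'
      rw [h2]
      field_simp
    rw [e, e]
    exact le_of_eq (by ring)

theorem qm_unt_dirac (hf : LipschitzWith 1 f) (m s : ℝ) : QM (unt m s f (Measure.dirac 0)) := by
  intro t ht
  have : smo (unt m s f (Measure.dirac 0)) t = fun y => ker t y / Zs m s f 0 := funext fun y => by
    rw [smo, integral_unt hf, integral_dirac, sub_zero]
  rw [this]
  exact qc_ker ht (Zs_pos hf m s 0)

theorem qm_step {m' s' : ℝ} {f' : ℝ → ℝ} {ν : Measure ℝ} (hf' : LipschitzWith 1 f')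
    (hA : Adm β m (ch m' s' f')) (hm : 0 < m) (hmm : m ≤ m') (hs : 0 < s) (hν : Gd ν)
    (hq : QM (unt m s (ch m' s' f') ν)) : QM (unt m' s' f' (adv m s (ch m' s' f') ν)) := by
  have hm' : m' ≠ 0 := (hm.trans_le hmm).ne'
  have hF : Continuous (ch m' s' f') := hA.reg.lip.continuous
  have hQ := hq s hs
  have hc := hQ.d1.continuous
  have hZ : Zs m' s' f' = fun x => Real.exp (m' * ch m' s' f' x) := funext fun x => (exp_ch hf' hm' s' x).symm
  have key : unt m' s' f' (adv m s (ch m' s' f') ν) = volume.withDensity fun y =>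
      ENNReal.ofReal (smo (unt m s (ch m' s' f') ν) s y * Real.exp (-((m' - m) * ch m' s' f' y))) := by
    rw [adv_eq_density hA.reg.lip hν hs, unt, hZ, ← withDensity_mul _ (by fun_prop) (by fun_prop)]
    congr 1
    funext y
    rw [Pi.mul_apply, ← ENNReal.ofReal_mul (mul_pos (hQ.pos y) (Real.exp_pos _)).le, ← Real.exp_neg, mul_assoc,
      ← Real.exp_add]
    congr 3
    ring
  rw [key]
  exact qm_density (qc_mul hQ hA hm.le (sub_nonneg.2 hmm))

end Crest.Agent.R339.Cls
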