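import Crest.Agent.R339.Cls.Cell
import Crest.Agent.R339.Cls.QC
import Crest.Agent.R339.Cls.Step
import Crest.Agent.R339.Cls.Grid0

/-!
# Row 339 / Cls: the sequences of the grid satisfy `Facts`
-/

set_option autoImplicit false
open MeasureTheory ProbabilityTheory Filter Topology

noncomputable section

namespace Crest.Agent.R339.Cls

variable {β η : ℝ} {K : ℕ} {γ : ℕ → ℝ}

/-- Downward induction: `adm_lc`, `Adm.mono`, `adm_ch`. -/
theorem adm_Phi (hβ : 0 < β) (hη : 0 < η) (hγ : Par β η K γ) {j : ℕ} (hj : j ≤ K) :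
    Adm β (γ j) (Phi β K γ j) := by
  induction hj using Nat.decreasingInduction with
  | self => rw [Phi_top, hγ.top K le_rfl]; exact adm_lc hβ
  | of_succ k hk ih =>
    rw [Phi_step β γ hk]
    exact adm_ch (ih.mono (hγ.mono (Nat.le_succ k))) (hγ.pos hη k) (hγ.le k) _

theorem grid_adm_succ (hβ : 0 < β) (hη : 0 < η) (hγ : Par β η K γ) {j : ℕ} (hj : j < K) :
    Adm β (γ j) (Phi β K γ (j + 1)) :=
  (adm_Phi hβ hη hγ (Nat.succ_le_of_lt hj)).mono (hγ.mono (Nat.le_succ j))

theorem grid_nu_succ (β : ℝ) (K : ℕ) (γ : ℕ → ℝ) (j : ℕ) :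
    nu β K γ (j + 1) = adv (γ j) (dl K) (Phi β K γ (j + 1)) (nu β K γ j) := rfl

/-- Upward induction: `qm_unt_dirac`, `qm_step`. -/
theorem qm_nu (hβ : 0 < β) (hη : 0 < η) (hγ : Par β η K γ) {j : ℕ} (hj : j < K) :
    QM (unt (γ j) (dl K) (Phi β K γ (j + 1)) (nu β K γ j)) := by
  induction j with
  | zero => exact qm_unt_dirac (lip_Phi hβ (hγ.pos hη) K _) _ _
  | succ j ih =>
    have hj' : j < K := by omega
    have h1 := ih hj'
    have hA := grid_adm_succ hβ hη hγ hj'
    rw [grid_nu_succ]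
    rw [Phi_step β γ hj] at h1 hA
    have h2 := qm_step (lip_Phi hβ (hγ.pos hη) K (j + 1 + 1)) hA (hγ.pos hη j)
      (hγ.mono (Nat.le_succ j)) (dl_pos (by omega)) (gd_nu hβ (hγ.pos hη) K j) h1
    rw [← Phi_step β γ hj] at h2
    exact h2

/-- Cauchy–Schwarz for a probability measure. -/
theorem grid_sq_integral_le {ν : Measure ℝ} (hν : Gd ν) {F : ℝ → ℝ} (hF : EG F) :
    (∫ x, F x ∂ν) ^ 2 ≤ ∫ x, F x ^ 2 ∂ν := by
  have := hν.1
  set c := ∫ x, F x ∂ν with hc
  have h1 : Integrable F ν := hν.integrable hF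
  have h2 : Integrable (fun x => F x ^ 2) ν := hν.integrable (hF.pow 2)
  have h3 : 0 ≤ ∫ x, (F x ^ 2 - 2 * c * F x + c ^ 2) ∂ν :=
    integral_nonneg fun x => by
      have : F x ^ 2 - 2 * c * F x + c ^ 2 = (F x - c) ^ 2 := by ring
      simp only [Pi.zero_apply]; rw [this]; positivity
  have h4 : Integrable (fun x => F x ^ 2 - 2 * c * F x) ν := h2.sub (h1.const_mul _)
  rw [integral_add h4 (integrable_const _), integral_sub h2 (h1.const_mul _),
    integral_const_mul, integral_const, ← hc] at h3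
  simp only [probReal_univ, smul_eq_mul, one_mul] at h3
  nlinarith

theorem grid_integral_le {ν : Measure ℝ} (hν : Gd ν) {F : ℝ → ℝ} (hF : EG F) {c : ℝ}
    (h : ∀ x, F x ≤ c) : ∫ x, F x ∂ν ≤ c := by
  have := hν.1
  have h1 := integral_mono (hν.integrable hF) (integrable_const c) h
  simpa using h1

/-- `A_j ≤ β (1 - V_j)`. -/
theorem grid_A_le {m : ℝ} {f : ℝ → ℝ} {ν : Measure ℝ} (hA : Adm β m f) (hν : Gd ν) :
    ∫ x, D 2 f x ∂ν ≤ β * (1 - ∫ x, D 1 f x ^ 2 ∂ν) := by
  have := hν.1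
  have h2 : Integrable (fun x => D 1 f x ^ 2) ν := hν.integrable ((hA.reg.eg 1).pow 2)
  have h3 : Integrable (fun x => β * (1 - D 1 f x ^ 2)) ν :=
    ((integrable_const (1 : ℝ)).sub h2).const_mul β
  have h1 := integral_mono (hν.integrable (hA.reg.eg 2)) h3 hA.d2
  rw [integral_const_mul, integral_sub (integrable_const _) h2] at h1
  simpa using h1

/-- The moment `∫ x u_j(x)`. -/
theorem grid_M (hβ : 0 < β) (hη : 0 < η) (hγ : Par β η K γ) {j : ℕ} (hj : j ≤ K) :
    ∫ x, x * D 1 (Phi β K γ j) x ∂nu β K γ j =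
      dl K * ∑ i ∈ Finset.range j, (sA β K γ i + γ i * sV β K γ i) := by
  induction j with
  | zero => simp [nu]
  | succ j ih =>
    have hj' : j < K := hj
    have h := step_M (s := dl K) (grid_adm_succ hβ hη hγ hj').reg (hγ.pos hη j)
      (dl_pos (by omega)).le (gd_nu hβ (hγ.pos hη) K j)
    rw [← Phi_step β γ hj', ← grid_nu_succ, ih hj'.le] at h
    rw [h, Finset.sum_range_succ, mul_add (dl K) (∑ i ∈ Finset.range j, _)]
    rfl

theorem grid_M_le (hβ : 0 < β) (hη : 0 < η) (hK : 0 < K) (hγ : Par β η K γ) :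
    dl K * ∑ i ∈ Finset.range K, (sA β K γ i + γ i * sV β K γ i) ≤ β := by
  have h1 : ∑ i ∈ Finset.range K, (sA β K γ i + γ i * sV β K γ i) ≤ ∑ _i ∈ Finset.range K, β := by
    refine Finset.sum_le_sum fun i hi => ?_
    have hi' : i ≤ K := (Finset.mem_range.1 hi).le
    have h2 : sA β K γ i ≤ β * (1 - sV β K γ i) :=
      grid_A_le (adm_Phi hβ hη hγ hi') (gd_nu hβ (hγ.pos hη) K i)
    have h3 : 0 ≤ sV β K γ i := integral_nonneg fun x => sq_nonneg _
    have h4 := mul_le_mul_of_nonneg_right (hγ.le i) h3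
    nlinarith
  rw [Finset.sum_const, Finset.card_range, nsmul_eq_mul] at h1
  have hK' : (0 : ℝ) < K := by exact_mod_cast hK
  calc dl K * ∑ i ∈ Finset.range K, (sA β K γ i + γ i * sV β K γ i) ≤ dl K * (K * β) :=
        mul_le_mul_of_nonneg_left h1 (dl_pos hK).le
    _ = β := by unfold dl; field_simp

theorem grid_tanh_sq_le (u : ℝ) : Real.tanh u ^ 2 ≤ 1 := by
  have h1 := Real.tanh_lt_one u
  have h2 := Real.neg_one_lt_tanh u
  nlinarith

theorem facts (hβ : 0 < β) (hη : 0 < η) : ∃ c : ℝ, 0 < c ∧ ∀ (K : ℕ) (γ : ℕ → ℝ), 0 < K →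
    Par β η K γ → Foc η K γ (sE β K γ) →
      Facts β η c K γ (sV β K γ) (sA β K γ) (sG β K γ) (sB β K γ) (sC β K γ) (sE β K γ) := by
  obtain ⟨c, hc, htop⟩ := top_bound hβ
  refine ⟨c, hc, fun K γ hK hγ hfoc => ?_⟩
  have hgd : ∀ j, Gd (nu β K γ j) := gd_nu hβ (hγ.pos hη) K
  have hadm : ∀ j ≤ K, Adm β (γ j) (Phi β K γ j) := fun j hj => adm_Phi hβ hη hγ hj
  have hM := grid_M hβ hη hγ (le_refl K)
  have hMle := grid_M_le hβ hη hK hγ
  rw [Phi_top] at hM
  simp only [D1_lc hβ] at hM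
  have hlc := adm_lc hβ
  have hVK : sV β K γ K = ∫ x, Real.tanh (β * x) ^ 2 ∂nu β K γ K := by
    unfold sV; rw [Phi_top]; simp only [D1_lc hβ]
  have htanh : EG fun x => Real.tanh (β * x) := by
    have := hlc.reg.eg 1
    rwa [show D 1 (lc β) = fun x => Real.tanh (β * x) from funext (D1_lc hβ)] at this
  refine
    { par := hγ
      V0 := ?_
      Vmono := fun j hj => ?_
      VK := ?_
      Arec := fun j hj => ?_
      AK := ?_
      A0 := fun j hj => integral_nonneg fun x => ((hadm j hj).D2_pos x).le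
      AG := fun j hj => grid_sq_integral_le (hgd j) ((hadm j hj).reg.eg 2)
      Gle := fun j hj => grid_integral_le (hgd j) (((hadm j hj).reg.eg 2).pow 2) fun x =>
        pow_le_pow_left₀ ((hadm j hj).D2_pos x).le ((hadm j hj).D2_le hβ.le x) 2
      B0 := fun j hj => integral_nonneg fun x => pow_nonneg ((hadm j hj).D2_pos x).le 3
      Ble := fun j hj => grid_integral_le (hgd j) (((hadm j hj).reg.eg 2).pow 3) fun x =>
        pow_le_pow_left₀ ((hadm j hj).D2_pos x).le ((hadm j hj).D2_le hβ.le x) 3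
      C0 := fun j _ => integral_nonneg fun x => sq_nonneg _
      CK := ?_
      cell := fun j hj => ?_
      EK := ?_
      foc := hfoc }
  · unfold sV nu
    rw [integral_dirac, (hadm 0 (Nat.zero_le K)).D1_zero]
    simp
  · have h := step_V_lt (s := dl K) (hadm (j + 1) hj) (hγ.pos hη j) (dl_pos hK) (hgd j)
    rw [← Phi_step β γ hj, ← grid_nu_succ] at h
    exact h.le
  · rw [hVK]
    exact htop _ (hgd K) (hM.trans_le hMle)
  · have h := step_A (hadm (j + 1) hj).reg (hγ.pos hη j) (hgd j) (dl K)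
    rw [← Phi_step β γ hj, ← grid_nu_succ] at h
    exact h
  · have := (hgd K).1
    rw [hVK]
    unfold sA
    rw [Phi_top]
    simp only [D2_lc hβ]
    rw [integral_const_mul, integral_sub (integrable_const _) ((hgd K).integrable (htanh.pow 2))]
    simp
  · unfold sC
    rw [Phi_top]
    refine grid_integral_le (hgd K) ((hlc.reg.eg 3).pow 2) fun x => ?_
    rw [D3_lc hβ]
    have h1 := grid_tanh_sq_le (β * x)
    set t := Real.tanh (β * x)
    have h2 : (t * (1 - t ^ 2)) ^ 2 ≤ 1 := by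
      have h3 : (1 - t ^ 2) ^ 2 ≤ 1 := by nlinarith [sq_nonneg t]
      calc (t * (1 - t ^ 2)) ^ 2 = t ^ 2 * (1 - t ^ 2) ^ 2 := by ring
        _ ≤ 1 * 1 := mul_le_mul h1 h3 (sq_nonneg _) zero_le_one
        _ = 1 := by ring
    calc (-(2 * β ^ 2 * t * (1 - t ^ 2))) ^ 2 = 4 * β ^ 4 * (t * (1 - t ^ 2)) ^ 2 := by ring
      _ ≤ 4 * β ^ 4 * 1 := mul_le_mul_of_nonneg_left h2 (by positivity)
      _ = 4 * β ^ 4 := by ring
  · have h := cell (grid_adm_succ hβ hη hγ hj) (hγ.pos hη j) (hγ.le j) (dl_pos hK) (hgd j)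
      (qm_nu hβ hη hγ hj)
    rw [← Phi_step β γ hj, ← grid_nu_succ] at h
    exact h
  · have := (hgd K).1
    rw [← hM]
    unfold sE
    rw [Phi_top]
    have hi : Integrable (fun x => x * Real.tanh (β * x)) (nu β K γ K) :=
      (hgd K).integrable (eg_id.mul htanh)
    have hi2 : Integrable (fun x => Real.log 2 / β + x * Real.tanh (β * x)) (nu β K γ K) :=
      (integrable_const (Real.log 2 / β)).add hi
    have h1 := integral_mono ((hgd K).integrable (EG.of_lip hlc.reg.lip)) hi2 (lc_sub_le hβ)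
    rw [integral_add (integrable_const _) hi] at h1
    simpa using h1

end Crest.Agent.R339.Cls
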