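import Crest.Agent.R339.Cls.GuerraAux1

/-! # Row 339 / Cls: Guerra interpolation, the model and the increment bound -/

set_option autoImplicit false
set_option linter.unusedSectionVars false
open MeasureTheory ProbabilityTheory Filter Topology

noncomputable section

namespace Crest.Agent.R339.Cls

open Crest.Agent.R164 Crest.MathPhysics.SpinGlass

abbrev GRho (n : ℕ) : Type := Fin n ⊕ (Fin n × Fin n)

def gLA (n : ℕ) : Lv (Fin n → Bool) := finLv (uniformOn (Set.univ : Set (Fin n → Bool)))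

def gL (n : ℕ) : Lv ((GRho n → ℝ) × (Fin n → Bool)) := (gLv (GRho n)).prod (gLA n)

def gy (n : ℕ) (c : ℕ → Fin n → Bool) : GRho n → ℝ :=
  Sum.elim (fun i => spinSign (c 0 i))
    (fun p => if p.1 < p.2 then spinSign (c 0 p.1) * spinSign (c 0 p.2) / √n else 0)

def gA (n K : ℕ) (a b : ℝ) : GRho n → ℕ → ℝ :=
  Sum.elim (fun _ s => if s ≤ K then b else 0) (fun _ s => if s = K + 1 then a else 0)

def gH (n K : ℕ) (a b : ℝ) : (ℕ → (GRho n → ℝ) × (Fin n → Bool)) → ℝ :=
  lgH (K + 1) (gA n K a b) (gy n) (fun _ => 0)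

def gz (β : ℝ) (K : ℕ) (γ : ℕ → ℝ) (r : ℕ) : ℝ := if r ≤ K then γ (K - r) / β else 0

variable {β η : ℝ} {K n : ℕ} {γ : ℕ → ℝ}

theorem guerra_sch (hβ : 0 < β) (hη : 0 < η) (hγ : Par β η K γ) : IsSch (gz β K γ) := by
  have hp : ∀ j, 0 ≤ γ j := fun j => hη.le.trans (hγ.low.trans (hγ.mono (Nat.zero_le j)))
  refine ⟨?_, fun r r' h => ?_, fun r => ?_⟩
  · simp [gz, hγ.top K le_rfl, hβ.ne']
  · unfold gz
    by_cases h1 : r' ≤ K
    · rw [if_pos h1, if_pos (h.trans h1)]
      exact div_le_div_of_nonneg_right (hγ.mono (by omega)) hβ.le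
    · rw [if_neg h1]
      split_ifs
      · exact div_nonneg (hp _) hβ.le
      · exact le_rfl
  · unfold gz
    split_ifs
    · exact div_nonneg (hp _) hβ.le
    · exact le_rfl

theorem guerra_meas_spin (i : Fin n) : Measurable fun c : ℕ → Fin n → Bool => spinSign (c 0 i) :=
  (measurable_of_finite spinSign).comp ((measurable_pi_apply i).comp (measurable_pi_apply 0))

theorem guerra_sum_site (c : ℕ → Fin n → Bool) : ∑ i, gy n c (Sum.inl i) ^ 2 = n := by
  simp [gy, guerra_spin_sq]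

theorem guerra_sum_pair (hn : 0 < n) (c : ℕ → Fin n → Bool) :
    ∑ p, gy n c (Sum.inr p) ^ 2 = (n - 1) / 2 := by
  have hn' : (0 : ℝ) < n := Nat.cast_pos.2 hn
  have h := guerra_sym_sum (n := n) (fun _ _ => (1 : ℝ)) fun _ _ => rfl
  simp only [Finset.sum_const, Finset.card_univ, Fintype.card_fin, nsmul_eq_mul, mul_one] at h
  have h2 : ∑ p, gy n c (Sum.inr p) ^ 2 = (∑ a : Fin n, ∑ b : Fin n, if a < b then (1 : ℝ) else 0) / n := by
    rw [Fintype.sum_prod_type, Finset.sum_div]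
    refine Finset.sum_congr rfl fun a _ => ?_
    rw [Finset.sum_div]
    refine Finset.sum_congr rfl fun b _ => ?_
    by_cases hab : a < b
    · simp only [gy, Sum.elim_inr, hab, if_true, div_pow, mul_pow, guerra_spin_sq,
        Real.sq_sqrt hn'.le, one_mul]
    · simp [gy, hab]
  rw [h2, div_eq_iff hn'.ne']
  linarith

theorem guerra_ok (hn : 0 < n) (K : ℕ) :
    LGOK (K + 1) (gLA n) (gy n) (fun _ => 0) (n + (n - 1) / 2) where
  my := fun i => by
    rcases i with i | p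
    · exact guerra_meas_spin i
    · by_cases h : p.1 < p.2
      · simp only [gy, Sum.elim_inr, h, if_true]
        exact ((guerra_meas_spin _).mul (guerra_meas_spin _)).div_const _
      · simp only [gy, Sum.elim_inr, h, if_false]
        exact measurable_const
  by' := fun c => by
    rw [Fintype.sum_sum_type, guerra_sum_site, guerra_sum_pair hn]
  ly := fun x x' h => by
    unfold gy
    rw [h 0 (by omega)]
  lin := lin_const 0
  loc := fun _ _ _ => rfl

/-- The sums of weights. -/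
theorem guerra_alg (hβ : 0 < β) (hK : 0 < K) (htop : γ K = β) :
    ∑ j ∈ Finset.range (K + 1), (gz β K γ j - gz β K γ (j + 1)) * (dl K * (K - j : ℝ)) ^ 2 / 2 =
      1 / 2 - ∑ j ∈ Finset.range K, γ j / β * tau K j := by
  have hK' : (0 : ℝ) < K := Nat.cast_pos.2 hK
  have h1 : ∀ m : ℕ, ∑ j ∈ Finset.range (m + 1), (gz β K γ j - gz β K γ (j + 1)) *
      (dl K * (K - j : ℝ)) ^ 2 / 2 = gz β K γ 0 * (dl K * K) ^ 2 / 2 -
        gz β K γ (m + 1) * (dl K * (K - m : ℝ)) ^ 2 / 2 - ∑ j ∈ Finset.range m,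
          gz β K γ (j + 1) * ((dl K * (K - j : ℝ)) ^ 2 / 2 - (dl K * (K - (j + 1) : ℝ)) ^ 2 / 2) := by
    intro m
    induction m with
    | zero => simp; ring
    | succ m ih =>
      rw [Finset.sum_range_succ, ih, Finset.sum_range_succ]
      push_cast
      ring
  rw [h1 K]
  have h2 : gz β K γ 0 = 1 := by simp [gz, htop, hβ.ne']
  have h3 : dl K * K = 1 := by unfold dl; field_simp
  rw [h2, h3, sub_self, mul_zero, ← Finset.sum_range_reflect (fun j => γ j / β * tau K j)]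
  congr 1
  · norm_num
  · refine Finset.sum_congr rfl fun j hj => ?_
    have hj' := Finset.mem_range.1 hj
    have e1 : gz β K γ (j + 1) = γ (K - 1 - j) / β := by
      unfold gz
      rw [if_pos (by omega), show K - (j + 1) = K - 1 - j by omega]
    have e2 : ((K - 1 - j : ℕ) : ℝ) = K - 1 - j := by
      rw [Nat.cast_sub (by omega), Nat.cast_sub (by omega)]; simp
    rw [e1]
    unfold tau
    rw [e2]
    ring

theorem guerra_swap (w : ℕ → ℝ) (K : ℕ) :
    ∑ s ∈ Finset.Icc 1 K, ∑ j ∈ Finset.range s, w j = ∑ j ∈ Finset.range (K + 1), (K - j : ℝ) * w j := by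
  induction K with
  | zero => simp
  | succ K ih =>
    rw [Finset.sum_Icc_succ_top (by omega), ih, Finset.sum_range_succ _ (K + 1),
      ← Finset.sum_add_distrib]
    push_cast
    rw [sub_self, zero_mul, add_zero]
    exact Finset.sum_congr rfl fun j _ => by ring

/-- Tail forms of the pair and site blocks. -/
def gTJ (β : ℝ) (K : ℕ) (γ : ℕ → ℝ) (n : ℕ) (a b : ℝ) (x : ℕ → (GRho n → ℝ) × (Fin n → Bool)) : ℝ :=
  ∑ p : Fin n × Fin n, tl (gz β K γ) (gL n) (gH n K a b) (K + 2) (K + 1)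
    (fun x => gy n (fun r => (x r).2) (Sum.inr p)) (fun x => gy n (fun r => (x r).2) (Sum.inr p)) x

def gTS (β : ℝ) (K : ℕ) (γ : ℕ → ℝ) (n : ℕ) (a b : ℝ) (x : ℕ → (GRho n → ℝ) × (Fin n → Bool)) : ℝ :=
  ∑ s ∈ Finset.Icc 1 K, ∑ i : Fin n, tl (gz β K γ) (gL n) (gH n K a b) (K + 2) s
    (fun x => gy n (fun r => (x r).2) (Sum.inl i)) (fun x => gy n (fun r => (x r).2) (Sum.inl i)) x

theorem guerra_inc0 (hβ : 0 < β) (hη : 0 < η) (hγ : Par β η K γ) (hn : 0 < n) (a b a' b' : ℝ)
    (x : ℕ → (GRho n → ℝ) × (Fin n → Bool)) :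
    X (gz β K γ) (gL n) (gH n K a' b') (K + 2) x - X (gz β K γ) (gL n) (gH n K a b) (K + 2) x ≤
      (a' - a) * a' * gTJ β K γ n a' b' x + (b' - b) * b' * gTS β K γ n a' b' x := by
  refine (guerra_step (guerra_sch hβ hη hγ) (guerra_ok hn K) (gA n K a b) (gA n K a' b') x).trans
    (le_of_eq ?_)
  rw [Finset.sum_Icc_succ_top (by omega), add_comm]
  unfold gTJ gTS
  congr 1
  · rw [Fintype.sum_sum_type, Finset.mul_sum]
    simp only [gA, Sum.elim_inl, Sum.elim_inr, show ¬(K + 1 ≤ K) by omega, if_false, if_true,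
      sub_self, zero_mul, Finset.sum_const_zero, zero_add, mul_assoc]
    rfl
  · rw [Finset.mul_sum]
    refine Finset.sum_congr rfl fun s hs => ?_
    have hs' := (Finset.mem_Icc.1 hs).2
    rw [Fintype.sum_sum_type, Finset.mul_sum]
    simp only [gA, Sum.elim_inl, Sum.elim_inr, show ¬(s = K + 1) by omega, hs', if_false, if_true,
      sub_self, zero_mul, Finset.sum_const_zero, add_zero, mul_assoc]
    rfl

theorem guerra_T (hβ : 0 < β) (hη : 0 < η) (hK : 0 < K) (hγ : Par β η K γ) (hn : 0 < n) (a b : ℝ)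
    (x : ℕ → (GRho n → ℝ) × (Fin n → Bool)) :
    gTJ β K γ n a b x ≤ n ∧ gTS β K γ n a b x ≤ K * n ∧
      gTJ β K γ n a b x - dl K * gTS β K γ n a b x ≤
        -(n * ∑ j ∈ Finset.range K, γ j / β * tau K j) := by
  have hζ := guerra_sch hβ hη hγ
  have hok := guerra_ok hn K
  have hH : Lin (gL n) (K + 2) (gH n K a b) := hok.lin' _
  have hY : ∀ i, Tame (gL n) (K + 2) fun x => gy n (fun r => (x r).2) i := fun i => (hok.bdd_y i).tame
  have hn' : (0 : ℝ) < n := Nat.cast_pos.2 hn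
  have hK' : (0 : ℝ) < K := Nat.cast_pos.2 hK
  set w : ℕ → ℝ := fun j => gz β K γ j - gz β K γ (j + 1) with hw
  have hw0 : ∀ j, 0 ≤ w j := h2_sub_nonneg hζ
  set e : ℕ → ℝ := fun j => Ex (gz β K γ) (gL n) (gH n K a b) (K + 2) (syM (gz β K γ) (gL n) (gH n K a b)
    (fun x (p : Fin n × Fin n) => gy n (fun r => (x r).2) (Sum.inr p)) (j + 1)) x with he
  set d : ℕ → ℝ := fun j => Ex (gz β K γ) (gL n) (gH n K a b) (K + 2) (syM (gz β K γ) (gL n) (gH n K a b)
    (fun x (i : Fin n) => gy n (fun r => (x r).2) (Sum.inl i)) (j + 1)) x with hd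
  have e0 : ∀ j, 0 ≤ e j := fun j => lg_Ex_nonneg fun y => sy_M_nonneg _ _
  have d0 : ∀ j, 0 ≤ d j := fun j => lg_Ex_nonneg fun y => sy_M_nonneg _ _
  have hJ : gTJ β K γ n a b x = (n - 1) / 2 - ∑ j ∈ Finset.range (K + 1), w j * e j := by
    unfold gTJ
    rw [sy_sum_tl hζ hH (Y := fun x (p : Fin n × Fin n) => gy n (fun r => (x r).2) (Sum.inr p))
      (fun p => hY _)]
    simp only [guerra_sum_pair hn]
    rw [Ex_const hζ hH.ham]
  have hS : gTS β K γ n a b x = K * n - ∑ j ∈ Finset.range (K + 1), (K - j : ℝ) * (w j * d j) := by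
    unfold gTS
    rw [← guerra_swap, Finset.sum_congr rfl fun s _ => sy_sum_tl hζ hH
      (Y := fun x (i : Fin n) => gy n (fun r => (x r).2) (Sum.inl i)) (fun p => hY _) (K + 2) s x]
    simp only [guerra_sum_site]
    rw [Ex_const hζ hH.ham, Finset.sum_sub_distrib]
    simp [hw, hd]
  have hed : ∀ j, ∀ t : ℝ, t * d j - n * t ^ 2 / 2 - 1 / 2 ≤ e j := fun j t => by
    have tS := sy_tame_M hζ hH (Y := fun x (i : Fin n) => gy n (fun r => (x r).2) (Sum.inl i))
      (fun p => hY _) (j + 1)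
    have tP := sy_tame_M hζ hH
      (Y := fun x (p : Fin n × Fin n) => gy n (fun r => (x r).2) (Sum.inr p)) (fun p => hY _) (j + 1)
    have h1 := sy_mono hζ hH ((tS.const_mul t).sub (tame_const (n * t ^ 2 / 2 + 1 / 2))) tP (fun y => by
      have := h2_prob hζ hH.ham (j + 1) y
      have h2 := guerra_pos hn (mu (gz β K γ) (gL n) (gH n K a b) (j + 1) y)
        (σ := fun x i => spinSign ((x 0).2 i))
        (fun i => (guerra_meas_spin i).comp lg_measurable_snd) (fun x i => guerra_spin_sq _) t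
      unfold syM Ex
      simp only [gy, Sum.elim_inl, Sum.elim_inr]
      linarith) (K + 2) x
    rw [sy_sub hζ hH (tS.const_mul t) (tame_const _), sy_cmul, Ex_const hζ hH.ham] at h1
    simp only [he, hd]
    linarith
  have hw1 : ∑ j ∈ Finset.range (K + 1), w j = 1 := by
    rw [h2_sum_sub hζ]; simp [gz]
  refine ⟨?_, ?_, ?_⟩
  · rw [hJ]
    have : 0 ≤ ∑ j ∈ Finset.range (K + 1), w j * e j :=
      Finset.sum_nonneg fun j _ => mul_nonneg (hw0 j) (e0 j)
    linarith
  · rw [hS]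
    have : 0 ≤ ∑ j ∈ Finset.range (K + 1), (K - j : ℝ) * (w j * d j) :=
      Finset.sum_nonneg fun j hj => mul_nonneg (sub_nonneg.2 (Nat.cast_le.2
        (Nat.lt_succ_iff.1 (Finset.mem_range.1 hj)))) (mul_nonneg (hw0 j) (d0 j))
    linarith
  · have h3 : dl K * K = 1 := by unfold dl; field_simp
    have h4 := guerra_alg (γ := γ) hβ hK (hγ.top K le_rfl)
    have h5 : ∑ j ∈ Finset.range (K + 1), (dl K * ((K - j : ℝ) * (w j * d j)) - w j * e j) ≤
        ∑ j ∈ Finset.range (K + 1), (n * (w j * (dl K * (K - j : ℝ)) ^ 2 / 2) + w j / 2) :=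
      Finset.sum_le_sum fun j _ => by
        have := mul_le_mul_of_nonneg_left (hed j (dl K * (K - j : ℝ))) (hw0 j)
        linarith
    rw [Finset.sum_sub_distrib, Finset.sum_add_distrib, ← Finset.mul_sum, ← Finset.mul_sum,
      ← Finset.sum_div (f := w), hw1, h4] at h5
    rw [hJ, hS, mul_sub, ← mul_assoc, h3]
    linarith

theorem guerra_interp (hβ : 0 < β) (hη : 0 < η) (hK : 0 < K) (hγ : Par β η K γ) (hn : 0 < n)
    (x : ℕ → (GRho n → ℝ) × (Fin n → Bool)) :
    X (gz β K γ) (gL n) (gH n K β 0) (K + 2) x +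
        β ^ 2 / 2 * (n * ∑ j ∈ Finset.range K, γ j / β * tau K j) ≤
      X (gz β K γ) (gL n) (gH n K 0 (β * √(dl K))) (K + 2) x := by
  set c : ℝ := n * ∑ j ∈ Finset.range K, γ j / β * tau K j with hc
  have hδ := dl_pos hK
  have h3 : dl K * K = 1 := by unfold dl; field_simp
  have key := guerra_tele (T := Real.pi / 2) (C := β ^ 2 * n)
    (g := fun θ => X (gz β K γ) (gL n) (gH n K (β * Real.sin θ) (β * √(dl K) * Real.cos θ)) (K + 2) x +
      β ^ 2 / 2 * c * Real.sin θ ^ 2) (by positivity) fun u v hu huv hv => by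
    have h1 := guerra_inc0 hβ hη hγ hn (β * Real.sin u) (β * √(dl K) * Real.cos u) (β * Real.sin v)
      (β * √(dl K) * Real.cos v) x
    obtain ⟨t1, t2, t3⟩ := guerra_T hβ hη hK hγ hn (β * Real.sin v) (β * √(dl K) * Real.cos v) x
    set TJ := gTJ β K γ n (β * Real.sin v) (β * √(dl K) * Real.cos v) x
    set TS := gTS β K γ n (β * Real.sin v) (β * √(dl K) * Real.cos v) x
    have hs : Real.sin u ^ 2 ≤ Real.sin v ^ 2 := by
      have h0 : 0 ≤ Real.sin u := Real.sin_nonneg_of_nonneg_of_le_pi hu (by linarith [Real.pi_pos])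
      have h1 := Real.sin_le_sin_of_le_of_le_pi_div_two (by linarith [Real.pi_pos]) hv huv
      gcongr
    have l1 : (Real.sin v - Real.sin u) ^ 2 ≤ (v - u) ^ 2 :=
      sq_le_sq.2 (Real.abs_sin_sub_sin_le v u)
    have l2 : (Real.cos v - Real.cos u) ^ 2 ≤ (v - u) ^ 2 :=
      sq_le_sq.2 (Real.abs_cos_sub_cos_le v u)
    have e1 : (β * Real.sin v - β * Real.sin u) * (β * Real.sin v) =
        β ^ 2 / 2 * (Real.sin v ^ 2 - Real.sin u ^ 2) + β ^ 2 / 2 * (Real.sin v - Real.sin u) ^ 2 := by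
      ring
    have e2 : (β * √(dl K) * Real.cos v - β * √(dl K) * Real.cos u) * (β * √(dl K) * Real.cos v) =
        dl K * (-(β ^ 2 / 2 * (Real.sin v ^ 2 - Real.sin u ^ 2)) +
          β ^ 2 / 2 * (Real.cos v - Real.cos u) ^ 2) := by
      have := Real.sq_sqrt hδ.le
      rw [Real.sin_sq v, Real.sin_sq u]
      linear_combination (β ^ 2 * (Real.cos v - Real.cos u) * Real.cos v) * this
    rw [e1, e2] at h1
    have hn' : (0 : ℝ) < n := Nat.cast_pos.2 hn
    have m1 : (Real.sin v - Real.sin u) ^ 2 * TJ ≤ (v - u) ^ 2 * n :=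
      (mul_le_mul_of_nonneg_left t1 (sq_nonneg _)).trans (by gcongr)
    have m2 : (Real.cos v - Real.cos u) ^ 2 * (dl K * TS) ≤ (v - u) ^ 2 * n := by
      have : dl K * TS ≤ n := by
        have := mul_le_mul_of_nonneg_left t2 hδ.le
        rwa [← mul_assoc, h3, one_mul] at this
      exact (mul_le_mul_of_nonneg_left this (sq_nonneg _)).trans (by gcongr)
    have m3 := mul_le_mul_of_nonneg_left t3 (sub_nonneg.2 hs)
    have hb : 0 ≤ β ^ 2 / 2 := by positivity
    have m4 := mul_le_mul_of_nonneg_left (add_le_add (add_le_add m1 m2) m3) hb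
    linarith
  simpa using key

end Crest.Agent.R339.Cls
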