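import Crest.Agent.R339.Cls.Grid0
import Crest.Agent.R339.Cls.GuerraAux2

/-!
# Row 339 / Cls: Guerra's replica-symmetry-breaking bound
Use the hierarchical systems of row 164 (`Crest.Agent.R164`: `X`, `Ex`, `tl`, `sandwich`, `ibp_left`, `pi_val`,
`out_val`; see `R164/LG.lean` for the same computations with the uniform schedule).  Levels from the inside:
coordinate `0` = spins (`ζ 0 = 1`, uniform law), coordinates `r = 1..K` carry fields `z^r_i`, `ζ r = γ (K - r)/β`,
coordinate `K+1` carries `J`, `ζ (K+1) = 0`.  Rows `ρ = Fin n ⊕ Fin n × Fin n`,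
`H_θ = β [sin θ · pairEnergy J σ + cos θ · √δ ∑_r ∑_i z^r_i σ_i]`, `φ(θ) = val H_θ`.
`φ'(θ) = Ex (∂H_θ) = β² sin θ cos θ [tl_{K+1}(pair) - δ ∑_r tl_r(site)]`, and with `R_i = ∑_a (E_i σ_a)²/n`-type
two-replica overlaps `E_i`-wise: `∑_{a<b} (E_i σ_aσ_b)²/n` versus `∑_a (E_i σ_a)²`.  Positivity: for the level
`i` with `t = t_{K+1-i}` and two conditionally independent replicas with overlap `R`,
`E[n R²/2] - t E[n R] + n t²/2 = (n/2) E (R - t)² ≥ 0`; without replicas:
`∑_{a,b} (E_i σ_aσ_b)² ≥ (∑_a (E_i σ_a)²)²` since the matrix `E_i σσᵀ - (E_iσ)(E_iσ)ᵀ` is positive semidefinite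
(test `∑_{ab} (M_{ab} - v_a v_b)² ≥ 0` and `vᵀ M v ≥ |v|⁴`).  Hence
`φ(π/2) ≤ φ(0) - (n β²/2) ∑_j (γ_j/β) tau_j`, `φ(0) = n (β Phi 0 0 - log 2)`,
`β E max H - n log 2 ≤ φ(π/2)`.
-/

set_option autoImplicit false
open MeasureTheory ProbabilityTheory Filter Topology

noncomputable section

namespace Crest.Agent.R339.Cls

open Crest.MathPhysics.SpinGlass Crest.Agent.R164

variable {β η : ℝ} {K n : ℕ} {γ : ℕ → ℝ}

theorem guerra_unif (f : (Fin n → Bool) → ℝ) :
    ∫ ω, f ω.2 ∂(gL n).P = (1 / 2) ^ n * ∑ σ, f σ := by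
  have h : MeasurePreserving Prod.snd (gL n).P (uniformOn (Set.univ : Set (Fin n → Bool))) :=
    measurePreserving_snd (μ := gpi (GRho n))
  rw [th_integral_comp h (measurable_of_finite f), integral_fintype Integrable.of_finite,
    Finset.mul_sum]
  refine Finset.sum_congr rfl fun σ _ => ?_
  rw [smul_eq_mul]
  congr 1
  simp [Measure.real, uniformOn_univ]

/-- The couplings read off a sample. -/
def gJ (n : ℕ) (ω : (GRho n → ℝ) × (Fin n → Bool)) : Fin n → Fin n → ℝ :=
  fun i j => ω.1 (Sum.inr (i, j))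

theorem guerra_mpJ : MeasurePreserving (gJ n) (gL n).P (gaussianCouplings n) := by
  have h1 : MeasurePreserving Prod.fst (gL n).P (gpi (GRho n)) :=
    measurePreserving_fst (ν := uniformOn (Set.univ : Set (Fin n → Bool)))
  have h2 := measurePreserving_snd.comp (measurePreserving_gpi_sum (Fin n) (Fin n × Fin n))
  have h3 : MeasurePreserving (MeasurableEquiv.curry (Fin n) (Fin n) ℝ) (gpi (Fin n × Fin n))
      (gaussianCouplings n) := by
    refine ⟨MeasurableEquiv.measurable _, ?_⟩
    have := Measure.infinitePi_map_curry (ι := Fin n) (κ := Fin n) (fun _ _ => gaussianReal 0 1)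
    simp only [Measure.infinitePi_eq_pi] at this
    exact this
  exact h3.comp (h2.comp h1)

theorem guerra_mpZ : MeasurePreserving (fun ω (i : Fin n) => ω.1 (Sum.inl i)) (gL n).P
    (Measure.pi fun _ : Fin n => γ1) := by
  have h1 : MeasurePreserving Prod.fst (gL n).P (gpi (GRho n)) :=
    measurePreserving_fst (ν := uniformOn (Set.univ : Set (Fin n → Bool)))
  exact (measurePreserving_fst.comp (measurePreserving_gpi_sum (Fin n) (Fin n × Fin n))).comp h1

theorem guerra_H1 (x : ℕ → (GRho n → ℝ) × (Fin n → Bool)) :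
    gH n K β 0 x = β * pairEnergy n (gJ n (x (K + 1))) (x 0).2 := by
  unfold gH lgH pairEnergy
  rw [zero_add, Finset.sum_Icc_succ_top (by omega), Finset.sum_eq_zero, zero_add,
    Fintype.sum_sum_type, Fintype.sum_prod_type]
  · simp only [gA, gy, gJ, Sum.elim_inl, Sum.elim_inr, ite_self, zero_mul, Finset.sum_const_zero,
      zero_add, if_true, Finset.mul_sum]
    refine Finset.sum_congr rfl fun i _ => Finset.sum_congr rfl fun j _ => ?_
    split_ifs
    · ring
    · ring
  · intro s hs
    have hs' := (Finset.mem_Icc.1 hs).2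
    rw [Fintype.sum_sum_type]
    simp [gA, show ¬(s = K + 1) by omega]

theorem guerra_H0 (b : ℝ) (x : ℕ → (GRho n → ℝ) × (Fin n → Bool)) :
    gH n K 0 b x = ∑ i, (b * ∑ s ∈ Finset.Icc 1 K, (x s).1 (Sum.inl i)) * spinSign ((x 0).2 i) := by
  unfold gH lgH
  rw [zero_add, Finset.sum_Icc_succ_top (by omega)]
  simp only [Fintype.sum_sum_type, gA, gy, Sum.elim_inl, Sum.elim_inr, ite_self, zero_mul,
    Finset.sum_const_zero, add_zero, show ¬(K + 1 ≤ K) by omega, if_false, Finset.mul_sum,
    Finset.sum_mul]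
  rw [Finset.sum_comm]
  refine Finset.sum_congr rfl fun i _ => Finset.sum_congr rfl fun s hs => ?_
  rw [if_pos (Finset.mem_Icc.1 hs).2]

theorem guerra_meas_pair (σ : Fin n → Bool) : Measurable fun J => pairEnergy n J σ := by
  unfold pairEnergy
  refine (Finset.measurable_sum _ fun i _ => Finset.measurable_sum _ fun j _ => ?_).const_mul _
  split_ifs
  · fun_prop
  · fun_prop

theorem guerra_int_pair (σ : Fin n → Bool) :
    Integrable (fun J => pairEnergy n J σ) (gaussianCouplings n) := by
  unfold pairEnergy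
  refine (integrable_finsetSum _ fun i _ => integrable_finsetSum _ fun j _ => ?_).const_mul _
  split_ifs
  · refine (Integrable.mul_const ?_ _).mul_const _
    have h1 : MeasurePreserving (fun J : Fin n → Fin n → ℝ => J i j) (gaussianCouplings n) γ1 :=
      (measurePreserving_eval (fun _ : Fin n => γ1) j).comp
        (measurePreserving_eval (fun _ : Fin n => Measure.pi fun _ : Fin n => γ1) i)
    exact h1.integrable_comp_of_integrable (g := fun x => x)
      (memLp_one_iff_integrable.1 (memLp_id_gaussianReal 1))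
  · exact integrable_zero _ _ _

theorem guerra_meas_max : Measurable (maxPairEnergy n) := by
  have := Finset.measurable_sup' (Finset.univ_nonempty (α := Fin n → Bool))
    (f := fun σ J => pairEnergy n J σ) fun σ _ => guerra_meas_pair σ
  convert this using 1
  funext J
  rw [Finset.sup'_apply]
  rfl

theorem guerra_int_max : Integrable (maxPairEnergy n) (gaussianCouplings n) := by
  refine (integrable_finsetSum Finset.univ fun σ _ => (guerra_int_pair σ).abs).mono'
    guerra_meas_max.aestronglyMeasurable (Eventually.of_forall fun J => ?_)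
  obtain ⟨σ, -, h⟩ := Finset.exists_mem_eq_sup' (Finset.univ_nonempty (α := Fin n → Bool))
    (pairEnergy n J)
  unfold maxPairEnergy
  rw [h, Real.norm_eq_abs]
  exact Finset.single_le_sum (f := fun σ => |pairEnergy n J σ|) (fun _ _ => abs_nonneg _)
    (Finset.mem_univ σ)

theorem guerra_end1 (hβ : 0 < β) (hη : 0 < η) (hγ : Par β η K γ) (hn : 0 < n)
    (x : ℕ → (GRho n → ℝ) × (Fin n → Bool)) :
    β * (∫ J, maxPairEnergy n J ∂(gaussianCouplings n)) - n * Real.log 2 ≤
      X (gz β K γ) (gL n) (gH n K β 0) (K + 2) x := by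
  have hζ := guerra_sch hβ hη hγ
  have hH : Lin (gL n) (K + 2) (gH n K β 0) := (guerra_ok hn K).lin' _
  set Fz : (GRho n → ℝ) × (Fin n → Bool) → ℝ := fun ω =>
    Real.log ((1 / 2) ^ n * ∑ σ, Real.exp (β * pairEnergy n (gJ n ω) σ)) with hFz
  have h1 : ∀ r ≤ K, ∀ x, X (gz β K γ) (gL n) (gH n K β 0) (r + 1) x = Fz (x (K + 1)) := by
    intro r hr
    induction r with
    | zero =>
      intro x
      rw [h2_X_succ, hζ.1]
      simp only [X, guerra_H1, pm, one_ne_zero, if_false, inv_one, one_mul, Function.update_self,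
        Function.update_of_ne (show K + 1 ≠ 0 by omega)]
      rw [guerra_unif fun σ => Real.exp (β * pairEnergy n (gJ n (x (K + 1))) σ)]
    | succ r ih =>
      intro x
      rw [h2_X_succ]
      simp only [ih (by omega), Function.update_of_ne (show K + 1 ≠ r + 1 by omega)]
      exact pm_const _ _ _
  have h2 := (hH.X hζ (K + 1)).ham.integrable_update (K + 1) x
  rw [h2_X_succ]
  simp only [h1 K le_rfl, Function.update_self] at h2 ⊢
  have h3 : gz β K γ (K + 1) = 0 := by simp [gz]
  have h4 : Integrable (fun ω => maxPairEnergy n (gJ n ω)) (gL n).P :=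
    guerra_mpJ.integrable_comp_of_integrable (guerra_int_max (n := n))
  rw [h3, pm, if_pos rfl, ← th_integral_comp guerra_mpJ guerra_meas_max, ← integral_const_mul]
  have h5 : ∫ ω, β * maxPairEnergy n (gJ n ω) ∂(gL n).P - n * Real.log 2 =
      ∫ ω, (β * maxPairEnergy n (gJ n ω) - n * Real.log 2) ∂(gL n).P := by
    rw [integral_sub (h4.const_mul β) (integrable_const _)]
    simp
  rw [h5]
  refine integral_mono ((h4.const_mul β).sub (integrable_const _)) h2 fun ω => ?_
  obtain ⟨σ, -, h⟩ := Finset.exists_mem_eq_sup' (Finset.univ_nonempty (α := Fin n → Bool))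
    (pairEnergy n (gJ n ω))
  have h6 : Real.exp (β * pairEnergy n (gJ n ω) σ) ≤ ∑ σ, Real.exp (β * pairEnergy n (gJ n ω) σ) :=
    Finset.single_le_sum (f := fun σ => Real.exp (β * pairEnergy n (gJ n ω) σ))
      (fun _ _ => (Real.exp_pos _).le) (Finset.mem_univ σ)
  have h7 := Real.log_le_log (Real.exp_pos _) h6
  simp only [hFz, maxPairEnergy, h]
  rw [Real.log_mul (by positivity) ((Real.exp_pos _).trans_le h6).ne', Real.log_pow, one_div,
    Real.log_inv]
  rw [Real.log_exp] at h7
  linarith

theorem guerra_lip_Psi (hβ : 0 < β) {ζ : ℕ → ℝ} (hζ : ∀ j, 0 < ζ j) (δ : ℝ) (r : ℕ) :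
    LipschitzWith 1 (Psi β δ ζ r) := by
  induction r with
  | zero => exact lip_lc hβ
  | succ r ih => exact lip_ch ih (hζ _) _

theorem guerra_pm {f : ℝ → ℝ} (hf : LipschitzWith 1 f) (hβ : 0 < β) {m : ℝ} (hm : 0 < m) (s y c : ℝ) :
    pm γ1 (m / β) (fun z => β * f (y + √s * z) - c) = β * ch m s f y - c := by
  have h1 : ∀ z, Real.exp (m / β * (β * f (y + √s * z) - c)) =
      Real.exp (m * f (y + √s * z)) * Real.exp (-(m / β * c)) := fun z => by
    rw [← Real.exp_add]; congr 1; field_simp; ring
  unfold pm ch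
  rw [if_neg (div_pos hm hβ).ne']
  simp only [h1]
  rw [integral_mul_const]
  change _ * Real.log (Zs m s f y * _) = _
  rw [Real.log_mul (Zs_pos hf m s y).ne' (Real.exp_pos _).ne', Real.log_exp]
  field_simp
  ring

theorem guerra_end0 (hβ : 0 < β) (hη : 0 < η) (hγ : Par β η K γ)
    (x : ℕ → (GRho n → ℝ) × (Fin n → Bool)) :
    X (gz β K γ) (gL n) (gH n K 0 (β * √(dl K))) (K + 2) x = n * (β * Phi β K γ 0 0 - Real.log 2) := by
  have hζ := guerra_sch hβ hη hγ
  have hp : ∀ r, 0 < γ (K - 1 - r) := fun r => hγ.pos hη _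
  have h1 : ∀ r ≤ K, ∀ x, X (gz β K γ) (gL n) (gH n K 0 (β * √(dl K))) (r + 1) x =
      ∑ i, (β * Psi β (dl K) (fun r => γ (K - 1 - r)) r
        (√(dl K) * ∑ s ∈ Finset.Icc (r + 1) K, (x s).1 (Sum.inl i)) - Real.log 2) := by
    intro r hr
    induction r with
    | zero =>
      intro x
      rw [h2_X_succ, hζ.1]
      have e1 : ∀ ω i, ∑ s ∈ Finset.Icc 1 K, (Function.update x 0 ω s).1 (Sum.inl i) =
          ∑ s ∈ Finset.Icc 1 K, (x s).1 (Sum.inl i) := fun ω i =>
        Finset.sum_congr rfl fun s hs => by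
          rw [Function.update_of_ne (by have := (Finset.mem_Icc.1 hs).1; omega)]
      simp only [X, guerra_H0, pm, one_ne_zero, if_false, inv_one, one_mul, Function.update_self, e1]
      rw [guerra_unif fun σ => Real.exp (∑ i, (β * √(dl K) *
        ∑ s ∈ Finset.Icc 1 K, (x s).1 (Sum.inl i)) * spinSign (σ i))]
      simp only [Real.exp_sum]
      rw [← Fintype.piFinset_univ, ← Finset.prod_univ_sum (fun _ => Finset.univ) fun i b =>
        Real.exp ((β * √(dl K) * ∑ s ∈ Finset.Icc 1 K, (x s).1 (Sum.inl i)) * spinSign b),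
        Real.log_mul (by positivity) (Finset.prod_ne_zero_iff.2 fun i _ =>
          (Finset.sum_pos (fun _ _ => Real.exp_pos _) Finset.univ_nonempty).ne'),
        Real.log_prod fun i _ =>
          (Finset.sum_pos (fun _ _ => Real.exp_pos _) Finset.univ_nonempty).ne',
        Finset.sum_sub_distrib, Real.log_pow, one_div, Real.log_inv]
      simp only [Finset.sum_const, Finset.card_univ, Fintype.card_fin, nsmul_eq_mul]
      rw [mul_neg, neg_add_eq_sub]
      congr 1
      refine Finset.sum_congr rfl fun i _ => ?_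
      simp only [Psi, lc, Fintype.sum_bool, spinSign, if_true, Bool.false_eq_true, if_false,
        Real.cosh_eq, zero_add, mul_assoc]
      rw [mul_div_cancel₀ _ hβ.ne']
      congr 1
      simp only [mul_neg, mul_one]
      ring
    | succ r ih =>
      intro x
      have hl := guerra_lip_Psi hβ hp (dl K) r
      rw [h2_X_succ]
      have e1 : ∀ ω i, √(dl K) * ∑ s ∈ Finset.Icc (r + 1) K,
          (Function.update x (r + 1) ω s).1 (Sum.inl i) =
          √(dl K) * ∑ s ∈ Finset.Icc (r + 1 + 1) K, (x s).1 (Sum.inl i) +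
            √(dl K) * ω.1 (Sum.inl i) := fun ω i => by
        rw [← Finset.insert_Icc_add_one_left_eq_Icc hr, Finset.sum_insert (by simp),
          Function.update_self, mul_add, add_comm]
        congr 2
        exact Finset.sum_congr rfl fun s hs => by
          rw [Function.update_of_ne (by have := (Finset.mem_Icc.1 hs).1; omega)]
      simp only [ih (by omega), e1]
      set F : Fin n → ℝ → ℝ := fun i z => β * Psi β (dl K) (fun r => γ (K - 1 - r)) r
        (√(dl K) * ∑ s ∈ Finset.Icc (r + 1 + 1) K, (x s).1 (Sum.inl i) + √(dl K) * z) - Real.log 2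
        with hF
      have mF : ∀ i, Measurable (F i) := fun i =>
        ((hl.continuous.measurable.comp (by fun_prop)).const_mul _).sub_const _
      have e2 : gz β K γ (r + 1) = γ (K - 1 - r) / β := by
        unfold gz
        rw [if_pos hr, show K - (r + 1) = K - 1 - r by omega]
      have e3 := th_pm_comp (guerra_mpZ (n := n)) (gz β K γ (r + 1))
        (f := fun z => ∑ i, F i (z i))
        (Finset.measurable_sum _ fun i _ => (mF i).comp (measurable_pi_apply i))
      refine e3.trans ?_
      rw [th_pm_pi _ mF (fun i => (((EG.of_lip hl).integrable_gauss _ _).const_mul _).sub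
        (integrable_const _)) fun i => ?_]
      · refine Finset.sum_congr rfl fun i _ => ?_
        rw [e2]
        exact guerra_pm hl hβ (hp r) _ _ _
      · have := (((EG.exp_lip hl (gz β K γ (r + 1) * β)).integrable_gauss (dl K)
          (√(dl K) * ∑ s ∈ Finset.Icc (r + 1 + 1) K, (x s).1 (Sum.inl i))).mul_const
            (Real.exp (-(gz β K γ (r + 1) * Real.log 2))))
        refine this.congr (Eventually.of_forall fun z => ?_)
        simp only [hF]
        rw [← Real.exp_add]
        congr 1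
        ring
  rw [h2_X_succ]
  simp only [h1 K le_rfl]
  rw [Finset.Icc_eq_empty (by omega)]
  simp only [Finset.sum_empty, mul_zero, Finset.sum_const, Finset.card_univ, Fintype.card_fin,
    nsmul_eq_mul]
  exact pm_const _ _ _

theorem guerra {β η : ℝ} {K : ℕ} {γ : ℕ → ℝ} (hβ : 0 < β) (hη : 0 < η) (hK : 0 < K)
    (hγ : Par β η K γ) {n : ℕ} (hn : 0 < n) :
    (∫ J, maxPairEnergy n J ∂(gaussianCouplings n)) / n ≤ PP β K γ := by
  have hn' : (0 : ℝ) < n := Nat.cast_pos.2 hn
  have h1 := guerra_end1 hβ hη hγ hn (x0 (gL n))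
  have h2 := guerra_interp hβ hη hK hγ hn (x0 (gL n))
  rw [guerra_end0 hβ hη hγ] at h2
  have h3 : β ^ 2 / 2 * (n * ∑ j ∈ Finset.range K, γ j / β * tau K j) =
      β * (n * (1 / 2 * ∑ j ∈ Finset.range K, γ j * tau K j)) := by
    simp only [Finset.mul_sum]
    exact Finset.sum_congr rfl fun j _ => by field_simp
  unfold PP
  rw [div_le_iff₀ hn']
  refine le_of_mul_le_mul_left ?_ hβ
  linarith

end Crest.Agent.R339.Cls
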