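import Crest.Agent.R339.Cls.Defs
import Crest.Agent.R164.Sync

/-! # Row 339 / Cls: Guerra interpolation, the step inequality -/

set_option autoImplicit false
set_option linter.unusedSectionVars false
open MeasureTheory ProbabilityTheory Filter Topology

noncomputable section

namespace Crest.Agent.R339.Cls

open Crest.Agent.R164 Crest.MathPhysics.SpinGlass

section Gen

variable {ρ A : Type} [Fintype ρ] [DecidableEq ρ] [MeasurableSpace A] {k : ℕ} {LA : Lv A}
  {𝔞 𝔞' : ρ → ℕ → ℝ} {y : (ℕ → A) → ρ → ℝ} {H0 : (ℕ → A) → ℝ} {Ysq : ℝ} {ζ : ℕ → ℝ}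

theorem guerra_zF (hζ : IsSch ζ) (h : LGOK k LA y H0 Ysq) {r s : ℕ} (h1 : 1 ≤ s) (hk : s ≤ k)
    (hs : s < r) (i : ρ) (x : ℕ → (ρ → ℝ) × A) :
    Ex ζ ((gLv ρ).prod LA) (lgH k 𝔞 y H0) r (fun x => (x s).1 i * y (fun r => (x r).2) i) x =
      𝔞 i s * tl ζ ((gLv ρ).prod LA) (lgH k 𝔞 y H0) r s (fun x => y (fun r => (x r).2) i)
        (fun x => y (fun r => (x r).2) i) x := by
  have hy := h.bdd_y i
  have hd : Bdd (fun x : ℕ → (ρ → ℝ) × A => 𝔞 i s * y (fun r => (x r).2) i) (|𝔞 i s| * √Ysq) :=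
    ⟨measurable_const.mul hy.1, fun x => by
      rw [abs_mul]; exact mul_le_mul_of_nonneg_left (hy.2 x) (abs_nonneg _)⟩
  have key := ibp_left hζ LA (Pi.single i 1 : ρ → ℝ) hs (Nat.lt_succ_of_le hk)
    (h.lin' 𝔞) hd (F := fun x => y (fun r => (x r).2) i) (dF := fun _ => 0) hy.tame (tame_const 0)
    (fun x => by
      simp only [lgH_update h1 hk]
      simpa using ((hasDerivAt_id (0 : ℝ)).mul_const
        (𝔞 i s * y (fun r => (x r).2) i)).const_add (lgH k 𝔞 y H0 x))
    (fun x => by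
      simp only [lg_update_snd]
      exact hasDerivAt_const _ _) x
  have h2 := tl_add_left hζ ((h.lin' 𝔞).good hζ r) hs.le hy.tame hy.tame hy.tame (𝔞 i s) 0 x
  simp only [zero_mul, add_zero] at h2
  rw [tl_comm, h2, Ex_const hζ (h.lin' 𝔞).ham, zero_add] at key
  simpa [Pi.single_apply] using key

theorem guerra_step (hζ : IsSch ζ) (h : LGOK k LA y H0 Ysq) (𝔞 𝔞' : ρ → ℕ → ℝ)
    (x : ℕ → (ρ → ℝ) × A) :
    X ζ ((gLv ρ).prod LA) (lgH k 𝔞' y H0) (k + 1) x - X ζ ((gLv ρ).prod LA) (lgH k 𝔞 y H0) (k + 1) x ≤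
      ∑ s ∈ Finset.Icc 1 k, ∑ i, (𝔞' i s - 𝔞 i s) * (𝔞' i s *
        tl ζ ((gLv ρ).prod LA) (lgH k 𝔞' y H0) (k + 1) s (fun x => y (fun r => (x r).2) i)
          (fun x => y (fun r => (x r).2) i) x) := by
  refine (sandwich' hζ (h.lin' 𝔞).ham ((h.lin' 𝔞').good hζ _) x).trans (le_of_eq ?_)
  have h1 : (fun x => lgH k 𝔞' y H0 x - lgH k 𝔞 y H0 x) = fun x : ℕ → (ρ → ℝ) × A =>
      ∑ s ∈ Finset.Icc 1 k, ∑ i, (𝔞' i s - 𝔞 i s) * ((x s).1 i * y (fun r => (x r).2) i) := by
    funext x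
    unfold lgH
    rw [add_sub_add_left_eq_sub, ← Finset.sum_sub_distrib]
    refine Finset.sum_congr rfl fun s _ => ?_
    rw [← Finset.sum_sub_distrib]
    exact Finset.sum_congr rfl fun i _ => by ring
  have ht : ∀ s ∈ Finset.Icc 1 k, ∀ i ∈ Finset.univ, Tame ((gLv ρ).prod LA) (k + 1)
      fun x => (𝔞' i s - 𝔞 i s) * ((x s).1 i * y (fun r => (x r).2) i) := fun s hs i _ =>
    ((lg_tame_z (Finset.mem_Icc.1 hs).2 i).mul (h.bdd_y i).tame).const_mul _
  rw [h1, sy_sum hζ (h.lin' 𝔞') _ fun s hs => Tame.sum _ (ht s hs)]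
  refine Finset.sum_congr rfl fun s hs => ?_
  rw [sy_sum hζ (h.lin' 𝔞') _ (ht s hs)]
  refine Finset.sum_congr rfl fun i _ => ?_
  rw [sy_cmul, guerra_zF hζ h (Finset.mem_Icc.1 hs).1 (Finset.mem_Icc.1 hs).2
    (Nat.lt_succ_of_le (Finset.mem_Icc.1 hs).2)]

end Gen

theorem guerra_spin_sq (b : Bool) : spinSign b ^ 2 = 1 := by cases b <;> simp [spinSign]

theorem guerra_abs_spin (b : Bool) : |spinSign b| = 1 := by cases b <;> simp [spinSign]

/-- Splitting a symmetric double sum. -/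
theorem guerra_sym_sum {n : ℕ} (M : Fin n → Fin n → ℝ) (hM : ∀ a b, M a b = M b a) :
    ∑ a, ∑ b, M a b = 2 * (∑ a, ∑ b, if a < b then M a b else 0) + ∑ a, M a a := by
  have h1 : ∀ a b : Fin n, M a b = (if a < b then M a b else 0) + (if b < a then M b a else 0) +
      (if a = b then M a a else 0) := fun a b => by
    rcases lt_trichotomy a b with h | h | h
    · simp [h, h.ne, not_lt.2 h.le]
    · simp [h]
    · simp [h, h.ne', not_lt.2 h.le, hM a b]
  rw [Finset.sum_congr rfl fun a _ => Finset.sum_congr rfl fun b _ => h1 a b]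
  simp only [Finset.sum_add_distrib, Finset.sum_ite_eq, Finset.mem_univ, if_true]
  rw [Finset.sum_comm (f := fun a b : Fin n => if b < a then M b a else 0)]
  ring

/-- Positivity of the remainder. -/
theorem guerra_pos {n : ℕ} (hn : 0 < n) {α : Type} [MeasurableSpace α] (ν : Measure α)
    [IsProbabilityMeasure ν] {σ : α → Fin n → ℝ} (hm : ∀ i, Measurable fun x => σ x i)
    (h1 : ∀ x i, σ x i ^ 2 = 1) (t : ℝ) :
    t * ∑ i, (∫ x, σ x i ∂ν) ^ 2 - n * t ^ 2 / 2 - 1 / 2 ≤
      ∑ p : Fin n × Fin n, (∫ x, (if p.1 < p.2 then σ x p.1 * σ x p.2 / √n else 0) ∂ν) ^ 2 := by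
  have hb : ∀ x i, |σ x i| ≤ 1 := fun x i => by
    have := h1 x i
    exact (sq_le_one_iff_abs_le_one _).1 this.le
  have hi : ∀ i, Integrable (fun x => σ x i) ν := fun i =>
    (integrable_const (1 : ℝ)).mono' (hm i).aestronglyMeasurable (Eventually.of_forall fun x => hb x i)
  have hi2 : ∀ i j, Integrable (fun x => σ x i * σ x j) ν := fun i j =>
    (integrable_const (1 : ℝ)).mono' ((hm i).mul (hm j)).aestronglyMeasurable
      (Eventually.of_forall fun x => by
        rw [Real.norm_eq_abs, abs_mul]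
        exact mul_le_one₀ (hb x i) (abs_nonneg _) (hb x j))
  set v : Fin n → ℝ := fun i => ∫ x, σ x i ∂ν with hv
  set M : Fin n → Fin n → ℝ := fun i j => ∫ x, σ x i * σ x j ∂ν with hM
  have hn' : (0 : ℝ) < n := Nat.cast_pos.2 hn
  have hR : ∑ p : Fin n × Fin n, (∫ x, (if p.1 < p.2 then σ x p.1 * σ x p.2 / √n else 0) ∂ν) ^ 2 =
      (∑ a, ∑ b, if a < b then M a b ^ 2 else 0) / n := by
    rw [Fintype.sum_prod_type, Finset.sum_div]
    refine Finset.sum_congr rfl fun a _ => ?_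
    rw [Finset.sum_div]
    refine Finset.sum_congr rfl fun b _ => ?_
    by_cases hab : a < b
    · simp only [hab, if_true]
      rw [integral_div, div_pow, Real.sq_sqrt hn'.le]
    · simp [hab]
  have hdiag : ∀ a, M a a = 1 := fun a => by
    simp only [hM, ← sq, h1]; simp
  have hS := guerra_sym_sum (fun a b => M a b ^ 2) fun a b => by simp only [hM, mul_comm]
  simp only [hdiag, one_pow, Finset.sum_const, Finset.card_univ, Fintype.card_fin, nsmul_eq_mul,
    mul_one] at hS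
  have hq : (∑ i, v i ^ 2) ^ 2 ≤ ∑ a, ∑ b, M a b * (v a * v b) := by
    have hw : Measurable fun x => ∑ i, v i * σ x i :=
      Finset.measurable_sum _ fun i _ => (hm i).const_mul _
    have e2 : ∀ x, (∑ i, v i * σ x i) ^ 2 = ∑ a, ∑ b, v a * v b * (σ x a * σ x b) := fun x => by
      rw [sq, Finset.sum_mul_sum]
      exact Finset.sum_congr rfl fun a _ => Finset.sum_congr rfl fun b _ => by ring
    have hI : Integrable (fun x => (∑ i, v i * σ x i) ^ 2) ν := by
      simp only [e2]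
      exact integrable_finsetSum _ fun a _ => integrable_finsetSum _ fun b _ => (hi2 a b).const_mul _
    have := h2_sq_le hw hI
    rw [integral_finsetSum _ fun i _ => (hi i).const_mul _] at this
    simp only [e2, integral_const_mul] at this
    rw [integral_finsetSum _ fun a _ => integrable_finsetSum _ fun b _ => (hi2 a b).const_mul _] at this
    simp only [integral_finsetSum _ fun b _ => (hi2 _ b).const_mul _, integral_const_mul] at this
    refine le_trans (le_of_eq ?_) (this.trans (le_of_eq ?_))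
    · simp only [hv, sq]
    · exact Finset.sum_congr rfl fun a _ => Finset.sum_congr rfl fun b _ => by
        simp only [hM]; ring
  have hq2 : 0 ≤ ∑ a, ∑ b, (M a b - v a * v b) ^ 2 :=
    Finset.sum_nonneg fun a _ => Finset.sum_nonneg fun b _ => sq_nonneg _
  have e3 : ∑ a, ∑ b, (M a b - v a * v b) ^ 2 = ∑ a, ∑ b, M a b ^ 2 -
      2 * (∑ a, ∑ b, M a b * (v a * v b)) + (∑ i, v i ^ 2) ^ 2 := by
    rw [sq (∑ i, v i ^ 2), Finset.sum_mul_sum, Finset.mul_sum, ← Finset.sum_sub_distrib,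
      ← Finset.sum_add_distrib]
    refine Finset.sum_congr rfl fun a _ => ?_
    rw [Finset.mul_sum, ← Finset.sum_sub_distrib, ← Finset.sum_add_distrib]
    exact Finset.sum_congr rfl fun b _ => by ring
  rw [hR, le_div_iff₀ hn']
  nlinarith [sq_nonneg (∑ i, v i ^ 2 - n * t)]

/-- Telescoping of a quadratic increment bound. -/
theorem guerra_tele {g : ℝ → ℝ} {C T : ℝ} (hT : 0 < T)
    (h : ∀ u v, 0 ≤ u → u ≤ v → v ≤ T → g v - g u ≤ C * (v - u) ^ 2) : g T ≤ g 0 := by
  have key : ∀ N : ℕ, 0 < N → g T - g 0 ≤ C * T ^ 2 / N := fun N hN => by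
    have hN' : (0 : ℝ) < N := Nat.cast_pos.2 hN
    have h1 : ∀ j : ℕ, j ≤ N → g (j * (T / N)) - g 0 ≤ j * (C * (T / N) ^ 2) := fun j hj => by
      induction j with
      | zero => simp
      | succ j ih =>
        have h2 := h (j * (T / N)) ((j + 1 : ℕ) * (T / N)) (by positivity)
          (by push_cast; nlinarith [div_pos hT hN']) (by
            have : ((j + 1 : ℕ) : ℝ) ≤ N := Nat.cast_le.2 hj
            calc ((j + 1 : ℕ) : ℝ) * (T / N) ≤ N * (T / N) := by gcongr
              _ = T := by field_simp)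
        have h3 := ih (by omega)
        push_cast at h2 ⊢
        rw [show ((j : ℝ) + 1) * (T / N) - j * (T / N) = T / N by ring] at h2
        linarith
    have h4 := h1 N le_rfl
    rw [show (N : ℝ) * (T / N) = T by field_simp] at h4
    refine h4.trans (le_of_eq ?_)
    field_simp
  have hl : Tendsto (fun N : ℕ => C * T ^ 2 / N) atTop (𝓝 0) :=
    tendsto_const_div_atTop_nhds_zero_nat _
  have := ge_of_tendsto hl ((eventually_gt_atTop 0).mono key)
  linarith

end Crest.Agent.R339.Cls
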