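import Crest.Agent.R339.Cls.Ibp

/-!
# Row 339 / Cls: the heat lemma (Itô formula for Gaussian smoothing)
Write `flow` as an integral over `μ.prod γ1` (`integral_prod`, `Ge.integrable_prod`).  Continuity:
`continuousOn_of_dominated`.  Derivative at `t ∈ (0,δ)`: `hasDerivAt_integral_of_dominated_loc_of_deriv_le` with
`∂_τ W τ (x+√τ g) = Wt + Wy · g/(2√τ)` (chain rule with `hF`), then `gauss_ibp` in `g` for fixed `x`:
`∫ g Wy t (x+√t g) = √t ∫ Wyy t (x+√t g)`.
-/

set_option autoImplicit false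
open MeasureTheory ProbabilityTheory Filter Topology

noncomputable section

namespace Crest.Agent.R339.Cls

theorem heat_int_gauss (c : ℝ) : Integrable (fun g : ℝ => Real.exp (c * |g|)) γ1 := by
  have := (EG.exp_lip (f := fun x : ℝ => ‖x‖) lipschitzWith_one_norm c).integrable_gauss 1 0
  simpa using this

theorem heat_eg_aff {F : ℝ → ℝ} (hF : EG F) (a b : ℝ) : EG fun g => F (a + b * g) := by
  obtain ⟨hm, C, hC⟩ := hF
  have C0 : 0 ≤ C := by simpa using (abs_nonneg _).trans (hC 0)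
  refine ⟨hm.comp (by fun_prop), C * Real.exp (C * |a|) + C * |b|, fun g => (hC _).trans ?_⟩
  have h1 : C * |a + b * g| ≤ C * |a| + C * |b| * |g| := by
    rw [mul_assoc, ← abs_mul, ← mul_add]
    exact mul_le_mul_of_nonneg_left (abs_add_le _ _) C0
  have h2 : 0 ≤ C * Real.exp (C * |a|) := by positivity
  have h3 : 0 ≤ C * |b| := by positivity
  calc _ ≤ C * Real.exp (C * |a| + C * |b| * |g|) := by gcongr
    _ = C * Real.exp (C * |a|) * Real.exp (C * |b| * |g|) := by rw [Real.exp_add]; ring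
    _ ≤ _ := by gcongr <;> linarith

theorem heat_bd {C δ t : ℝ} (C0 : 0 ≤ C) (ht : t ≤ δ) (x g : ℝ) :
    C * Real.exp (C * |x + √t * g|) ≤ C * Real.exp (C * |x|) * Real.exp (C * √δ * |g|) := by
  rw [mul_assoc, ← Real.exp_add, mul_assoc C, ← mul_add]
  have h1 : |x + √t * g| ≤ |x| + √δ * |g| := by
    refine (abs_add_le _ _).trans ?_
    rw [abs_mul, abs_of_nonneg (Real.sqrt_nonneg t)]
    gcongr
  gcongr

theorem heat {μ : Measure ℝ} (hμ : Ge μ) {δ : ℝ} (hδ : 0 < δ) {W Wt Wy Wyy : ℝ → ℝ → ℝ}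
    (hc : Continuous fun p : ℝ × ℝ => W p.1 p.2)
    (hF : ∀ t ∈ Set.Ioo 0 δ, ∀ y, HasFDerivAt (fun p : ℝ × ℝ => W p.1 p.2)
      (Wt t y • ContinuousLinearMap.fst ℝ ℝ ℝ + Wy t y • ContinuousLinearMap.snd ℝ ℝ ℝ) (t, y))
    (hyy : ∀ t ∈ Set.Ioo 0 δ, ∀ y, HasDerivAt (Wy t) (Wyy t y) y)
    (mt : ∀ t, Measurable (Wt t)) (my : ∀ t, Measurable (Wy t)) (myy : ∀ t, Measurable (Wyy t))
    (hb : ∃ C : ℝ, ∀ t ∈ Set.Icc 0 δ, ∀ y, |W t y| ≤ C * Real.exp (C * |y|) ∧
      |Wt t y| ≤ C * Real.exp (C * |y|) ∧ |Wy t y| ≤ C * Real.exp (C * |y|) ∧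
      |Wyy t y| ≤ C * Real.exp (C * |y|)) :
    ContinuousOn (flow μ W) (Set.Icc 0 δ) ∧ ∀ t ∈ Set.Ioo 0 δ,
      HasDerivAt (flow μ W) (flow μ (fun t y => Wt t y + Wyy t y / 2) t) t := by
  obtain ⟨C, hb⟩ := hb
  have := hμ.1
  have C0 : 0 ≤ C := by simpa using (abs_nonneg _).trans (hb 0 ⟨le_rfl, hδ.le⟩ 0).1
  have mW : ∀ t, Measurable (W t) := fun t => (hc.comp (Continuous.prodMk_right t)).measurable
  have eW : ∀ t ∈ Set.Icc 0 δ, EG (W t) := fun t ht => ⟨mW t, C, fun y => (hb t ht y).1⟩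
  have eq1 : ∀ t ∈ Set.Icc 0 δ, flow μ W t = ∫ p : ℝ × ℝ, W t (p.1 + √t * p.2) ∂μ.prod γ1 := fun t ht =>
    (integral_prod _ (hμ.integrable_prod (eW t ht) t)).symm
  have iB : ∀ c : ℝ, Integrable (fun p : ℝ × ℝ => C * Real.exp (C * |p.1|) * Real.exp (c * |p.2|)) (μ.prod γ1) :=
    fun c => ((hμ.2 C).const_mul C).mul_prod (heat_int_gauss c)
  have ms : ∀ (F : ℝ → ℝ) (t : ℝ), Measurable F → Measurable fun p : ℝ × ℝ => F (p.1 + √t * p.2) := fun F t h =>
    h.comp (by fun_prop)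
  refine ⟨ContinuousOn.congr (continuousOn_of_dominated (fun t _ => (ms _ t (mW t)).aestronglyMeasurable)
    (fun t ht => ae_of_all _ fun p => (hb t ht _).1.trans (heat_bd C0 ht.2 _ _)) (iB _)
    (ae_of_all _ fun p => ?_)) eq1, fun t ht => ?_⟩
  · exact (hc.comp (f := fun t : ℝ => (t, p.1 + √t * p.2)) (by fun_prop)).continuousOn
  have ht' : t ∈ Set.Icc 0 δ := Set.Ioo_subset_Icc_self ht
  have t0 := ht.1
  have st : 0 < √t := Real.sqrt_pos.2 t0
  set c : ℝ := 1 / (2 * √(t / 2)) with hcdef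
  have key := hasDerivAt_integral_of_dominated_loc_of_deriv_le (μ := μ.prod γ1) (x₀ := t) (s := Set.Ioo (t / 2) δ)
    (F := fun τ (p : ℝ × ℝ) => W τ (p.1 + √τ * p.2))
    (F' := fun τ (p : ℝ × ℝ) => Wt τ (p.1 + √τ * p.2) + Wy τ (p.1 + √τ * p.2) * (1 / (2 * √τ) * p.2))
    (bound := fun p : ℝ × ℝ => C * Real.exp (C * |p.1|) * Real.exp ((C * √δ + c) * |p.2|))
    (Ioo_mem_nhds (by linarith) ht.2) (Eventually.of_forall fun τ => (ms _ τ (mW τ)).aestronglyMeasurable)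
    (hμ.integrable_prod (eW t ht') t)
    (((ms _ t (mt t)).add ((ms _ t (my t)).mul (by fun_prop))).aestronglyMeasurable)
    (ae_of_all _ fun p τ hτ => ?_) (iB _) (ae_of_all _ fun p τ hτ => ?_)
  · refine HasDerivAt.congr_of_eventuallyEq ?_ (eventually_of_mem (Icc_mem_nhds ht.1 ht.2) eq1)
    convert key.2 using 1
    rw [integral_prod _ key.1, flow]
    refine integral_congr_ae (ae_of_all _ fun x => ?_)
    have et : EG (Wt t) := ⟨mt t, C, fun y => (hb t ht' y).2.1⟩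
    have ey : EG (Wy t) := ⟨my t, C, fun y => (hb t ht' y).2.2.1⟩
    have eyy : EG (Wyy t) := ⟨myy t, C, fun y => (hb t ht' y).2.2.2⟩
    have ibp := gauss_ibp (F := fun g => Wy t (x + √t * g)) (F' := fun g => √t * Wyy t (x + √t * g))
      (fun g => by
        have := (hyy t ht (x + √t * g)).comp g (((hasDerivAt_id g).const_mul √t).const_add x)
        simpa [Function.comp_def, mul_comm] using this)
      (heat_eg_aff ey _ _) ((heat_eg_aff eyy _ _).const_mul _)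
    have i2 : Integrable (fun g => g * Wy t (x + √t * g)) γ1 := by
      simpa using (eg_id.mul (heat_eg_aff ey x √t)).integrable_gauss 1 0
    have e1 : ∀ g, Wy t (x + √t * g) * (1 / (2 * √t) * g) = 1 / (2 * √t) * (g * Wy t (x + √t * g)) := fun g => by ring
    simp only [e1]
    rw [integral_add (et.integrable_gauss t x) ((eyy.integrable_gauss t x).div_const 2),
      integral_add (et.integrable_gauss t x) (i2.const_mul _), integral_const_mul, ibp, integral_const_mul, integral_div]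
    field_simp
  · have hτ' : τ ∈ Set.Icc 0 δ := ⟨by linarith [hτ.1], hτ.2.le⟩
    have b1 := (hb τ hτ' (p.1 + √τ * p.2)).2.1.trans (heat_bd C0 hτ'.2 _ _)
    have b2 := (hb τ hτ' (p.1 + √τ * p.2)).2.2.1.trans (heat_bd C0 hτ'.2 _ _)
    have b3 : |1 / (2 * √τ) * p.2| ≤ c * |p.2| := by
      have : 0 < √(t / 2) := Real.sqrt_pos.2 (by linarith)
      rw [abs_mul, abs_of_nonneg (by positivity), hcdef]
      gcongr
      exact hτ.1.le
    have b4 := Real.add_one_le_exp (c * |p.2|)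
    set B := C * Real.exp (C * |p.1|) * Real.exp (C * √δ * |p.2|) with hB
    have B0 : 0 ≤ B := by positivity
    rw [Real.norm_eq_abs, add_mul, Real.exp_add, ← mul_assoc (C * _), ← hB]
    refine (abs_add_le _ _).trans ?_
    rw [abs_mul]
    nlinarith [mul_le_mul b2 b3 (abs_nonneg _) B0, mul_le_mul_of_nonneg_left b4 B0]
  · have τ0 : 0 < τ := by linarith [hτ.1]
    have h1 : HasDerivAt (fun τ : ℝ => (τ, p.1 + √τ * p.2)) ((1 : ℝ), 1 / (2 * √τ) * p.2) τ :=
      (hasDerivAt_id τ).prodMk (((Real.hasDerivAt_sqrt τ0.ne').mul_const p.2).const_add p.1)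
    have := (hF τ ⟨τ0, hτ.2⟩ (p.1 + √τ * p.2)).comp_hasDerivAt τ h1
    simpa [Function.comp_def] using this

end Crest.Agent.R339.Cls
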