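import Crest.Agent.R339.Cls.Defs

/-!
# Row 339 / Cls: the final estimate on the sequences
`δ = dl K`, `t j = j δ`, `r0 j = C j - 2γ_j B j`, `r1 j = C (j+1) - 2γ_j B (j+1)`, `L = 6β⁴`.
1. `r0 j ≤ r1 j`; `r1 j = r0 (j+1) + 2(γ (j+1) - γ j) B (j+1)`; `r1 (K-1) ≤ 4β⁴`; downward induction
   `r1 j ≤ 4β⁴ + 2(β - γ j)β³`; `r ≥ -2β⁴`.  So `|r0|, |r1| ≤ L`, `|ΔG| ≤ Lδ`, `|ΔV - δ G j| ≤ Lδ²`,
   `|2ΔE/γ_j - δ V j - δ² G j/2| ≤ Lδ³`.
2. `γ (K-1) = β`: otherwise `foc` gives `tau (K-1) = δ - δ²/2 ≤ δ(1-c) + δ²β²/2 + Lδ³`, false for small `δ`.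
3. A jump is an `i < K` with `γ (i-1) < γ i` (`γ (-1) = η`).  At a jump `i ≥ 1` the two conditions (cells `i-1` and
   `i`) give `G i ≤ 1 + 5Lδ` and `|V i - t i| ≤ κ δ` (`κ = 2 + β² + 2L`); at a jump `0`: `G 0 ≤ 1 + 2Lδ`.
   Let `M` be the last jump (exists as `η < β`); `γ j = β` for `j ≥ M`.
4. `G l ≤ 1 + ρ` for `l ≤ M`, `ρ = 5Lδ + 2ηβ³`: between consecutive jumps the increments `G (j+1) - G j` are monotone
   (`ΔG j ≤ δ r1 j = δ r0 (j+1) ≤ ΔG (j+1)` if `γ j = γ (j+1)`), so `G` is at most the larger end value; before the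
   first jump `γ = η`, `ΔG ≥ δ r0 ≥ -2ηβ³δ`.  [Clean way: take `l ≤ M` maximising `G l + 2ηβ³ t l`·…, or prove by
   downward induction on `l`: `G l ≤ 1+5Lδ ∨ (ΔG l < 0 …)`.]
5. `A j ≤ β (1 - V j)` (downward), `A j = β (1 - V j)` for `j ≥ M`, `A` antitone, `A M ≤ √(1+ρ)`, so
   `1 - t M ≤ √(1+ρ)/β + κδ`.
6. `E 0 = E K - ∑ ΔE ≤ log 2/β + δ ∑ A j + ½ ∑ γ_j (δ V j) + βLδ²`, so
   `E 0 - ½∑γ tau ≤ log 2/β + δ∑ A j + ½ β δ ∑ (V j - t j)₊ + …`; `V j - t j ≤ ρ + Lδ` for `j ≤ M` and `≤ 1 - t M` after.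
7. For `q < M`: `x = ΔV/δ ≤ 1 + ρ + Lδ`, `1 - √x ≤ (1-x)₊ ≤ 1 - x + ρ + Lδ`, `0 ≤ A ≤ β`;
   `δ ∑_{q<M} A q ≤ δ ∑_{q<M} A (q+1) + δβ`; the terms `q ≥ M` of `algVal` are `≥ 0`.
Total error `≤ (log 2 + 10)/β + β O(ρ) + O_β(√δ)`: choose `β`, then `η`, then `K`.
-/

set_option autoImplicit false
open MeasureTheory ProbabilityTheory Filter Topology

noncomputable section

namespace Crest.Agent.R339.Cls

section real
variable {β η c : ℝ} {K : ℕ} {γ V A G B C E : ℕ → ℝ}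

lemma real_down {P : ℕ → Prop} {M : ℕ} (hM : P M) (hs : ∀ l < M, P (l + 1) → P l) :
    ∀ l ≤ M, P l := by
  intro l hl
  induction hl using Nat.decreasingInduction with
  | self => exact hM
  | of_succ k hk ih => exact hs k hk ih

lemma real_gle (h : Facts β η c K γ V A G B C E) (j : ℕ) : γ j ≤ β := by
  have := h.par.mono (le_max_left j K)
  rwa [h.par.top _ (le_max_right j K)] at this

lemma real_gge (h : Facts β η c K γ V A G B C E) (j : ℕ) : η ≤ γ j :=
  h.par.low.trans (h.par.mono (Nat.zero_le j))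

lemma real_dlK (hK : 0 < K) : (K : ℝ) * dl K = 1 := by
  have : (K : ℝ) ≠ 0 := by positivity
  unfold dl; field_simp

lemma real_tle (hK : 0 < K) {j : ℕ} (hj : j ≤ K) : (j : ℝ) * dl K ≤ 1 := by
  rw [← real_dlK hK]
  exact mul_le_mul_of_nonneg_right (by exact_mod_cast hj) (dl_pos hK).le

lemma real_dl1 (hK : 0 < K) : dl K ≤ 1 := by
  simpa using real_tle hK (j := 1) hK

lemma real_Vmono (h : Facts β η c K γ V A G B C E) {i j : ℕ} (hij : i ≤ j) (hj : j ≤ K) :
    V i ≤ V j := by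
  induction hij with
  | refl => exact le_rfl
  | step hm ih => exact (ih (by omega)).trans (h.Vmono _ (by omega))

lemma real_G0 (h : Facts β η c K γ V A G B C E) {j : ℕ} (hj : j ≤ K) : 0 ≤ G j :=
  (sq_nonneg _).trans (h.AG j hj)

lemma real_r01 (h : Facts β η c K γ V A G B C E) {j : ℕ} (hj : j < K) :
    C j - 2 * γ j * B j ≤ C (j + 1) - 2 * γ j * B (j + 1) := by
  obtain ⟨h1, h2, -⟩ := h.cell j hj
  exact le_of_mul_le_mul_left (h1.trans h2) (dl_pos (by omega))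

lemma real_r1 (h : Facts β η c K γ V A G B C E) (hK : 0 < K) (hβ : 0 ≤ β) (hη : 0 < η) :
    ∀ j ≤ K - 1, C (j + 1) - 2 * γ j * B (j + 1) ≤ 4 * β ^ 4 + 2 * (β - γ j) * β ^ 3 := by
  refine real_down ?_ ?_
  · rw [show K - 1 + 1 = K by omega]
    have h1 := h.CK
    have h2 := mul_nonneg (hη.le.trans (real_gge h (K - 1))) (h.B0 K le_rfl)
    have h3 := mul_nonneg (sub_nonneg.2 (real_gle h (K - 1))) (pow_nonneg hβ 3)
    nlinarith
  · intro l hl ih
    have h1 := real_r01 h (j := l + 1) (by omega)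
    have h2 : γ l ≤ γ (l + 1) := h.par.mono (Nat.le_succ l)
    have h3 := mul_le_mul_of_nonneg_left (h.Ble (l + 1) (by omega)) (sub_nonneg.2 h2)
    nlinarith

lemma real_r0 (h : Facts β η c K γ V A G B C E) (hη : 0 < η) {j : ℕ} (hj : j ≤ K) :
    -(2 * γ j * β ^ 3) ≤ C j - 2 * γ j * B j := by
  have h1 := h.C0 j hj
  have h2 := mul_le_mul_of_nonneg_left (h.Ble j hj) (hη.le.trans (real_gge h j))
  nlinarith

/-- Step 1. -/
lemma real_cell (h : Facts β η c K γ V A G B C E) (hβ : 0 ≤ β) (hη : 0 < η) {j : ℕ} (hj : j < K) :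
    |G (j + 1) - G j| ≤ 6 * β ^ 4 * dl K ∧
    |V (j + 1) - V j - dl K * G j| ≤ 6 * β ^ 4 * dl K ^ 2 ∧
    |2 * (E (j + 1) - E j) - γ j * (dl K * V j + dl K ^ 2 * G j / 2)|
      ≤ γ j * (6 * β ^ 4 * dl K ^ 3) := by
  have hK : 0 < K := by omega
  have hδ := dl_pos hK
  obtain ⟨h1, h2, h3⟩ := h.cell j hj
  have a1 := real_r01 h hj
  have a2 := real_r1 h hK hβ hη j (by omega)
  have a3 := real_r0 h hη hj.le
  have g0 : 0 ≤ γ j := hη.le.trans (real_gge h j)
  have g1 := real_gle h j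
  have b3 : 0 ≤ β ^ 3 := pow_nonneg hβ 3
  have e1 : γ j * β ^ 3 ≤ β ^ 4 := by
    have := mul_le_mul_of_nonneg_right g1 b3
    nlinarith
  have e2 : 0 ≤ γ j * β ^ 3 := mul_nonneg g0 b3
  have e3 : 0 ≤ β ^ 4 := pow_nonneg hβ 4
  have u1 : C (j + 1) - 2 * γ j * B (j + 1) ≤ 6 * β ^ 4 := by nlinarith
  have u0 : -(6 * β ^ 4) ≤ C j - 2 * γ j * B j := by nlinarith
  obtain ⟨c1, c2⟩ := h3 (6 * β ^ 4) (abs_le.2 ⟨u0, a1.trans u1⟩) (abs_le.2 ⟨u0.trans a1, u1⟩)
  refine ⟨abs_le.2 ⟨?_, ?_⟩, c1, c2⟩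
  · have := mul_le_mul_of_nonneg_left u0 hδ.le
    nlinarith
  · have := mul_le_mul_of_nonneg_left u1 hδ.le
    nlinarith

lemma real_up (h : Facts β η c K γ V A G B C E) (hβ : 0 ≤ β) (hη : 0 < η) {j : ℕ} (hj : j < K)
    (hjump : γ j < γ (j + 1)) :
    j * dl K + dl K / 2 ≤ V j + dl K * G j / 2 + 6 * β ^ 4 * dl K ^ 2 := by
  have hδ := dl_pos (show 0 < K by omega)
  have g0 : 0 < γ j := hη.trans_le (real_gge h j)
  have h1 := (h.foc j hj).1 hjump
  have h2 := (abs_le.1 (real_cell h hβ hη hj).2.2).2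
  unfold tau at h1
  have h3 : γ j * (dl K * (j * dl K + dl K / 2)) ≤
      γ j * (dl K * (V j + dl K * G j / 2 + 6 * β ^ 4 * dl K ^ 2)) := by nlinarith
  exact le_of_mul_le_mul_left (le_of_mul_le_mul_left h3 g0) hδ

lemma real_dn (h : Facts β η c K γ V A G B C E) (hβ : 0 ≤ β) (hη : 0 < η) {j : ℕ} (hj : j < K)
    (hjump : (if j = 0 then η else γ (j - 1)) < γ j) :
    V j + dl K * G j / 2 ≤ j * dl K + dl K / 2 + 6 * β ^ 4 * dl K ^ 2 := by
  have hδ := dl_pos (show 0 < K by omega)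
  have g0 : 0 < γ j := hη.trans_le (real_gge h j)
  have h1 := (h.foc j hj).2 hjump
  have h2 := (abs_le.1 (real_cell h hβ hη hj).2.2).1
  unfold tau at h1
  have h3 : γ j * (dl K * (V j + dl K * G j / 2)) ≤
      γ j * (dl K * (j * dl K + dl K / 2 + 6 * β ^ 4 * dl K ^ 2)) := by nlinarith
  exact le_of_mul_le_mul_left (le_of_mul_le_mul_left h3 g0) hδ

/-- Step 2. -/
lemma real_top (h : Facts β η c K γ V A G B C E) (hK : 0 < K) (hβ : 0 ≤ β) (hη : 0 < η)
    (hc : (1 + β ^ 2 + 6 * β ^ 4) * dl K < c) : γ (K - 1) = β := by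
  by_contra hne
  have hδ := dl_pos hK
  have hδ1 := real_dl1 hK
  have h1 : γ (K - 1) < γ (K - 1 + 1) := by
    rw [h.par.top (K - 1 + 1) (by omega)]
    exact lt_of_le_of_ne (real_gle h _) hne
  have h2 := real_up h hβ hη (show K - 1 < K by omega) h1
  have h3 : ((K - 1 : ℕ) : ℝ) * dl K = 1 - dl K := by
    rw [Nat.cast_sub hK, sub_mul, real_dlK hK]; simp
  have h4 := (real_Vmono h (show K - 1 ≤ K by omega) le_rfl).trans h.VK
  have h5 := mul_le_mul_of_nonneg_left (h.Gle (K - 1) (by omega)) hδ.le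
  have h6 : 6 * β ^ 4 * dl K ^ 2 ≤ 6 * β ^ 4 * dl K := by
    have : dl K ^ 2 ≤ dl K := by nlinarith
    exact mul_le_mul_of_nonneg_left this (by positivity)
  have h7 : 0 ≤ dl K * β ^ 2 := by positivity
  nlinarith

/-- Step 3. -/
lemma real_jump (h : Facts β η c K γ V A G B C E) (hβ : 0 ≤ β) (hη : 0 < η) {i : ℕ} (hi : i < K)
    (hjump : (if i = 0 then η else γ (i - 1)) < γ i) :
    G i ≤ 1 + 30 * β ^ 4 * dl K ∧ i * dl K - V i ≤ (1 + β ^ 2 + 6 * β ^ 4) * dl K := by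
  have hK : 0 < K := by omega
  have hδ := dl_pos hK
  have hδ1 := real_dl1 hK
  have hd := real_dn h hβ hη hi hjump
  have b4 : 0 ≤ β ^ 4 * dl K := by positivity
  have b2 : 0 ≤ β ^ 2 * dl K := by positivity
  rcases i with _ | i
  · simp only [h.V0, Nat.cast_zero, zero_mul, zero_add, sub_self] at hd ⊢
    refine ⟨?_, by positivity⟩
    have : dl K * G 0 ≤ dl K * (1 + 30 * β ^ 4 * dl K) := by
      have := mul_nonneg b4 hδ.le
      nlinarith
    exact le_of_mul_le_mul_left this hδ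
  · simp only [Nat.add_eq_zero_iff, one_ne_zero, and_false, if_false, Nat.add_sub_cancel] at hjump
    have hu := real_up h hβ hη (show i < K by omega) hjump
    obtain ⟨c1, c2, -⟩ := real_cell h hβ hη (show i < K by omega)
    obtain ⟨c1, c1'⟩ := abs_le.1 c1
    obtain ⟨c2, -⟩ := abs_le.1 c2
    push_cast at hd ⊢
    constructor
    · have e1 := mul_le_mul_of_nonneg_left c1 hδ.le
      have e2 := mul_le_mul_of_nonneg_left c1' hδ.le
      have : dl K * G (i + 1) ≤ dl K * (1 + 30 * β ^ 4 * dl K) := by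
        have := mul_nonneg b4 hδ.le
        nlinarith
      exact le_of_mul_le_mul_left this hδ
    · have e1 := h.Vmono i (by omega)
      have e2 := mul_le_mul_of_nonneg_left (h.Gle i (by omega)) hδ.le
      have e3 := mul_le_mul_of_nonneg_left hδ1 b4
      nlinarith

lemma real_last (h : Facts β η c K γ V A G B C E) (hK : 0 < K) (hηβ : η < β)
    (htop : γ (K - 1) = β) :
    ∃ M < K, (if M = 0 then η else γ (M - 1)) < γ M ∧ ∀ j, M ≤ j → γ j = β := by
  classical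
  have hex : ∃ j, γ j = β := ⟨_, htop⟩
  have hM : γ (Nat.find hex) = β := Nat.find_spec hex
  refine ⟨Nat.find hex, ?_, ?_, fun j hj => le_antisymm (real_gle h j) ?_⟩
  · have := Nat.find_min' hex htop
    omega
  · rw [hM]
    split_ifs with h0
    · exact hηβ
    · exact lt_of_le_of_ne (real_gle h _) (Nat.find_min hex (by omega))
  · exact hM ▸ h.par.mono hj

lemma real_tri (h : Facts β η c K γ V A G B C E) (hβ : 0 ≤ β) (hη : 0 < η) :
    ∀ l < K, G l ≤ 1 + 30 * β ^ 4 * dl K ∨ γ l = η ∨ G l ≤ G (l + 1) := by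
  intro l
  induction l with
  | zero =>
    intro hl
    rcases (real_gge h 0).eq_or_lt with h0 | h0
    · exact Or.inr (Or.inl h0.symm)
    · exact Or.inl (real_jump h hβ hη hl (by simpa using h0)).1
  | succ l ih =>
    intro hl
    rcases (h.par.mono (Nat.le_succ l)).eq_or_lt with h0 | h0
    · have h0 : γ l = γ (l + 1) := h0
      have c1 := (h.cell l (by omega)).2.1
      have c2 := (h.cell (l + 1) hl).1
      rw [← h0] at c2
      rcases ih (by omega) with i1 | i1 | i1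
      · rcases le_total (G (l + 1)) (G l) with i2 | i2
        · exact Or.inl (i2.trans i1)
        · exact Or.inr (Or.inr (by linarith))
      · exact Or.inr (Or.inl (h0 ▸ i1))
      · exact Or.inr (Or.inr (by linarith))
    · exact Or.inl (real_jump h hβ hη hl (by simpa using h0)).1

/-- Step 4. -/
lemma real_Gbd (h : Facts β η c K γ V A G B C E) (hβ : 0 ≤ β) (hη : 0 < η) {M : ℕ} (hM : M < K)
    (hjump : (if M = 0 then η else γ (M - 1)) < γ M) :
    ∀ l ≤ M, G l ≤ 1 + 30 * β ^ 4 * dl K + 2 * η * β ^ 3 := by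
  have hK : 0 < K := by omega
  have hδ := dl_pos hK
  have e0 : 0 ≤ η * β ^ 3 := by positivity
  have key : ∀ l ≤ M, G l ≤ 1 + 30 * β ^ 4 * dl K + 2 * η * β ^ 3 * (1 - l * dl K) := by
    refine real_down ?_ ?_
    · have h1 := (real_jump h hβ hη hM hjump).1
      have h2 := mul_nonneg e0 (sub_nonneg.2 (real_tle hK hM.le))
      nlinarith
    · intro l hl ih
      push_cast at ih
      have h2 := mul_nonneg e0 (sub_nonneg.2 (real_tle hK (show l ≤ K by omega)))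
      have h3 := mul_nonneg e0 hδ.le
      rcases real_tri h hβ hη l (by omega) with i1 | i1 | i1
      · nlinarith
      · have c1 := (h.cell l (by omega)).1
        have c2 := mul_le_mul_of_nonneg_left (real_r0 h hη (show l ≤ K by omega)) hδ.le
        rw [i1] at c1 c2
        nlinarith
      · nlinarith
  intro l hl
  have h1 := key l hl
  have h2 : 0 ≤ η * β ^ 3 * (l * dl K) := by positivity
  nlinarith

lemma real_Aβ (h : Facts β η c K γ V A G B C E) (hβ : 0 ≤ β) {j : ℕ} (hj : j ≤ K) : A j ≤ β :=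
  (abs_le_of_sq_le_sq' ((h.AG j hj).trans (h.Gle j hj)) hβ).2

lemma real_Aanti (h : Facts β η c K γ V A G B C E) (hη : 0 < η) {i j : ℕ} (hij : i ≤ j)
    (hj : j ≤ K) : A j ≤ A i := by
  induction hij with
  | refl => exact le_rfl
  | @step m hm ih =>
    refine le_trans ?_ (ih (by omega))
    have h1 := h.Arec m (by omega)
    have h2 := mul_le_mul_of_nonneg_left (h.Vmono m (by omega)) (hη.le.trans (real_gge h m))
    show A (m + 1) ≤ A m
    linarith

/-- Step 5. -/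
lemma real_AM (h : Facts β η c K γ V A G B C E) {M : ℕ} (hM : M ≤ K)
    (htop : ∀ j, M ≤ j → γ j = β) : A M = β * (1 - V M) := by
  have key : ∀ l ≤ K, M ≤ l → A l = β * (1 - V l) := by
    refine real_down (fun _ => h.AK) ?_
    intro l hl ih hMl
    have h1 := h.Arec l hl
    rw [htop l hMl, ih (by omega)] at h1
    linarith
  exact key M hM le_rfl

lemma real_sqrt {δ d s : ℝ} (hδ : 0 ≤ δ) (hd : 0 ≤ d) (hs : 0 ≤ s) (h : d ≤ δ + s) :
    d - s ≤ √(δ * d) := by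
  rcases le_total d δ with h1 | h1
  · have : d ≤ √(δ * d) := Real.le_sqrt_of_sq_le (by nlinarith)
    linarith
  · have : δ ≤ √(δ * d) := Real.le_sqrt_of_sq_le (by nlinarith)
    linarith

/-- Step 6a. -/
lemma real_E0 (h : Facts β η c K γ V A G B C E) (hK : 0 < K) (hβ : 0 ≤ β) (hη : 0 < η) :
    E 0 - (1 / 2) * ∑ j ∈ Finset.range K, γ j * tau K j ≤
      Real.log 2 / β + dl K * ∑ j ∈ Finset.range K, A j
        + (1 / 2) * ∑ j ∈ Finset.range K, dl K * (γ j * (V j - j * dl K)) + 3 * β ^ 5 * dl K := by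
  have hδ := dl_pos hK
  have hδ1 := real_dl1 hK
  have h1 : ∑ j ∈ Finset.range K, (E (j + 1) - E j) = E K - E 0 := Finset.sum_range_sub E K
  have h2 : ∀ j ∈ Finset.range K, dl K * (A j + γ j * V j) - (E (j + 1) - E j)
      - (1 / 2) * (γ j * tau K j) ≤
      dl K * A j + (1 / 2) * (dl K * (γ j * (V j - j * dl K))) + 3 * β ^ 5 * dl K ^ 2 := by
    intro j hj
    have hj := Finset.mem_range.1 hj
    have c := (abs_le.1 (real_cell h hβ hη hj).2.2).1
    have g0 : 0 ≤ γ j := hη.le.trans (real_gge h j)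
    have e1 : 0 ≤ γ j * (dl K ^ 2 * G j) := mul_nonneg g0 (mul_nonneg (sq_nonneg _) (real_G0 h hj.le))
    have e2 : 0 ≤ γ j * dl K ^ 2 := by positivity
    have e3 : γ j * (6 * β ^ 4 * dl K ^ 3) ≤ β * (6 * β ^ 4 * dl K ^ 2) := by
      refine mul_le_mul (real_gle h j) ?_ (by positivity) hβ
      refine mul_le_mul_of_nonneg_left ?_ (by positivity)
      exact pow_le_pow_of_le_one hδ.le hδ1 (by norm_num)
    unfold tau
    nlinarith
  have h3 := Finset.sum_le_sum h2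
  have h4 := h.EK
  have h5 : (K : ℝ) * (3 * β ^ 5 * dl K ^ 2) = 3 * β ^ 5 * dl K := by
    have := real_dlK hK
    calc (K : ℝ) * (3 * β ^ 5 * dl K ^ 2) = (K * dl K) * (3 * β ^ 5 * dl K) := by ring
      _ = _ := by rw [this, one_mul]
  rw [Finset.sum_sub_distrib, Finset.sum_sub_distrib, h1, ← Finset.mul_sum, ← Finset.mul_sum,
    Finset.sum_add_distrib (g := fun _ => 3 * β ^ 5 * dl K ^ 2),
    Finset.sum_add_distrib (f := fun j => dl K * A j), ← Finset.mul_sum,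
    ← Finset.mul_sum (a := 1 / 2), Finset.sum_const, Finset.card_range, nsmul_eq_mul, h5] at h3
  linarith

/-- Increments of `V` before the last jump. -/
lemma real_dV (h : Facts β η c K γ V A G B C E) (hβ : 0 ≤ β) (hη : 0 < η) {M : ℕ} (hM : M < K)
    (hjump : (if M = 0 then η else γ (M - 1)) < γ M) {q : ℕ} (hq : q ≤ M) :
    V (q + 1) - V q ≤ dl K + dl K * (36 * β ^ 4 * dl K + 2 * η * β ^ 3) := by
  have hδ := dl_pos (show 0 < K by omega)
  have h1 := mul_le_mul_of_nonneg_left (real_Gbd h hβ hη hM hjump q hq) hδ.le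
  have h2 := (abs_le.1 (real_cell h hβ hη (show q < K by omega)).2.1).2
  nlinarith

lemma real_Vt (h : Facts β η c K γ V A G B C E) (hβ : 0 ≤ β) (hη : 0 < η) {M : ℕ} (hM : M < K)
    (hjump : (if M = 0 then η else γ (M - 1)) < γ M) :
    ∀ j ≤ M, V j - j * dl K ≤ j * dl K * (36 * β ^ 4 * dl K + 2 * η * β ^ 3) := by
  intro j
  induction j with
  | zero => intro _; simp [h.V0]
  | succ j ih =>
    intro hj
    have h1 := real_dV h hβ hη hM hjump (show j ≤ M by omega)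
    have h2 := ih (by omega)
    push_cast
    nlinarith

lemma real_split {f : ℕ → ℝ} {M K : ℕ} (hM : M ≤ K) {b : ℝ} (hb : ∀ j, M ≤ j → j < K → f j ≤ b) :
    ∑ j ∈ Finset.range K, f j ≤ ∑ j ∈ Finset.range M, f j + ((K : ℝ) - M) * b := by
  rw [← Finset.sum_range_add_sum_Ico f hM]
  have : ∑ j ∈ Finset.Ico M K, f j ≤ ∑ _j ∈ Finset.Ico M K, b :=
    Finset.sum_le_sum fun j hj => hb j (Finset.mem_Ico.1 hj).1 (Finset.mem_Ico.1 hj).2
  rw [Finset.sum_const, Nat.card_Ico, nsmul_eq_mul, Nat.cast_sub hM] at this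
  linarith

/-- Step 7. -/
lemma real_alg (h : Facts β η c K γ V A G B C E) (hβ : 0 ≤ β) (hη : 0 < η) {M : ℕ} (hM : M < K)
    (hjump : (if M = 0 then η else γ (M - 1)) < γ M) :
    dl K * ∑ j ∈ Finset.range M, A j ≤ algVal β K V A + β * √(dl K) + β * dl K
      + β * ((1 + β ^ 2 + 6 * β ^ 4) * dl K) + β * (36 * β ^ 4 * dl K + 2 * η * β ^ 3) := by
  have hK : 0 < K := by omega
  have hδ := dl_pos hK
  set σ := 36 * β ^ 4 * dl K + 2 * η * β ^ 3 with hσ
  have hσ0 : 0 ≤ σ := by positivity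
  have h1 : ∑ q ∈ Finset.range M, √(dl K * (V (q + 1) - V q)) * A (q + 1) ≤
      ∑ q ∈ Finset.range (K - 1), √(dl K * (V (q + 1) - V q)) * A (q + 1) := by
    refine Finset.sum_le_sum_of_subset_of_nonneg (Finset.range_mono (by omega)) ?_
    intro q hq _
    have hq := Finset.mem_range.1 hq
    exact mul_nonneg (Real.sqrt_nonneg _) (h.A0 _ (by omega))
  have h2 : ∀ q ∈ Finset.range M, dl K * A q ≤ √(dl K * (V (q + 1) - V q)) * A (q + 1)
      - dl K * (A (q + 1) - A q) - β * (V (q + 1) - V q) + β * (dl K + dl K * σ) := by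
    intro q hq
    have hq := Finset.mem_range.1 hq
    have d1 := real_dV h hβ hη hM hjump hq.le
    rw [← hσ] at d1
    have d2 := real_sqrt hδ.le (sub_nonneg.2 (h.Vmono q (by omega))) (mul_nonneg hδ.le hσ0) d1
    have a0 := h.A0 (q + 1) (by omega)
    have a1 := real_Aβ h hβ (show q + 1 ≤ K by omega)
    have e1 := mul_le_mul_of_nonneg_right d2 a0
    have e2 := mul_le_mul_of_nonneg_left a1 (sub_nonneg.2 d1)
    nlinarith
  have h3 := Finset.sum_le_sum h2
  rw [Finset.sum_add_distrib, Finset.sum_sub_distrib, Finset.sum_sub_distrib, ← Finset.mul_sum,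
    ← Finset.mul_sum, ← Finset.mul_sum, Finset.sum_range_sub A, Finset.sum_range_sub V,
    Finset.sum_const, Finset.card_range, nsmul_eq_mul, h.V0] at h3
  have h4 := (real_jump h hβ hη hM hjump).2
  have h5 := mul_le_mul_of_nonneg_left h4 hβ
  have h6 := mul_le_mul_of_nonneg_left (real_Aβ h hβ (Nat.zero_le K)) hδ.le
  have h7 := mul_nonneg hδ.le (h.A0 M hM.le)
  have h8 := mul_le_mul_of_nonneg_left (real_tle hK hM.le) (mul_nonneg hβ hσ0)
  unfold algVal
  nlinarith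

lemma real_core (h : Facts β η c K γ V A G B C E) (hK : 0 < K) (hβ : 1 ≤ β) (hη : 0 < η)
    (hηβ : η < β) (hη2 : 2 * η * β ^ 3 ≤ 1)
    (hc : (1 + β ^ 2 + 6 * β ^ 4) * dl K < c) (hs : β * ((1 + β ^ 2 + 6 * β ^ 4) * dl K) ≤ 1)
    (hs2 : 30 * β ^ 4 * dl K ≤ 1) :
    E 0 - (1 / 2) * ∑ j ∈ Finset.range K, γ j * tau K j ≤ algVal β K V A + 12 / β
      + 3 * η * β ^ 4 + (β + β * (1 + β ^ 2 + 6 * β ^ 4) + 57 * β ^ 5) * dl K + β * √(dl K) := by
  have hβ0 : 0 < β := by linarith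
  have hδ := dl_pos hK
  obtain ⟨M, hM, hjump, htop⟩ := real_last h hK hηβ (real_top h hK hβ0.le hη hc)
  have e0 := real_E0 h hK hβ0.le hη
  have e1 := real_alg h hβ0.le hη hM hjump
  have hVt := real_Vt h hβ0.le hη hM hjump
  set σ := 36 * β ^ 4 * dl K + 2 * η * β ^ 3 with hσ
  have hσ0 : 0 ≤ σ := by positivity
  have hA2 : A M ≤ 2 := by
    have g := real_Gbd h hβ0.le hη hM hjump M le_rfl
    have g2 := h.AG M hM.le
    exact (abs_le_of_sq_le_sq' (by linarith : A M ^ 2 ≤ 2 ^ 2) (by norm_num)).2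
  have hAM := real_AM h hM.le htop
  set w : ℝ := 1 - M * dl K with hw
  have hw0 : 0 ≤ w := sub_nonneg.2 (real_tle hK hM.le)
  have hβw : β * w ≤ 3 := by
    have h1 := real_dn h hβ0.le hη hM hjump
    have h2 := mul_nonneg hδ.le (real_G0 h hM.le)
    have h3 : 6 * β ^ 4 * dl K ^ 2 ≤ 6 * β ^ 4 * dl K := by
      have : dl K ^ 2 ≤ dl K := by nlinarith [real_dl1 hK]
      exact mul_le_mul_of_nonneg_left this (by positivity)
    have h4 : 0 ≤ β ^ 2 * dl K := by positivity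
    have h5 : V M - M * dl K ≤ (1 + β ^ 2 + 6 * β ^ 4) * dl K := by nlinarith
    have h6 := mul_le_mul_of_nonneg_left h5 hβ0.le
    rw [hw]; nlinarith
  have hw3 : w ≤ 3 / β := by rw [le_div_iff₀ hβ0]; linarith
  have hKM : ((K : ℝ) - M) * dl K = w := by rw [sub_mul, real_dlK hK]
  -- the sum of `A`
  have s1 : ∑ j ∈ Finset.range K, A j ≤ ∑ j ∈ Finset.range M, A j + ((K : ℝ) - M) * 2 :=
    real_split hM.le fun j h1 h2 => (real_Aanti h hη h1 h2.le).trans hA2
  have s1' := mul_le_mul_of_nonneg_left s1 hδ.le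
  -- the sum of `γ (V - t)`
  have s2 : ∑ j ∈ Finset.range K, dl K * (γ j * (V j - j * dl K)) ≤
      ∑ j ∈ Finset.range M, dl K * (γ j * (V j - j * dl K)) + ((K : ℝ) - M) * (dl K * 3) := by
    refine real_split hM.le fun j h1 h2 => mul_le_mul_of_nonneg_left ?_ hδ.le
    rw [htop j h1]
    refine le_trans (mul_le_mul_of_nonneg_left ?_ hβ0.le) hβw
    have a1 := (real_Vmono h h2.le le_rfl).trans h.VK
    have a2 : (M : ℝ) * dl K ≤ j * dl K :=
      mul_le_mul_of_nonneg_right (by exact_mod_cast h1) hδ.le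
    have a3 : 0 < (1 + β ^ 2 + 6 * β ^ 4) * dl K := by positivity
    rw [hw]; linarith
  have s3 : ∑ j ∈ Finset.range M, dl K * (γ j * (V j - j * dl K)) ≤
      ∑ _j ∈ Finset.range M, dl K * (β * σ) := by
    refine Finset.sum_le_sum fun j hj => mul_le_mul_of_nonneg_left ?_ hδ.le
    have hj := Finset.mem_range.1 hj
    have a1 := hVt j hj.le
    have a2 := mul_le_mul_of_nonneg_right (real_tle hK (show j ≤ K by omega)) hσ0
    have g0 : 0 ≤ γ j := hη.le.trans (real_gge h j)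
    calc γ j * (V j - j * dl K) ≤ γ j * σ := mul_le_mul_of_nonneg_left (by linarith) g0
      _ ≤ β * σ := mul_le_mul_of_nonneg_right (real_gle h j) hσ0
  rw [Finset.sum_const, Finset.card_range, nsmul_eq_mul] at s3
  have s4 := mul_le_mul_of_nonneg_right (real_tle hK hM.le) (mul_nonneg hβ0.le hσ0)
  have l2 : Real.log 2 / β ≤ 1 / β := by
    refine div_le_div_of_nonneg_right ?_ hβ0.le
    have := Real.log_two_lt_d9
    linarith
  have t1 : dl K * (∑ j ∈ Finset.range M, A j + ((K : ℝ) - M) * 2)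
      = dl K * ∑ j ∈ Finset.range M, A j + 2 * w := by rw [← hKM]; ring
  have t2 : ((K : ℝ) - M) * (dl K * 3) = 3 * w := by rw [← hKM]; ring
  have t3 : β * σ = 36 * (β ^ 5 * dl K) + 2 * (η * β ^ 4) := by rw [hσ]; ring
  have t4 : (12 : ℝ) / β = 12 * (1 / β) := by ring
  have t5 : (3 : ℝ) / β = 3 * (1 / β) := by ring
  have t6 : (0 : ℝ) ≤ 1 / β := by positivity
  have t7 : (M : ℝ) * (dl K * (β * σ)) = M * dl K * (β * σ) := by ring
  rw [t1] at s1'
  rw [t2] at s2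
  rw [t7] at s3
  rw [t5] at hw3
  rw [t4]
  nlinarith

end real

theorem real_main {ε : ℝ} (hε : 0 < ε) : ∃ β η : ℝ, 0 < η ∧ η < β ∧ ∀ c : ℝ, 0 < c →
    ∃ k : ℕ, ∀ γ V A G B C E : ℕ → ℝ, Facts β η c (k + 1) γ V A G B C E →
      E 0 - (1 / 2) * ∑ j ∈ Finset.range (k + 1), γ j * tau (k + 1) j - ε ≤ algVal β (k + 1) V A := by
  set β : ℝ := 36 / ε + 1 with hβdef
  have hβ : 1 ≤ β := by
    have : 0 < 36 / ε := by positivity
    linarith
  have hβ0 : 0 < β := by linarith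
  have hβε : 12 / β ≤ ε / 3 := by
    rw [div_le_iff₀ hβ0, hβdef]
    have : ε / 3 * (36 / ε + 1) = 12 + ε / 3 := by field_simp; ring
    rw [this]; linarith
  set η : ℝ := min (ε / (9 * β ^ 4)) (1 / (2 * β ^ 3)) with hηdef
  have hη : 0 < η := lt_min (by positivity) (by positivity)
  have hη1 : 3 * η * β ^ 4 ≤ ε / 3 := by
    have := (le_div_iff₀ (by positivity)).1 (min_le_left (ε / (9 * β ^ 4)) (1 / (2 * β ^ 3)))
    rw [← hηdef] at this
    linarith
  have hη2 : 2 * η * β ^ 3 ≤ 1 := by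
    have := (le_div_iff₀ (by positivity)).1 (min_le_right (ε / (9 * β ^ 4)) (1 / (2 * β ^ 3)))
    rw [← hηdef] at this
    linarith
  have hηβ : η < β := by
    have h1 : 1 ≤ β ^ 3 := one_le_pow₀ hβ
    have h2 := mul_le_mul_of_nonneg_left h1 hη.le
    linarith
  refine ⟨β, η, hη, hηβ, fun c hc => ?_⟩
  have hd : Tendsto (fun k : ℕ => dl (k + 1)) atTop (𝓝 0) := by
    simpa [dl] using tendsto_one_div_add_atTop_nhds_zero_nat (𝕜 := ℝ)
  have hm : ∀ a b : ℝ, 0 < b → ∀ᶠ k : ℕ in atTop, a * dl (k + 1) < b := fun a b hb =>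
    (show Tendsto (fun k : ℕ => a * dl (k + 1)) atTop (𝓝 0) by
      simpa using hd.const_mul a).eventually (gt_mem_nhds hb)
  have hq : ∀ᶠ k : ℕ in atTop, β * √(dl (k + 1)) < ε / 6 :=
    (show Tendsto (fun k : ℕ => β * √(dl (k + 1))) atTop (𝓝 0) by
      simpa using hd.sqrt.const_mul β).eventually (gt_mem_nhds (by positivity))
  obtain ⟨k, k1, k2, k3, k4, k5⟩ := ((hm (1 + β ^ 2 + 6 * β ^ 4) c hc).and
    ((hm (β * (1 + β ^ 2 + 6 * β ^ 4)) 1 one_pos).and ((hm (30 * β ^ 4) 1 one_pos).and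
    ((hm (β + β * (1 + β ^ 2 + 6 * β ^ 4) + 57 * β ^ 5) (ε / 6) (by positivity)).and hq)))).exists
  refine ⟨k, fun γ V A G B C E h => ?_⟩
  have := real_core h (Nat.succ_pos k) hβ hη hηβ hη2 k1 (by rw [← mul_assoc]; exact k2.le) k3.le
  linarith

end Crest.Agent.R339.Cls
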