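import Crest.Agent.R339.Cls.Grid
import Crest.Agent.R339.Cls.Real
import Crest.Agent.R339.Cls.Chain
import Crest.Agent.R339.Cls.Guerra
import Crest.Agent.R339.Cls.Foc

/-! # Row 339: the classical half -/

set_option autoImplicit false
open MeasureTheory ProbabilityTheory

namespace Crest.Agent.R339

open Cls

theorem cls : S_CLS := by
  intro ε hε
  obtain ⟨β, η, hη, hηβ, h⟩ := real_main hε
  have hβ : 0 < β := hη.trans hηβ
  obtain ⟨c, hc, hF⟩ := facts hβ hη
  obtain ⟨k, hk⟩ := h c hc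
  obtain ⟨γ, hγ, hfoc⟩ := foc_exists hη hηβ.le (k + 1) k.succ_pos
  obtain ⟨m, s, hd, hv⟩ := chain hβ hη hγ fun j hj =>
    (adm_Phi hβ hη hγ hj).mono (hγ.low.trans (hγ.mono (Nat.zero_le j)))
  refine ⟨k, m, s, hd, 1, fun n hn => ?_⟩
  have h1 := guerra hβ hη k.succ_pos hγ (n := n) hn
  have h2 := hk _ _ _ _ _ _ _ (hF (k + 1) γ k.succ_pos hγ hfoc)
  have h3 : sE β (k + 1) γ 0 = Phi β (k + 1) γ 0 0 := by simp [sE, nu]
  unfold PP at h1
  linarith

end Crest.Agent.R339
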