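import Crest.Agent.R339.Cls.Pde1

/-!
# Row 339 / Cls: the Parisi PDE in the variance parameter
`pde_Hk`: the `s`-derivative of `Hk m s f k y` is `∫ D(k+1) h (y+√s g) g/(2√s) = ½ Hk (k+2)` (dominated
differentiation + `gauss_ibp`, or `heat` with `μ = dirac y`); joint differentiability from the continuity of both
partial derivatives (`hasStrictFDerivAt_uncurry_coprod`, `continuous_Hk`).
Then `D k (ch m s f) y` for `k ≤ 5` are explicit polynomials in `r_j = Hk j / Hk 0` divided by `m`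
(`r_j' = r_{j+1} - r_1 r_j`; cumulants: `r₂ - r₁²`, `r₃ - 3r₁r₂ + 2r₁³`, …); differentiate and close with
`field_simp; ring`.  Notation: `u k = D k (ch m s f) y`.
-/

set_option autoImplicit false
open MeasureTheory ProbabilityTheory Filter Topology

noncomputable section

namespace Crest.Agent.R339.Cls

variable {m s : ℝ} {f : ℝ → ℝ}

/-- the ratios -/
def pde_r (m : ℝ) (f : ℝ → ℝ) (j : ℕ) (s y : ℝ) : ℝ := Hk m s f j y / Hk m s f 0 y

theorem pde_ne (hf : Reg f) (m s y : ℝ) : Hk m s f 0 y ≠ 0 := by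
  rw [Hk_zero]
  exact (Zs_pos hf.lip m s y).ne'

theorem pde_ry (hf : Reg f) (m s : ℝ) (j : ℕ) (y : ℝ) :
    HasDerivAt (pde_r m f j s) (pde_r m f (j + 1) s y - pde_r m f j s y * pde_r m f 1 s y) y := by
  have := pde_ne hf m s y
  refine ((hasDerivAt_Hk hf m s j y).fun_div (hasDerivAt_Hk hf m s 0 y) this).congr_deriv ?_
  simp only [pde_r, zero_add]
  field_simp

section
variable {F G : ℝ × ℝ → ℝ} {a b c d : ℝ} {p : ℝ × ℝ}

theorem pde_congr (h : HasFDerivAt F (lin a b) p) (h1 : a = c) (h2 : b = d) : HasFDerivAt F (lin c d) p := h1 ▸ h2 ▸ h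

theorem pde_add (h : HasFDerivAt F (lin a b) p) (h' : HasFDerivAt G (lin c d) p) :
    HasFDerivAt (fun q => F q + G q) (lin (a + c) (b + d)) p :=
  (h.fun_add h').congr_fderiv (ContinuousLinearMap.ext fun v => by simp; ring)

theorem pde_mul (h : HasFDerivAt F (lin a b) p) (h' : HasFDerivAt G (lin c d) p) :
    HasFDerivAt (fun q => F q * G q) (lin (a * G p + F p * c) (b * G p + F p * d)) p :=
  (h.fun_mul h').congr_fderiv (ContinuousLinearMap.ext fun v => by simp; ring)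

theorem pde_cmul (c : ℝ) (h : HasFDerivAt F (lin a b) p) : HasFDerivAt (fun q => c * F q) (lin (c * a) (c * b)) p :=
  (h.const_mul c).congr_fderiv (ContinuousLinearMap.ext fun v => by simp; ring)

end

theorem pde_rs (hf : Reg f) (m : ℝ) (hs : 0 < s) (j : ℕ) (y : ℝ) :
    HasFDerivAt (fun p : ℝ × ℝ => pde_r m f j p.1 p.2)
      (lin ((pde_r m f (j + 2) s y - pde_r m f j s y * pde_r m f 2 s y) / 2)
        (pde_r m f (j + 1) s y - pde_r m f j s y * pde_r m f 1 s y)) (s, y) := by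
  have h0 := pde_ne hf m s y
  have h := (pde_Hk hf m hs j y).fun_mul ((hasDerivAt_inv h0).comp_hasFDerivAt (s, y) (pde_Hk hf m hs 0 y))
  refine h.congr_fderiv (ContinuousLinearMap.ext fun v => ?_)
  simp [pde_r]
  field_simp
  ring

theorem pde_D1 (hf : Reg f) (hm : 0 < m) (s y : ℝ) : D 1 (ch m s f) y = m⁻¹ * pde_r m f 1 s y := D1_ch_Hk hf hm s y

theorem pde_D2 (hf : Reg f) (hm : 0 < m) (s y : ℝ) :
    D 2 (ch m s f) y = m⁻¹ * (pde_r m f 2 s y + -1 * (pde_r m f 1 s y * pde_r m f 1 s y)) := by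
  rw [D2_ch_Hk hf hm, pde_r, pde_r]
  ring

theorem pde_D3 (hf : Reg f) (hm : 0 < m) (s y : ℝ) :
    D 3 (ch m s f) y = m⁻¹ * (pde_r m f 3 s y + -3 * (pde_r m f 1 s y * pde_r m f 2 s y) +
      2 * (pde_r m f 1 s y * pde_r m f 1 s y * pde_r m f 1 s y)) := by
  have r := fun j => pde_ry hf m s j y
  rw [D_succ, funext (pde_D2 hf hm s), (((r 2).fun_add (((r 1).fun_mul (r 1)).const_mul _)).const_mul _).deriv]
  ring

theorem pde_D4 (hf : Reg f) (hm : 0 < m) (s y : ℝ) :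
    D 4 (ch m s f) y = m⁻¹ * (pde_r m f 4 s y + -4 * (pde_r m f 1 s y * pde_r m f 3 s y) +
      -3 * (pde_r m f 2 s y * pde_r m f 2 s y) + 12 * (pde_r m f 1 s y * pde_r m f 1 s y * pde_r m f 2 s y) +
      -6 * (pde_r m f 1 s y * pde_r m f 1 s y * pde_r m f 1 s y * pde_r m f 1 s y)) := by
  have r := fun j => pde_ry hf m s j y
  rw [D_succ, funext (pde_D3 hf hm s), ((((r 3).fun_add (((r 1).fun_mul (r 2)).const_mul _)).fun_add
    ((((r 1).fun_mul (r 1)).fun_mul (r 1)).const_mul _)).const_mul _).deriv]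
  ring

theorem pde_D5 (hf : Reg f) (hm : 0 < m) (s y : ℝ) :
    D 5 (ch m s f) y = m⁻¹ * (pde_r m f 5 s y - 5 * pde_r m f 1 s y * pde_r m f 4 s y -
      10 * pde_r m f 2 s y * pde_r m f 3 s y + 20 * pde_r m f 1 s y ^ 2 * pde_r m f 3 s y +
      30 * pde_r m f 1 s y * pde_r m f 2 s y ^ 2 - 60 * pde_r m f 1 s y ^ 3 * pde_r m f 2 s y +
      24 * pde_r m f 1 s y ^ 5) := by
  have r := fun j => pde_ry hf m s j y
  rw [D_succ, funext (pde_D4 hf hm s), ((((((r 4).fun_add (((r 1).fun_mul (r 3)).const_mul _)).fun_add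
    (((r 2).fun_mul (r 2)).const_mul _)).fun_add ((((r 1).fun_mul (r 1)).fun_mul (r 2)).const_mul _)).fun_add
    (((((r 1).fun_mul (r 1)).fun_mul (r 1)).fun_mul (r 1)).const_mul _)).const_mul _).deriv]
  ring

theorem pde0 (hf : Reg f) (hm : 0 < m) (hs : 0 < s) (y : ℝ) :
    HasFDerivAt (fun p : ℝ × ℝ => ch m p.1 f p.2)
      (lin ((D 2 (ch m s f) y + m * D 1 (ch m s f) y ^ 2) / 2) (D 1 (ch m s f) y)) (s, y) := by
  have h := ((pde_Hk hf m hs 0 y).log (pde_ne hf m s y)).const_mul m⁻¹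
  simp only [Hk_zero] at h
  refine h.congr_fderiv ?_
  rw [pde_D1 hf hm, pde_D2 hf hm, ← Hk_zero]
  have := pde_ne hf m s y
  refine ContinuousLinearMap.ext fun v => ?_
  simp [pde_r]
  field_simp
  ring

theorem pde1 (hf : Reg f) (hm : 0 < m) (hs : 0 < s) (y : ℝ) :
    HasFDerivAt (fun p : ℝ × ℝ => D 1 (ch m p.1 f) p.2)
      (lin ((D 3 (ch m s f) y + 2 * m * D 1 (ch m s f) y * D 2 (ch m s f) y) / 2)
        (D 2 (ch m s f) y)) (s, y) := by
  have r := fun j => pde_rs hf m hs j y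
  simp only [pde_D1 hf hm, pde_D2 hf hm, pde_D3 hf hm]
  refine pde_congr (pde_cmul _ (r 1)) ?_ ?_ <;> field_simp <;> ring

theorem pde2 (hf : Reg f) (hm : 0 < m) (hs : 0 < s) (y : ℝ) :
    HasFDerivAt (fun p : ℝ × ℝ => D 2 (ch m p.1 f) p.2)
      (lin ((D 4 (ch m s f) y + 2 * m * D 2 (ch m s f) y ^ 2 +
        2 * m * D 1 (ch m s f) y * D 3 (ch m s f) y) / 2) (D 3 (ch m s f) y)) (s, y) := by
  have r := fun j => pde_rs hf m hs j y
  simp only [pde_D1 hf hm, pde_D2 hf hm, pde_D3 hf hm, pde_D4 hf hm]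
  refine pde_congr (pde_cmul _ (pde_add (r 2) (pde_cmul _ (pde_mul (r 1) (r 1))))) ?_ ?_ <;> field_simp <;> ring

theorem pde3 (hf : Reg f) (hm : 0 < m) (hs : 0 < s) (y : ℝ) :
    HasFDerivAt (fun p : ℝ × ℝ => D 3 (ch m p.1 f) p.2)
      (lin ((D 5 (ch m s f) y + 6 * m * D 2 (ch m s f) y * D 3 (ch m s f) y +
        2 * m * D 1 (ch m s f) y * D 4 (ch m s f) y) / 2) (D 4 (ch m s f) y)) (s, y) := by
  have r := fun j => pde_rs hf m hs j y
  simp only [pde_D1 hf hm, pde_D2 hf hm, pde_D3 hf hm, pde_D4 hf hm, pde_D5 hf hm]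
  refine pde_congr (pde_cmul _ (pde_add (pde_add (r 3) (pde_cmul _ (pde_mul (r 1) (r 2))))
    (pde_cmul _ (pde_mul (pde_mul (r 1) (r 1)) (r 1))))) ?_ ?_ <;> field_simp <;> ring

end Crest.Agent.R339.Cls
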