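import Crest.Agent.R339.Cls.Reg
import Crest.Agent.R339.Cls.Heat

/-!
# Row 339 / Cls: the Parisi PDE in the variance parameter
`pde_Hk`: the `s`-derivative of `Hk m s f k y` is `∫ D(k+1) h (y+√s g) g/(2√s) = ½ Hk (k+2)` (dominated
differentiation + `gauss_ibp`, or `heat` with `μ = dirac y`); joint differentiability from the continuity of both
partial derivatives (`hasStrictFDerivAt_uncurry_coprod`, `continuous_Hk`).
Then `D k (ch m s f) y` for `k ≤ 5` are explicit polynomials in `r_j = Hk j / Hk 0` divided by `m`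
(`r_j' = r_{j+1} - r_1 r_j`; cumulants: `r₂ - r₁²`, `r₃ - 3r₁r₂ + 2r₁³`, …); differentiate and close with
`field_simp; ring`.  Notation: `u k = D k (ch m s f) y`.
-/

set_option autoImplicit false
open MeasureTheory ProbabilityTheory Filter Topology

noncomputable section

namespace Crest.Agent.R339.Cls

variable {m s : ℝ} {f : ℝ → ℝ}

/-- The linear form `(ds, dy) ↦ a ds + b dy`. -/
abbrev lin (a b : ℝ) : ℝ × ℝ →L[ℝ] ℝ :=
  a • ContinuousLinearMap.fst ℝ ℝ ℝ + b • ContinuousLinearMap.snd ℝ ℝ ℝ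

theorem pde1_eg (hf : Reg f) (m : ℝ) (k : ℕ) : EG (D k fun z => Real.exp (m * f z)) := by
  obtain ⟨C, hC⟩ := hf.bdd_exp m k
  obtain ⟨C', hC'⟩ := ((EG.exp_lip hf.lip m).const_mul C).2
  exact ⟨(hf.diff_exp m k).continuous.measurable, C', fun x => (hC x).trans ((le_abs_self _).trans (hC' x))⟩

theorem pde1_mono {F : ℝ → ℝ} {C C' : ℝ} (h : ∀ x, |F x| ≤ C * Real.exp (C * |x|)) (hC : |C| ≤ C') (x : ℝ) :
    |F x| ≤ C' * Real.exp (C' * |x|) := by
  have h1 := (le_abs_self C).trans hC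
  have h2 := (abs_nonneg C).trans hC
  refine (h x).trans ?_
  gcongr

theorem pde1_ds (hf : Reg f) (m : ℝ) (hs : 0 < s) (k : ℕ) (y : ℝ) :
    HasDerivAt (fun t => Hk m t f k y) (Hk m s f (k + 2) y / 2) s := by
  have hd : ∀ k z, HasDerivAt (D k fun z => Real.exp (m * f z)) (D (k + 1) (fun z => Real.exp (m * f z)) z) z :=
    fun k z => by rw [D_succ]; exact (hf.diff_exp m k z).hasDerivAt
  obtain ⟨-, C₀, h₀⟩ := pde1_eg hf m k
  obtain ⟨m₁, C₁, h₁⟩ := pde1_eg hf m (k + 1)
  obtain ⟨m₂, C₂, h₂⟩ := pde1_eg hf m (k + 2)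
  have a₀ := abs_nonneg C₀
  have a₁ := abs_nonneg C₁
  have a₂ := abs_nonneg C₂
  have h := (heat (gd_dirac y).2 (δ := s + 1) (by linarith) (W := fun _ => D k fun z => Real.exp (m * f z))
    (Wt := fun _ _ => 0) (Wy := fun _ => D (k + 1) fun z => Real.exp (m * f z))
    (Wyy := fun _ => D (k + 2) fun z => Real.exp (m * f z))
    ((hf.diff_exp m k).continuous.comp continuous_snd) (fun t _ z => ?_) (fun t _ z => hd (k + 1) z)
    (fun _ => measurable_const) (fun _ => m₁) (fun _ => m₂)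
    ⟨|C₀| + |C₁| + |C₂|, fun t _ z => ⟨pde1_mono h₀ (by linarith) z, by rw [abs_zero]; positivity,
      pde1_mono h₁ (by linarith) z, pde1_mono h₂ (by linarith) z⟩⟩).2 s ⟨hs, by linarith⟩
  · unfold flow at h
    simp only [integral_dirac, zero_add, integral_div] at h
    exact h
  · rw [zero_smul, zero_add]
    exact HasDerivAt.comp_hasFDerivAt (f := Prod.snd) (t, z) (hd k z) hasFDerivAt_snd

theorem pde_Hk (hf : Reg f) (m : ℝ) (hs : 0 < s) (k : ℕ) (y : ℝ) :
    HasFDerivAt (fun p : ℝ × ℝ => Hk m p.1 f k p.2)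
      (lin (Hk m s f (k + 2) y / 2) (Hk m s f (k + 1) y)) (s, y) := by
  have h := hasStrictFDerivAt_uncurry_coprod (𝕜 := ℝ) (u := (s, y)) (f := fun t z => Hk m t f k z)
    (f₁ := fun t z => ContinuousLinearMap.toSpanSingleton ℝ (Hk m t f (k + 2) z / 2))
    (f₂ := fun t z => ContinuousLinearMap.toSpanSingleton ℝ (Hk m t f (k + 1) z))
    (by
      filter_upwards [(isOpen_lt continuous_const continuous_fst).mem_nhds (show (0 : ℝ) < (s, y).1 from hs)] with v hv
      exact (pde1_ds hf m hv k v.2).hasFDerivAt)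
    (Eventually.of_forall fun v => (hasDerivAt_Hk hf m v.1 k v.2).hasFDerivAt)
    (((ContinuousLinearMap.toSpanSingletonLIE ℝ ℝ).continuous.comp
      ((continuous_Hk hf m (k + 2)).div_const 2)).continuousAt)
    (((ContinuousLinearMap.toSpanSingletonLIE ℝ ℝ).continuous.comp (continuous_Hk hf m (k + 1))).continuousAt)
  refine h.hasFDerivAt.congr_fderiv ?_
  ext <;> simp [Function.HasUncurry.uncurry]

end Crest.Agent.R339.Cls
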