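import Crest.Agent.R339.Cls.Adm0
import Crest.Agent.R339.Cls.Refl
import Crest.Agent.R339.Cls.Ker
import Crest.Agent.R339.Cls.Ibp

/-!
# Row 339 / Cls: the shape class of the forward densities
* `qc_mul`: `X_new = X + d · D 1 f`, `Adm.D1_ang`; decay from `exp (-d f) ≤ exp (d|f 0| + d|x|)` and
  `d|x| ≤ c x²/2 + d²/(2c)`.
* `qm_density`: `Q(y) = smo = ∫ ker s (y-x) q(x) dx = ∫ q(y + √s g) dγ`; `Q' = ∫ q'(y+√s g) dγ =
  ∫ ker s (y-x) q'(x) dx` (dominated differentiation), `Q''` exists since `ker s` is smooth; Gaussian decay: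
  `(y-x)²/(2s) + c x² ≥ c' y² + c'' x²`.  Angular condition: put
  `F(a,b) = a q(a) q'(b) - b q'(a) q(b)` (`≤ 0` for `0<b<a` by `ang`; odd in `a`, antisymmetric).
  `x₁ Q(x₁) Q'(x₂) - x₂ Q'(x₁) Q(x₂) = ∫∫ ker ker F`: indeed `∫ ker s (x-y) y q(y) dy = x Q(x) + s Q'(x)`
  (integrate by parts: `hasDerivAt_ker`, or `gauss_ibp`), and the terms `s Q'(x₁) Q'(x₂)` cancel.  Then `refl_B2`.
* `qm_step`: `adv_eq_density`, `withDensity_mul`, `exp_ch`.
-/

set_option autoImplicit false
open MeasureTheory ProbabilityTheory Filter Topology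

noncomputable section

namespace Crest.Agent.R339.Cls

variable {β m s : ℝ} {f q : ℝ → ℝ}

/-- Convolution with the heat kernel. -/
def qc1_conv (s : ℝ) (F : ℝ → ℝ) (y : ℝ) : ℝ := ∫ x, ker s (y - x) * F x

theorem qc1_ker_le (s z : ℝ) (hs : 0 < s) : ker s z ≤ (√(2 * Real.pi * s))⁻¹ := by
  unfold ker
  have h1 : Real.exp (-z ^ 2 / (2 * s)) ≤ 1 := by
    rw [Real.exp_le_one_iff]
    have : 0 ≤ z ^ 2 / (2 * s) := by positivity
    rw [neg_div]; linarith
  have h2 : 0 ≤ (√(2 * Real.pi * s))⁻¹ := by positivity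
  nlinarith

theorem qc1_cont_ker (s : ℝ) : Continuous (ker s) := by
  unfold ker; fun_prop

theorem qc1_kerd_bdd (hs : 0 < s) : ∃ M : ℝ, ∀ z, |-(z / s) * ker s z| ≤ M := by
  refine ⟨(√(2 * Real.pi * s))⁻¹ * ((1 + 2 * s) / s), fun z => ?_⟩
  have hk : 0 ≤ (√(2 * Real.pi * s))⁻¹ := by positivity
  have he : 0 < Real.exp (z ^ 2 / (2 * s)) := Real.exp_pos _
  have h1 : z ^ 2 / (2 * s) + 1 ≤ Real.exp (z ^ 2 / (2 * s)) := Real.add_one_le_exp _
  have h2 : |z| ≤ (1 + 2 * s) * Real.exp (z ^ 2 / (2 * s)) := by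
    have h3 : |z| ≤ 1 + z ^ 2 := by nlinarith [sq_nonneg (|z| - 1), sq_abs z]
    have h4 : 1 + z ^ 2 ≤ (1 + 2 * s) * (z ^ 2 / (2 * s) + 1) := by
      have h5 : (1 + 2 * s) * (z ^ 2 / (2 * s) + 1) = z ^ 2 / (2 * s) + 1 + z ^ 2 + 2 * s := by
        field_simp; ring
      have h6 : 0 ≤ z ^ 2 / (2 * s) := by positivity
      rw [h5]; linarith
    have h7 : (1 + 2 * s) * (z ^ 2 / (2 * s) + 1) ≤ (1 + 2 * s) * Real.exp (z ^ 2 / (2 * s)) :=
      mul_le_mul_of_nonneg_left h1 (by linarith)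
    linarith
  have h8 : |z| * Real.exp (-z ^ 2 / (2 * s)) ≤ 1 + 2 * s := by
    rw [neg_div, Real.exp_neg, ← div_eq_mul_inv, div_le_iff₀ he]; exact h2
  rw [abs_mul, abs_neg, abs_div, abs_of_pos hs, abs_of_pos (ker_pos hs z)]
  unfold ker
  calc |z| / s * ((√(2 * Real.pi * s))⁻¹ * Real.exp (-z ^ 2 / (2 * s)))
      = (√(2 * Real.pi * s))⁻¹ * ((|z| * Real.exp (-z ^ 2 / (2 * s))) / s) := by ring
    _ ≤ (√(2 * Real.pi * s))⁻¹ * ((1 + 2 * s) / s) := by gcongr

theorem qc1_int_ker {F : ℝ → ℝ} (hs : 0 < s) (hF : Integrable F) (y : ℝ) :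
    Integrable fun x => ker s (y - x) * F x := by
  refine hF.bdd_mul (c := (√(2 * Real.pi * s))⁻¹) ?_ (Eventually.of_forall fun x => ?_)
  · exact ((qc1_cont_ker s).comp (by fun_prop)).aestronglyMeasurable
  · rw [Real.norm_eq_abs, abs_of_pos (ker_pos hs _)]; exact qc1_ker_le s _ hs

/-- Differentiating the kernel. -/
theorem qc1_hasDerivAt_ker {F : ℝ → ℝ} (hs : 0 < s) (hF : Integrable F) (y : ℝ) :
    HasDerivAt (qc1_conv s F) (∫ x, -((y - x) / s) * ker s (y - x) * F x) y := by
  obtain ⟨M, hM⟩ := qc1_kerd_bdd hs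
  have hc : Continuous fun z : ℝ => -(z / s) * ker s z := by
    have := qc1_cont_ker s; fun_prop
  refine (hasDerivAt_integral_of_dominated_loc_of_deriv_le (μ := volume) (s := Set.univ)
    (F := fun y x => ker s (y - x) * F x)
    (F' := fun y x => -((y - x) / s) * ker s (y - x) * F x) (bound := fun x => M * |F x|)
    Filter.univ_mem (Eventually.of_forall fun y => (qc1_int_ker hs hF y).aestronglyMeasurable)
    (qc1_int_ker hs hF y) ?_ ?_ (hF.abs.const_mul M) ?_).2
  · exact ((hc.comp (show Continuous fun x : ℝ => y - x by fun_prop)).aestronglyMeasurable).mul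
      hF.aestronglyMeasurable
  · refine Eventually.of_forall fun x z _ => ?_
    rw [Real.norm_eq_abs, abs_mul]
    exact mul_le_mul_of_nonneg_right (hM _) (abs_nonneg _)
  · refine Eventually.of_forall fun x z _ => ?_
    have h := (hasDerivAt_ker s (z - x)).comp z ((hasDerivAt_id z).sub_const x)
    have h2 := h.mul_const (F x)
    simpa using h2

/-- Differentiating the function. -/
theorem qc1_hasDerivAt_fun {F : ℝ → ℝ} (hs : 0 < s) (hd : Differentiable ℝ F) {C : ℝ}
    (h0 : ∀ x, |F x| ≤ C) (h1 : ∀ x, |deriv F x| ≤ C) (y : ℝ) :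
    HasDerivAt (qc1_conv s F) (qc1_conv s (deriv F) y) y := by
  have hm : Measurable F := hd.continuous.measurable
  have hm' : Measurable (deriv F) := measurable_deriv F
  have e1 : qc1_conv s F = fun y => ∫ g, F (y + √s * g) ∂γ1 := by
    funext y; exact (integral_gauss_eq_ker hm hs y).symm
  have e2 : qc1_conv s (deriv F) y = ∫ g, deriv F (y + √s * g) ∂γ1 :=
    (integral_gauss_eq_ker hm' hs y).symm
  rw [e1, e2]
  refine (hasDerivAt_integral_of_dominated_loc_of_deriv_le (μ := γ1) (s := Set.univ)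
    (F := fun y g => F (y + √s * g))
    (F' := fun y g => deriv F (y + √s * g)) (bound := fun _ => C)
    Filter.univ_mem (Eventually.of_forall fun y => ?_) ?_ ?_ ?_ (integrable_const C) ?_).2
  · exact (hm.comp (by fun_prop)).aestronglyMeasurable
  · exact (integrable_const C).mono' (hm.comp (by fun_prop)).aestronglyMeasurable
      (Eventually.of_forall fun g => h0 _)
  · exact (hm'.comp (by fun_prop)).aestronglyMeasurable
  · exact Eventually.of_forall fun g z _ => h1 _
  · refine Eventually.of_forall fun g z _ => ?_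
    exact (hd (z + √s * g)).hasDerivAt.comp_add_const z (√s * g)

theorem qc1_int_gauss {F : ℝ → ℝ} (hm : Measurable F) {C c : ℝ} (hc : 0 < c)
    (h : ∀ x, |F x| ≤ C * Real.exp (-(c * x ^ 2))) : Integrable F := by
  refine ((integrable_exp_neg_mul_sq hc).const_mul C).mono' hm.aestronglyMeasurable
    (Eventually.of_forall fun x => ?_)
  rw [Real.norm_eq_abs, neg_mul]; exact h x

theorem qc1_int_mul {F : ℝ → ℝ} (hm : Measurable F) {C c : ℝ} (hc : 0 < c)
    (h : ∀ x, |F x| ≤ C * Real.exp (-(c * x ^ 2))) : Integrable fun x => x * F x := by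
  refine ((integrable_mul_exp_neg_mul_sq hc).abs.const_mul C).mono'
    (measurable_id.mul hm).aestronglyMeasurable (Eventually.of_forall fun x => ?_)
  rw [Real.norm_eq_abs, abs_mul, abs_mul, abs_of_pos (Real.exp_pos _), neg_mul]
  calc |x| * |F x| ≤ |x| * (C * Real.exp (-(c * x ^ 2))) := by gcongr; exact h x
    _ = _ := by ring

/-- Gaussian decay is preserved. -/
theorem qc1_decay (hs : 0 < s) {C c : ℝ} (hc : 0 < c) : ∃ C' c' : ℝ, 0 < c' ∧ ∀ F : ℝ → ℝ,
    (∀ x, |F x| ≤ C * Real.exp (-(c * x ^ 2))) →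
      ∀ y, |qc1_conv s F y| ≤ C' * Real.exp (-(c' * y ^ 2)) := by
  refine ⟨∫ x : ℝ, (√(2 * Real.pi * s))⁻¹ * C * Real.exp (-(c / 2) * x ^ 2),
    min (1 / (4 * s)) (c / 4), by positivity, fun F hF y => ?_⟩
  have hC : 0 ≤ C := by
    have := (abs_nonneg _).trans (hF 0)
    simpa using this
  rw [← integral_mul_const, ← Real.norm_eq_abs]
  refine norm_integral_le_of_norm_le
    ((((integrable_exp_neg_mul_sq (half_pos hc)).const_mul _)).mul_const _)
    (Eventually.of_forall fun x => ?_)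
  rw [Real.norm_eq_abs, abs_mul, abs_of_pos (ker_pos hs _)]
  have hk : 0 ≤ (√(2 * Real.pi * s))⁻¹ := by positivity
  have key : -(y - x) ^ 2 / (2 * s) + -(c * x ^ 2) ≤
      -(c / 2) * x ^ 2 + -(min (1 / (4 * s)) (c / 4) * y ^ 2) := by
    have a1 : min (1 / (4 * s)) (c / 4) ≤ 1 / (4 * s) := min_le_left _ _
    have a2 : min (1 / (4 * s)) (c / 4) ≤ c / 4 := min_le_right _ _
    have a0 : 0 ≤ min (1 / (4 * s)) (c / 4) := by positivity
    have a3 : y ^ 2 ≤ 2 * (y - x) ^ 2 + 2 * x ^ 2 := by nlinarith [sq_nonneg (y - 2 * x)]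
    have a4 : (y - x) ^ 2 / (2 * s) = 1 / (4 * s) * (2 * (y - x) ^ 2) := by field_simp; ring
    have a5 := mul_le_mul_of_nonneg_left a3 a0
    have a6 := mul_le_mul_of_nonneg_right a1 (show 0 ≤ 2 * (y - x) ^ 2 by positivity)
    have a7 := mul_le_mul_of_nonneg_right a2 (show 0 ≤ 2 * x ^ 2 by positivity)
    rw [neg_div, a4]; nlinarith
  have key2 := Real.exp_le_exp.2 key
  rw [Real.exp_add, Real.exp_add] at key2
  calc ker s (y - x) * |F x| ≤ ker s (y - x) * (C * Real.exp (-(c * x ^ 2))) := by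
        gcongr
        · exact (ker_pos hs _).le
        · exact hF x
    _ = (√(2 * Real.pi * s))⁻¹ * C *
        (Real.exp (-(y - x) ^ 2 / (2 * s)) * Real.exp (-(c * x ^ 2))) := by unfold ker; ring
    _ ≤ (√(2 * Real.pi * s))⁻¹ * C * (Real.exp (-(c / 2) * x ^ 2) *
        Real.exp (-(min (1 / (4 * s)) (c / 4) * y ^ 2))) := by gcongr
    _ = _ := by ring

theorem qc1_smo (hq : QC q) (s : ℝ) :
    smo (volume.withDensity fun y => ENNReal.ofReal (q y)) s = qc1_conv s q := by
  funext y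
  unfold smo qc1_conv
  rw [integral_withDensity_eq_integral_toReal_smul
    (hq.d1.continuous.measurable.ennreal_ofReal) (Eventually.of_forall fun x => ENNReal.ofReal_lt_top)]
  refine integral_congr_ae (Eventually.of_forall fun x => ?_)
  simp only [ENNReal.toReal_ofReal (hq.pos x).le, smul_eq_mul]
  ring

theorem qc1_deriv_odd (hq : QC q) (x : ℝ) : deriv q (-x) = -deriv q x := by
  have h1 : HasDerivAt (fun x => q (-x)) (deriv q (-x) * -1) x :=
    (hq.d1 (-x)).hasDerivAt.comp x (hasDerivAt_neg x)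
  have h2 : (fun x => q (-x)) = q := funext hq.even
  rw [h2] at h1
  rw [h1.deriv]; ring

theorem qm_density (hq : QC q) : QM (volume.withDensity fun y => ENNReal.ofReal (q y)) := by
  intro s hs
  rw [qc1_smo hq]
  obtain ⟨C, c, hc, hdec⟩ := hq.dec
  have hm : Measurable q := hq.d1.continuous.measurable
  have hm' : Measurable (deriv q) := measurable_deriv q
  have b0 : ∀ x, |q x| ≤ C * Real.exp (-(c * x ^ 2)) := fun x => by
    rw [abs_of_pos (hq.pos x)]; exact (hdec x).1
  have b1 : ∀ x, |deriv q x| ≤ C * Real.exp (-(c * x ^ 2)) := fun x => (hdec x).2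
  have hC : 0 ≤ C := by
    have := (abs_nonneg _).trans (b0 0)
    simpa using this
  have hle : ∀ x : ℝ, C * Real.exp (-(c * x ^ 2)) ≤ C := fun x => by
    have : Real.exp (-(c * x ^ 2)) ≤ 1 := by
      rw [Real.exp_le_one_iff]; have : 0 ≤ c * x ^ 2 := by positivity
      linarith
    nlinarith
  have c0 : ∀ x, |q x| ≤ C := fun x => (b0 x).trans (hle x)
  have c1 : ∀ x, |deriv q x| ≤ C := fun x => (b1 x).trans (hle x)
  have i0 : Integrable q := qc1_int_gauss hm hc b0
  have i1 : Integrable (deriv q) := qc1_int_gauss hm' hc b1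
  have i2 : Integrable fun x => x * q x := qc1_int_mul hm hc b0
  have hD : ∀ y, HasDerivAt (qc1_conv s q) (qc1_conv s (deriv q) y) y :=
    qc1_hasDerivAt_fun hs hq.d1 c0 c1
  have hd : deriv (qc1_conv s q) = qc1_conv s (deriv q) := funext fun y => (hD y).deriv
  have hpos : ∀ y, 0 < qc1_conv s q y := fun y => by
    unfold qc1_conv
    rw [integral_pos_iff_support_of_nonneg (fun x => (mul_pos (ker_pos hs _) (hq.pos x)).le)
      (qc1_int_ker hs i0 y)]
    have : Function.support (fun x => ker s (y - x) * q x) = Set.univ :=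
      Set.eq_univ_of_forall fun x => (mul_pos (ker_pos hs _) (hq.pos x)).ne'
    rw [this]; simp
  have hmom : ∀ y, qc1_conv s (fun x => x * q x) y =
      y * qc1_conv s q y + s * qc1_conv s (deriv q) y := fun y => by
    rw [(hD y).unique (qc1_hasDerivAt_ker hs i0 y)]
    have e : ∀ x, -((y - x) / s) * ker s (y - x) * q x =
        s⁻¹ * (ker s (y - x) * (x * q x)) - s⁻¹ * y * (ker s (y - x) * q x) := fun x => by
      field_simp; ring
    simp_rw [e]
    rw [integral_sub ((qc1_int_ker hs i2 y).const_mul _) ((qc1_int_ker hs i0 y).const_mul _),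
      integral_const_mul, integral_const_mul]
    unfold qc1_conv
    field_simp
    ring
  refine ⟨hpos, fun y => ?_, fun y => (hD y).differentiableAt, ?_, ?_, fun x y hy hxy => ?_⟩
  · unfold qc1_conv
    rw [← integral_neg_eq_self]
    refine integral_congr_ae (Eventually.of_forall fun x => ?_)
    simp only
    rw [hq.even, ← ker_neg]; congr 2; ring
  · rw [hd]; exact fun y => (qc1_hasDerivAt_ker hs i1 y).differentiableAt
  · obtain ⟨C', c', hc', h⟩ := qc1_decay (C := C) hs hc
    refine ⟨C', c', hc', fun y => ⟨(le_abs_self _).trans (h q b0 y), ?_⟩⟩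
    rw [hd]; exact h _ b1 y
  · rw [hd]
    have hB := refl_B2 hs
      (F := fun p : ℝ × ℝ => p.1 * q p.1 * deriv q p.2 - p.2 * deriv q p.1 * q p.2)
      (by fun_prop) ?_ (fun a b => by simp only; ring)
      (fun a b => by simp only; rw [hq.even, qc1_deriv_odd hq]; ring) ?_ hy.le hxy
    · have e : ∀ p : ℝ × ℝ, ker s (x - p.1) * ker s (y - p.2) *
          (p.1 * q p.1 * deriv q p.2 - p.2 * deriv q p.1 * q p.2) =
          (ker s (x - p.1) * (p.1 * q p.1)) * (ker s (y - p.2) * deriv q p.2) -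
            (ker s (x - p.1) * deriv q p.1) * (ker s (y - p.2) * (p.2 * q p.2)) := fun p => by ring
      simp only [e] at hB
      rw [Measure.volume_eq_prod, integral_sub
        ((qc1_int_ker hs i2 x).mul_prod (qc1_int_ker hs i1 y))
        ((qc1_int_ker hs i1 x).mul_prod (qc1_int_ker hs i2 y)),
        integral_prod_mul (fun a => ker s (x - a) * (a * q a)) (fun b => ker s (y - b) * deriv q b),
        integral_prod_mul (fun a => ker s (x - a) * deriv q a) (fun b => ker s (y - b) * (b * q b))]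
        at hB
      change qc1_conv s (fun a => a * q a) x * qc1_conv s (deriv q) y -
        qc1_conv s (deriv q) x * qc1_conv s (fun a => a * q a) y ≤ 0 at hB
      rw [hmom, hmom] at hB
      rw [← mul_div_assoc, ← mul_div_assoc, div_le_div_iff₀ (hpos x) (hpos y)]
      nlinarith
    · refine ⟨C ^ 2 + 1, fun p => ?_⟩
      have t1 : |p.1 * q p.1 * deriv q p.2| ≤ |p.1| * C * C := by
        rw [abs_mul, abs_mul]; gcongr
        · exact c0 _
        · exact c1 _
      have t2 : |p.2 * deriv q p.1 * q p.2| ≤ |p.2| * C * C := by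
        rw [abs_mul, abs_mul]; gcongr
        · exact c1 _
        · exact c0 _
      have t3 := abs_sub (p.1 * q p.1 * deriv q p.2) (p.2 * deriv q p.1 * q p.2)
      have t0 : 0 ≤ |p.1| + |p.2| := by positivity
      have t4 : |p.1| + |p.2| ≤ Real.exp ((C ^ 2 + 1) * (|p.1| + |p.2|)) := by
        have := Real.add_one_le_exp ((C ^ 2 + 1) * (|p.1| + |p.2|))
        nlinarith [mul_nonneg (sq_nonneg C) t0]
      have t5 : C ^ 2 * (|p.1| + |p.2|) ≤
          (C ^ 2 + 1) * Real.exp ((C ^ 2 + 1) * (|p.1| + |p.2|)) :=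
        mul_le_mul (by linarith) t4 t0 (by positivity)
      nlinarith
    · intro a b hb hab
      have h := hq.ang a b hb hab.le
      rw [← mul_div_assoc, ← mul_div_assoc, div_le_div_iff₀ (hq.pos a) (hq.pos b)] at h
      simp only
      nlinarith

end Crest.Agent.R339.Cls
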