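import Crest.Agent.R339.Cls.Ker

/-!
# Row 339 / Cls: reflection lemmas in the plane
`refl_half`: if `σ` preserves Lebesgue measure on `ℝ²` and `F ∘ σ = -F`, then
`∫ k F = ½ ∫ (k - k∘σ) F`.  `ker s (x-y)` products are `c · exp(-|x|²/2s) exp(-|y|²/2s) exp(x·y/s)`.
* `refl_D2`: group generated by `(y₁,y₂) ↦ (y₂,y₁)`, `(y₁,y₂) ↦ (-y₁,-y₂)` (under which `F` is invariant);
  signed kernel sum `2cosh((x₁y₁+x₂y₂)/s) - 2cosh((x₁y₂+x₂y₁)/s)` has the sign of
  `(x₁²-x₂²)(y₁²-y₂²)` (`Real.cosh_le_cosh`, `sq_le_sq`).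
* `refl_B2`: signed sum over the 8 signed permutations
  `4[sinh(x₁y₁/s) sinh(x₂y₂/s) - sinh(x₁y₂/s) sinh(x₂y₁/s)]`, use `sinh_tp2` and the (anti)symmetries.
* `sinh_tp2`: `t ↦ sinh(a t)/sinh(b t)` is monotone on `(0,∞)` for `a ≥ b > 0` (derivative sign:
  `a coth(at) ≥ b coth(bt)` because `u ↦ u coth u` is monotone, i.e. `sinh u cosh u ≥ u`).
-/

set_option autoImplicit false
open MeasureTheory ProbabilityTheory Filter Topology

noncomputable section

namespace Crest.Agent.R339.Cls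

theorem refl1_N {a b : ℝ} (hab : b ≤ a) (hb : 0 ≤ b) {t : ℝ} (ht : 0 ≤ t) :
    0 ≤ a * Real.cosh (a * t) * Real.sinh (b * t) - b * Real.sinh (a * t) * Real.cosh (b * t) := by
  have hd : ∀ t : ℝ, HasDerivAt
      (fun t => a * Real.cosh (a * t) * Real.sinh (b * t) - b * Real.sinh (a * t) * Real.cosh (b * t))
      ((a ^ 2 - b ^ 2) * (Real.sinh (a * t) * Real.sinh (b * t))) t := by
    intro t
    have ha' : HasDerivAt (fun t : ℝ => a * t) a t := by simpa using (hasDerivAt_id t).const_mul a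
    have hb' : HasDerivAt (fun t : ℝ => b * t) b t := by simpa using (hasDerivAt_id t).const_mul b
    have h := ((ha'.cosh.const_mul a).mul hb'.sinh).sub ((ha'.sinh.const_mul b).mul hb'.cosh)
    refine HasDerivAt.congr_deriv h ?_
    ring
  have hmono : MonotoneOn
      (fun t => a * Real.cosh (a * t) * Real.sinh (b * t) - b * Real.sinh (a * t) * Real.cosh (b * t))
      (Set.Ici 0) := by
    refine monotoneOn_of_deriv_nonneg (convex_Ici 0) (fun t _ => (hd t).continuousAt.continuousWithinAt)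
      (fun t _ => (hd t).differentiableAt.differentiableWithinAt) fun t ht => ?_
    rw [interior_Ici] at ht
    have ht' : 0 ≤ t := le_of_lt ht
    rw [(hd t).deriv]
    have h1 : 0 ≤ Real.sinh (a * t) := Real.sinh_nonneg_iff.2 (mul_nonneg (hb.trans hab) ht')
    have h2 : 0 ≤ Real.sinh (b * t) := Real.sinh_nonneg_iff.2 (mul_nonneg hb ht')
    exact mul_nonneg (by nlinarith) (mul_nonneg h1 h2)
  have := hmono (Set.mem_Ici.2 le_rfl) (Set.mem_Ici.2 ht) ht
  simpa using this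

theorem sinh_tp2 {x₁ x₂ y₁ y₂ : ℝ} (hx : x₂ ≤ x₁) (hx2 : 0 ≤ x₂) (hy : y₂ ≤ y₁) (hy2 : 0 ≤ y₂) :
    Real.sinh (x₁ * y₂) * Real.sinh (x₂ * y₁) ≤ Real.sinh (x₁ * y₁) * Real.sinh (x₂ * y₂) := by
  rcases hx2.eq_or_lt with h | hx2'
  · subst h; simp
  rcases hy2.eq_or_lt with h | hy2'
  · subst h; simp
  have hd : ∀ t : ℝ, 0 < t → HasDerivAt (fun t => Real.sinh (x₁ * t) / Real.sinh (x₂ * t))
      ((x₁ * Real.cosh (x₁ * t) * Real.sinh (x₂ * t) - x₂ * Real.sinh (x₁ * t) * Real.cosh (x₂ * t)) /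
        Real.sinh (x₂ * t) ^ 2) t := by
    intro t ht
    have ha' : HasDerivAt (fun t : ℝ => x₁ * t) x₁ t := by simpa using (hasDerivAt_id t).const_mul x₁
    have hb' : HasDerivAt (fun t : ℝ => x₂ * t) x₂ t := by simpa using (hasDerivAt_id t).const_mul x₂
    have hne : Real.sinh (x₂ * t) ≠ 0 := (Real.sinh_pos_iff.2 (mul_pos hx2' ht)).ne'
    have h := ha'.sinh.div hb'.sinh hne
    refine HasDerivAt.congr_deriv h ?_
    ring
  have hmono : MonotoneOn (fun t => Real.sinh (x₁ * t) / Real.sinh (x₂ * t)) (Set.Ioi 0) := by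
    refine monotoneOn_of_deriv_nonneg (convex_Ioi 0) (fun t ht => (hd t ht).continuousAt.continuousWithinAt)
      (fun t ht => (hd t (interior_subset ht)).differentiableAt.differentiableWithinAt) fun t ht => ?_
    have ht' : 0 < t := interior_subset ht
    rw [(hd t ht').deriv]
    exact div_nonneg (refl1_N hx hx2 ht'.le) (sq_nonneg _)
  have hy1 : 0 < y₁ := hy2'.trans_le hy
  have h := hmono (Set.mem_Ioi.2 hy2') (Set.mem_Ioi.2 hy1) hy
  simp only at h
  rwa [div_le_div_iff₀ (Real.sinh_pos_iff.2 (mul_pos hx2' hy2')) (Real.sinh_pos_iff.2 (mul_pos hx2' hy1))] at h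

/-- the smoothed function -/
def refl1_I (s : ℝ) (F : ℝ × ℝ → ℝ) (x₁ x₂ : ℝ) : ℝ := ∫ y : ℝ × ℝ, ker s (x₁ - y.1) * ker s (x₂ - y.2) * F y

theorem refl1_ker_neg (s z : ℝ) : ker s (-z) = ker s z := by
  unfold ker; rw [neg_sq]

theorem refl1_ker_nonneg (s z : ℝ) : 0 ≤ ker s z := by
  unfold ker; positivity

theorem refl1_ker_meas (s : ℝ) : Measurable (ker s) := by
  unfold ker; fun_prop

theorem refl1_ker {s : ℝ} (hs : 0 < s) (x y : ℝ) :
    ker s (x - y) = ker s x * Real.exp (-y ^ 2 / (2 * s)) * Real.exp (x * y / s) := by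
  unfold ker
  have : -(x - y) ^ 2 / (2 * s) = -x ^ 2 / (2 * s) + -y ^ 2 / (2 * s) + x * y / s := by
    field_simp
    ring
  rw [this, Real.exp_add, Real.exp_add]
  ring

theorem refl1_eg (C : ℝ) : EG fun y => Real.exp (C * |y|) := by
  refine ⟨by fun_prop, max C 1, fun x => ?_⟩
  rw [abs_of_pos (Real.exp_pos _)]
  have h1 : Real.exp (C * |x|) ≤ Real.exp (max C 1 * |x|) :=
    Real.exp_le_exp.2 (mul_le_mul_of_nonneg_right (le_max_left _ _) (abs_nonneg _))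
  have h2 : (1 : ℝ) ≤ max C 1 := le_max_right _ _
  nlinarith [Real.exp_pos (max C 1 * |x|)]

theorem refl1_int {s : ℝ} (hs : 0 < s) {F : ℝ × ℝ → ℝ} (hm : Measurable F)
    (hb : ∃ C : ℝ, ∀ y, |F y| ≤ C * Real.exp (C * (|y.1| + |y.2|))) (x₁ x₂ : ℝ) :
    Integrable fun y : ℝ × ℝ => ker s (x₁ - y.1) * ker s (x₂ - y.2) * F y := by
  obtain ⟨C, hC⟩ := hb
  have h := (((refl1_eg C).integrable_ker hs x₁).mul_prod ((refl1_eg C).integrable_ker hs x₂)).const_mul C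
  rw [Measure.volume_eq_prod]
  refine h.mono' ?_ (Eventually.of_forall fun y => ?_)
  · have h1 : Measurable fun y : ℝ × ℝ => ker s (x₁ - y.1) :=
      (refl1_ker_meas s).comp (measurable_const.sub measurable_fst)
    have h2 : Measurable fun y : ℝ × ℝ => ker s (x₂ - y.2) :=
      (refl1_ker_meas s).comp (measurable_const.sub measurable_snd)
    exact ((h1.mul h2).mul hm).aestronglyMeasurable
  · have k1 := refl1_ker_nonneg s (x₁ - y.1)
    have k2 := refl1_ker_nonneg s (x₂ - y.2)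
    rw [Real.norm_eq_abs, abs_mul, abs_of_nonneg (mul_nonneg k1 k2)]
    have h3 := mul_le_mul_of_nonneg_left (hC y) (mul_nonneg k1 k2)
    refine h3.trans (le_of_eq ?_)
    rw [mul_add, Real.exp_add]
    ring

theorem refl1_swap (s : ℝ) {F : ℝ × ℝ → ℝ} (h1 : ∀ a b, F (b, a) = -F (a, b)) (x₁ x₂ : ℝ) :
    refl1_I s F x₂ x₁ = -refl1_I s F x₁ x₂ := by
  unfold refl1_I
  rw [Measure.volume_eq_prod, ← integral_prod_swap, ← integral_neg]
  refine integral_congr_ae (Eventually.of_forall fun y => ?_)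
  have : F y.swap = -F y := h1 y.1 y.2
  simp only [Prod.fst_swap, Prod.snd_swap, this]
  ring

theorem refl1_neg (s : ℝ) {F : ℝ × ℝ → ℝ} (h2 : ∀ a b, F (-a, -b) = F (a, b)) (x₁ x₂ : ℝ) :
    refl1_I s F (-x₁) (-x₂) = refl1_I s F x₁ x₂ := by
  unfold refl1_I
  rw [← integral_neg_eq_self]
  refine integral_congr_ae (Eventually.of_forall fun y => ?_)
  have : F (-y) = F y := h2 y.1 y.2
  simp only [Prod.fst_neg, Prod.snd_neg, this]
  rw [← refl1_ker_neg s (x₁ - y.1), ← refl1_ker_neg s (x₂ - y.2)]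
  congr 3 <;> ring

theorem refl1_neg1 (s : ℝ) {F : ℝ × ℝ → ℝ} (h2 : ∀ a b, F (-a, b) = -F (a, b)) (x₁ x₂ : ℝ) :
    refl1_I s F (-x₁) x₂ = -refl1_I s F x₁ x₂ := by
  unfold refl1_I
  have hp : MeasurePreserving (MeasurableEquiv.prodCongr (MeasurableEquiv.neg ℝ) (MeasurableEquiv.refl ℝ))
      (volume : Measure (ℝ × ℝ)) volume :=
    (Measure.measurePreserving_neg (volume : Measure ℝ)).prod (MeasurePreserving.id volume)
  rw [← hp.integral_comp', ← integral_neg]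
  refine integral_congr_ae (Eventually.of_forall fun y => ?_)
  show ker s (-x₁ - -y.1) * ker s (x₂ - y.2) * F (-y.1, y.2) = -(ker s (x₁ - y.1) * ker s (x₂ - y.2) * F (y.1, y.2))
  rw [h2, ← refl1_ker_neg s (x₁ - y.1), show -x₁ - -y.1 = -(x₁ - y.1) by ring]
  ring

theorem refl_D2 {s : ℝ} (hs : 0 < s) {F : ℝ × ℝ → ℝ} (hm : Measurable F)
    (hb : ∃ C : ℝ, ∀ y, |F y| ≤ C * Real.exp (C * (|y.1| + |y.2|)))
    (h1 : ∀ a b, F (b, a) = -F (a, b)) (h2 : ∀ a b, F (-a, -b) = F (a, b))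
    (h3 : ∀ a b, |b| ≤ |a| → F (a, b) ≤ 0) {x₁ x₂ : ℝ} (hx : |x₂| ≤ |x₁|) :
    ∫ y : ℝ × ℝ, ker s (x₁ - y.1) * ker s (x₂ - y.2) * F y ≤ 0 := by
  show refl1_I s F x₁ x₂ ≤ 0
  have e : 4 * refl1_I s F x₁ x₂ =
      (refl1_I s F x₁ x₂ + refl1_I s F (-x₁) (-x₂)) - (refl1_I s F x₂ x₁ + refl1_I s F (-x₂) (-x₁)) := by
    rw [refl1_neg s h2, refl1_neg s h2, refl1_swap s h1 x₁ x₂]; ring
  have i := refl1_int hs hm hb
  suffices h : 4 * refl1_I s F x₁ x₂ ≤ 0 by linarith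
  have hI : ∫ y : ℝ × ℝ, (ker s (x₁ - y.1) * ker s (x₂ - y.2) * F y + ker s (-x₁ - y.1) * ker s (-x₂ - y.2) * F y -
      (ker s (x₂ - y.1) * ker s (x₁ - y.2) * F y + ker s (-x₂ - y.1) * ker s (-x₁ - y.2) * F y)) =
      (refl1_I s F x₁ x₂ + refl1_I s F (-x₁) (-x₂)) - (refl1_I s F x₂ x₁ + refl1_I s F (-x₂) (-x₁)) := by
    unfold refl1_I
    rw [integral_sub, integral_add, integral_add]
    all_goals first | exact i _ _ | exact (i _ _).add (i _ _)
  rw [e, ← hI]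
  refine integral_nonpos fun y => ?_
  obtain ⟨a, b⟩ := y
  simp only [Pi.zero_apply, refl1_ker hs, refl1_ker_neg]
  have hA : 0 ≤ ker s x₁ * ker s x₂ * Real.exp (-a ^ 2 / (2 * s)) * Real.exp (-b ^ 2 / (2 * s)) := by
    have k1 := refl1_ker_nonneg s x₁
    have k2 := refl1_ker_nonneg s x₂
    positivity
  have hx' : x₂ ^ 2 ≤ x₁ ^ 2 := sq_le_sq.2 hx
  have key : (Real.cosh ((x₁ * a + x₂ * b) / s) - Real.cosh ((x₂ * a + x₁ * b) / s)) * F (a, b) ≤ 0 := by
    rcases le_total |b| |a| with hab | hab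
    · refine mul_nonpos_of_nonneg_of_nonpos (sub_nonneg.2 (Real.cosh_le_cosh.2 ?_)) (h3 a b hab)
      rw [abs_div, abs_div]
      refine div_le_div_of_nonneg_right (sq_le_sq.1 ?_) (abs_nonneg _)
      have : b ^ 2 ≤ a ^ 2 := sq_le_sq.2 hab
      nlinarith [mul_nonneg (sub_nonneg.2 hx') (sub_nonneg.2 this)]
    · have hF : 0 ≤ F (a, b) := by rw [h1 b a]; linarith [h3 b a hab]
      refine mul_nonpos_of_nonpos_of_nonneg (sub_nonpos.2 (Real.cosh_le_cosh.2 ?_)) hF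
      rw [abs_div, abs_div]
      refine div_le_div_of_nonneg_right (sq_le_sq.1 ?_) (abs_nonneg _)
      have : a ^ 2 ≤ b ^ 2 := sq_le_sq.2 hab
      nlinarith [mul_nonneg (sub_nonneg.2 hx') (sub_nonneg.2 this)]
  have h := mul_nonpos_of_nonneg_of_nonpos hA key
  rw [Real.cosh_eq, Real.cosh_eq] at h
  have e1 : Real.exp ((x₁ * a + x₂ * b) / s) = Real.exp (x₁ * a / s) * Real.exp (x₂ * b / s) := by
    rw [← Real.exp_add, add_div]
  have e2 : Real.exp (-((x₁ * a + x₂ * b) / s)) = Real.exp (-x₁ * a / s) * Real.exp (-x₂ * b / s) := by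
    rw [← Real.exp_add]; congr 1; ring
  have e3 : Real.exp ((x₂ * a + x₁ * b) / s) = Real.exp (x₂ * a / s) * Real.exp (x₁ * b / s) := by
    rw [← Real.exp_add, add_div]
  have e4 : Real.exp (-((x₂ * a + x₁ * b) / s)) = Real.exp (-x₂ * a / s) * Real.exp (-x₁ * b / s) := by
    rw [← Real.exp_add]; congr 1; ring
  rw [e1, e2, e3, e4] at h
  linarith

end Crest.Agent.R339.Cls
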