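import Crest.Agent.R339.Cls.Reg2

/-!
# Row 339 / Cls: regularity of the Cole–Hopf step
1. `D k (exp (m f)) = exp (m f) · p_k` with `p_k` bounded and smooth: use an inductive predicate
   (`D (j+1) f`, constants, `+`, `*`) whose members are bounded, differentiable, with derivative in the class.
2. `hasDerivAt_integral_of_dominated_loc_of_deriv_le` gives `hasDerivAt_Hk`; `continuous_of_dominated`
   (or `continuousAt_of_dominated`) gives `continuous_Hk`.
3. The ratios `r_k(s,y) = Hk k / Hk 0` are bounded uniformly in `(s,y)`, jointly continuous and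
   `r_k' = r_{k+1} - r_1 r_k`.  A second inductive class (functions of `(s,y)` generated by the ratios) contains
   `D (k+1) (ch m s f) y` for all `k`.
-/

set_option autoImplicit false
open MeasureTheory ProbabilityTheory Filter Topology

noncomputable section

namespace Crest.Agent.R339.Cls

variable {m s : ℝ} {f : ℝ → ℝ}

/-- Functions of `(s, y)` generated by the ratios `Hk k / Hk 0`. -/
inductive reg_RCl (m : ℝ) (f : ℝ → ℝ) : (ℝ → ℝ → ℝ) → Prop
  | ratio (k : ℕ) : reg_RCl m f fun s y => Hk m s f k y / Hk m s f 0 y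
  | const (c : ℝ) : reg_RCl m f fun _ _ => c
  | add {F G : ℝ → ℝ → ℝ} : reg_RCl m f F → reg_RCl m f G → reg_RCl m f fun s y => F s y + G s y
  | mul {F G : ℝ → ℝ → ℝ} : reg_RCl m f F → reg_RCl m f G → reg_RCl m f fun s y => F s y * G s y

theorem reg_Hk0_pos (hf : Reg f) (m s y : ℝ) : 0 < Hk m s f 0 y := by
  rw [Hk_zero]; exact Zs_pos hf.lip m s y

theorem reg_ratio_deriv (hf : Reg f) (m s : ℝ) (k : ℕ) (y : ℝ) :
    HasDerivAt (fun y => Hk m s f k y / Hk m s f 0 y)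
      (Hk m s f (k + 1) y / Hk m s f 0 y +
        -1 * (Hk m s f 1 y / Hk m s f 0 y * (Hk m s f k y / Hk m s f 0 y))) y := by
  have h0 := (reg_Hk0_pos hf m s y).ne'
  have h := (hasDerivAt_Hk hf m s k y).div (hasDerivAt_Hk hf m s 0 y) h0
  refine HasDerivAt.congr_deriv h ?_
  rw [zero_add]
  field_simp
  ring

theorem reg_RC (hf : Reg f) {F : ℝ → ℝ → ℝ} (hF : reg_RCl m f F) :
    (∃ C : ℝ, ∀ s y, |F s y| ≤ C) ∧ (Continuous fun p : ℝ × ℝ => F p.1 p.2) ∧
      ∃ F', reg_RCl m f F' ∧ ∀ s y, HasDerivAt (F s) (F' s y) y := by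
  induction hF with
  | ratio k =>
    refine ⟨?_, ?_, _, ((reg_RCl.ratio (k + 1)).add ((reg_RCl.const (-1)).mul
      ((reg_RCl.ratio 1).mul (reg_RCl.ratio k)))), fun s y => reg_ratio_deriv hf m s k y⟩
    · obtain ⟨C, hC⟩ := abs_Hk_le hf m k
      refine ⟨C, fun s y => ?_⟩
      have h0 := reg_Hk0_pos hf m s y
      rw [abs_div, abs_of_pos h0, div_le_iff₀ h0, Hk_zero]
      exact hC s y
    · exact (continuous_Hk hf m k).div (continuous_Hk hf m 0) fun p => (reg_Hk0_pos hf m _ _).ne'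
  | const c =>
    exact ⟨⟨|c|, fun _ _ => le_rfl⟩, continuous_const, _, reg_RCl.const 0,
      fun s y => hasDerivAt_const y c⟩
  | add hF hG ihF ihG =>
    obtain ⟨⟨C1, h1⟩, c1, F', hF', d1⟩ := ihF
    obtain ⟨⟨C2, h2⟩, c2, G', hG', d2⟩ := ihG
    exact ⟨⟨C1 + C2, fun s y => (abs_add_le _ _).trans (add_le_add (h1 s y) (h2 s y))⟩,
      c1.add c2, _, hF'.add hG', fun s y => (d1 s y).add (d2 s y)⟩
  | mul hF hG ihF ihG =>
    obtain ⟨⟨C1, h1⟩, c1, F', hF', d1⟩ := ihF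
    obtain ⟨⟨C2, h2⟩, c2, G', hG', d2⟩ := ihG
    refine ⟨⟨C1 * C2, fun s y => ?_⟩, c1.mul c2, _, (hF'.mul hG).add (hF.mul hG'),
      fun s y => (d1 s y).mul (d2 s y)⟩
    rw [abs_mul]
    exact mul_le_mul (h1 s y) (h2 s y) (abs_nonneg _) ((abs_nonneg _).trans (h1 s y))

theorem reg_ch_deriv (hf : Reg f) (m s y : ℝ) :
    HasDerivAt (ch m s f) (m⁻¹ * (Hk m s f 1 y / Hk m s f 0 y)) y := by
  have h := ((hasDerivAt_Hk hf m s 0 y).log (reg_Hk0_pos hf m s y).ne').const_mul m⁻¹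
  have h2 : ch m s f = fun y => m⁻¹ * Real.log (Hk m s f 0 y) := by
    funext y
    rw [ch, Hk_zero]
  rw [h2]
  exact h

theorem reg_D1 (hf : Reg f) (m s : ℝ) :
    D 1 (ch m s f) = fun y => m⁻¹ * (Hk m s f 1 y / Hk m s f 0 y) := by
  funext y
  rw [D, iteratedDeriv_one]
  exact (reg_ch_deriv hf m s y).deriv

theorem reg_mem (hf : Reg f) (_hm : 0 < m) (k : ℕ) :
    ∃ F, reg_RCl m f F ∧ ∀ s, D (k + 1) (ch m s f) = F s := by
  induction k with
  | zero => exact ⟨_, (reg_RCl.const m⁻¹).mul (reg_RCl.ratio 1), fun s => reg_D1 hf m s⟩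
  | succ k ih =>
    obtain ⟨F, hF, h⟩ := ih
    obtain ⟨-, -, F', hF', d⟩ := reg_RC hf hF
    refine ⟨F', hF', fun s => ?_⟩
    funext y
    rw [D_succ, h s]
    exact (d s y).deriv

theorem bdd_D_ch (hf : Reg f) (hm : 0 < m) (k : ℕ) :
    ∃ C : ℝ, ∀ s x, |D (k + 1) (ch m s f) x| ≤ C := by
  obtain ⟨F, hF, h⟩ := reg_mem hf hm k
  obtain ⟨⟨C, hC⟩, -, -⟩ := reg_RC hf hF
  exact ⟨C, fun s x => by rw [h s]; exact hC s x⟩

theorem continuous_D_ch (hf : Reg f) (hm : 0 < m) (k : ℕ) :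
    Continuous fun p : ℝ × ℝ => D k (ch m p.1 f) p.2 := by
  cases k with
  | zero =>
    have h : (fun p : ℝ × ℝ => D 0 (ch m p.1 f) p.2) =
        fun p : ℝ × ℝ => m⁻¹ * Real.log (Hk m p.1 f 0 p.2) := by
      funext p
      rw [D, iteratedDeriv_zero, ch, Hk_zero]
    rw [h]
    exact continuous_const.mul
      ((continuous_Hk hf m 0).log fun p => (reg_Hk0_pos hf m _ _).ne')
  | succ k =>
    obtain ⟨F, hF, h⟩ := reg_mem hf hm k
    obtain ⟨-, c, -⟩ := reg_RC hf hF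
    simpa only [h] using c

theorem reg_ch (hf : Reg f) (hm : 0 < m) (s : ℝ) : Reg (ch m s f) := by
  refine ⟨lip_ch hf.lip hm s, fun k => ?_, fun k => ?_⟩
  · cases k with
    | zero =>
      rw [D, iteratedDeriv_zero]
      exact fun y => (reg_ch_deriv hf m s y).differentiableAt
    | succ k =>
      obtain ⟨F, hF, h⟩ := reg_mem hf hm k
      obtain ⟨-, -, F', -, d⟩ := reg_RC hf hF
      rw [h s]
      exact fun y => (d s y).differentiableAt
  · obtain ⟨C, hC⟩ := bdd_D_ch hf hm k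
    exact ⟨C, hC s⟩

theorem D1_ch_Hk (hf : Reg f) (hm : 0 < m) (s y : ℝ) :
    D 1 (ch m s f) y = m⁻¹ * (Hk m s f 1 y / Hk m s f 0 y) := by
  rw [reg_D1 hf]

theorem D2_ch_Hk (hf : Reg f) (hm : 0 < m) (s y : ℝ) :
    D 2 (ch m s f) y = m⁻¹ * (Hk m s f 2 y / Hk m s f 0 y - (Hk m s f 1 y / Hk m s f 0 y) ^ 2) := by
  rw [show (2 : ℕ) = 1 + 1 from rfl, D_succ, reg_D1 hf,
    ((reg_ratio_deriv hf m s 1 y).const_mul m⁻¹).deriv]
  ring

theorem reg_Hk1 (hf : Reg f) (m s x : ℝ) :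
    Hk m s f 1 x = m * ∫ g, D 1 f (x + √s * g) * Real.exp (m * f (x + √s * g)) ∂γ1 := by
  rw [Hk, ← integral_const_mul]
  refine integral_congr_ae (Eventually.of_forall fun g => ?_)
  simp only [hf.D1_exp]
  ring

theorem reg_Hk2 (hf : Reg f) (m s x : ℝ) :
    Hk m s f 2 x = m * ∫ g, (D 2 f (x + √s * g) + m * D 1 f (x + √s * g) ^ 2) *
      Real.exp (m * f (x + √s * g)) ∂γ1 := by
  rw [Hk, ← integral_const_mul]
  refine integral_congr_ae (Eventually.of_forall fun g => ?_)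
  simp only [hf.D2_exp]
  ring

theorem D1_ch (hf : Reg f) (hm : 0 < m) (s x : ℝ) : D 1 (ch m s f) x = tE m s f (D 1 f) x := by
  rw [D1_ch_Hk hf hm, reg_Hk1 hf, Hk_zero, tE]
  field_simp

theorem D2_ch (hf : Reg f) (hm : 0 < m) (s x : ℝ) :
    D 2 (ch m s f) x =
      tE m s f (fun y => D 2 f y + m * D 1 f y ^ 2) x - m * tE m s f (D 1 f) x ^ 2 := by
  rw [D2_ch_Hk hf hm, reg_Hk1 hf, reg_Hk2 hf, Hk_zero, tE, tE]
  field_simp

end Crest.Agent.R339.Cls
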