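import Crest.Agent.R339.Cls.Base

/-!
# Row 339 / Cls: regularity of the Cole–Hopf step
1. `D k (exp (m f)) = exp (m f) · p_k` with `p_k` bounded and smooth: use an inductive predicate
   (`D (j+1) f`, constants, `+`, `*`) whose members are bounded, differentiable, with derivative in the class.
2. `hasDerivAt_integral_of_dominated_loc_of_deriv_le` gives `hasDerivAt_Hk`; `continuous_of_dominated`
   (or `continuousAt_of_dominated`) gives `continuous_Hk`.
3. The ratios `r_k(s,y) = Hk k / Hk 0` are bounded uniformly in `(s,y)`, jointly continuous and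
   `r_k' = r_{k+1} - r_1 r_k`.  A second inductive class (functions of `(s,y)` generated by the ratios) contains
   `D (k+1) (ch m s f) y` for all `k`.
-/

set_option autoImplicit false
open MeasureTheory ProbabilityTheory Filter Topology

noncomputable section

namespace Crest.Agent.R339.Cls

variable {m s : ℝ} {f : ℝ → ℝ}

theorem Reg.eg (hf : Reg f) (k : ℕ) : EG (D k f) := by
  refine ⟨(hf.diff k).continuous.measurable, ?_⟩
  cases k with
  | zero =>
    refine ⟨|f 0| + 1, fun x => ?_⟩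
    have h1 := hf.lip.dist_le_mul x 0
    rw [Real.dist_eq, Real.dist_eq, sub_zero, NNReal.coe_one, one_mul] at h1
    have h2 : |f x| ≤ |f 0| + |x| := by linarith [abs_sub_abs_le_abs_sub (f x) (f 0)]
    have h3 := Real.add_one_le_exp ((|f 0| + 1) * |x|)
    have h4 := abs_nonneg (f 0)
    have h5 := abs_nonneg x
    rw [D, iteratedDeriv_zero]
    refine h2.trans (le_trans ?_ (mul_le_mul_of_nonneg_left h3 (by positivity)))
    nlinarith [mul_nonneg h4 h5, mul_nonneg h4 (mul_nonneg h4 h5)]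
  | succ k =>
    obtain ⟨C, hC⟩ := hf.bdd k
    have h0 : 0 ≤ C := (abs_nonneg _).trans (hC 0)
    exact ⟨C, fun x => (hC x).trans (le_mul_of_one_le_right h0 (Real.one_le_exp (by positivity)))⟩

theorem Reg.abs_D1 (hf : Reg f) (x : ℝ) : |D 1 f x| ≤ 1 := by
  rw [D, iteratedDeriv_one]
  simpa using norm_deriv_le_of_lipschitz (x₀ := x) hf.lip

theorem Hk_zero (m s : ℝ) (f : ℝ → ℝ) : Hk m s f 0 = Zs m s f := by
  funext y
  simp only [Hk, Zs, D, iteratedDeriv_zero]

/-- polynomials in the derivatives of `f` -/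
inductive reg1P (f : ℝ → ℝ) : (ℝ → ℝ) → Prop
  | d (j : ℕ) : reg1P f (D (j + 1) f)
  | c (a : ℝ) : reg1P f fun _ => a
  | add {p q : ℝ → ℝ} : reg1P f p → reg1P f q → reg1P f fun x => p x + q x
  | mul {p q : ℝ → ℝ} : reg1P f p → reg1P f q → reg1P f fun x => p x * q x

theorem reg1_bdd (hf : Reg f) {p : ℝ → ℝ} (h : reg1P f p) : ∃ C : ℝ, ∀ x, |p x| ≤ C := by
  induction h with
  | d j => exact hf.bdd j
  | c a => exact ⟨|a|, fun _ => le_rfl⟩
  | add _ _ hp hq =>
    obtain ⟨C, hC⟩ := hp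
    obtain ⟨C', hC'⟩ := hq
    exact ⟨C + C', fun x => (abs_add_le _ _).trans (add_le_add (hC x) (hC' x))⟩
  | mul _ _ hp hq =>
    obtain ⟨C, hC⟩ := hp
    obtain ⟨C', hC'⟩ := hq
    exact ⟨C * C', fun x => by
      rw [abs_mul]; exact mul_le_mul (hC x) (hC' x) (abs_nonneg _) ((abs_nonneg _).trans (hC x))⟩

theorem reg1_deriv (hf : Reg f) {p : ℝ → ℝ} (h : reg1P f p) : ∃ p', reg1P f p' ∧ ∀ x, HasDerivAt p (p' x) x := by
  induction h with
  | d j => exact ⟨_, .d (j + 1), hf.hasDerivAt (j + 1)⟩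
  | c a => exact ⟨_, .c 0, fun x => hasDerivAt_const x a⟩
  | add _ _ hp hq =>
    obtain ⟨p', h1, h2⟩ := hp
    obtain ⟨q', h3, h4⟩ := hq
    exact ⟨_, h1.add h3, fun x => (h2 x).add (h4 x)⟩
  | mul hp0 hq0 hp hq =>
    obtain ⟨p', h1, h2⟩ := hp
    obtain ⟨q', h3, h4⟩ := hq
    exact ⟨_, (h1.mul hq0).add (hp0.mul h3), fun x => (h2 x).mul (h4 x)⟩

theorem reg1_exp (hf : Reg f) (m z : ℝ) :
    HasDerivAt (fun z => Real.exp (m * f z)) (m * D 1 f z * Real.exp (m * f z)) z := by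
  have h := hf.hasDerivAt 0 z
  rw [D, iteratedDeriv_zero] at h
  rw [mul_comm]
  exact (h.const_mul m).exp

theorem reg1_mul (hf : Reg f) (m : ℝ) {p p' : ℝ → ℝ} (h : ∀ x, HasDerivAt p (p' x) x) (z : ℝ) :
    HasDerivAt (fun z => p z * Real.exp (m * f z)) ((p' z + p z * (m * D 1 f z)) * Real.exp (m * f z)) z := by
  exact ((h z).mul (reg1_exp hf m z)).congr_deriv (by ring)

theorem reg1_form (hf : Reg f) (m : ℝ) (k : ℕ) :
    ∃ p, reg1P f p ∧ D k (fun z => Real.exp (m * f z)) = fun z => p z * Real.exp (m * f z) := by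
  induction k with
  | zero => exact ⟨_, .c 1, by simp [D]⟩
  | succ k ih =>
    obtain ⟨p, hp, e⟩ := ih
    obtain ⟨p', hp', hd⟩ := reg1_deriv hf hp
    refine ⟨_, hp'.add (hp.mul ((reg1P.c m).mul (.d 0))), ?_⟩
    rw [D_succ, e]
    exact funext fun z => (reg1_mul hf m hd z).deriv

theorem Reg.diff_exp (hf : Reg f) (m : ℝ) (k : ℕ) :
    Differentiable ℝ (D k fun z => Real.exp (m * f z)) := by
  obtain ⟨p, hp, e⟩ := reg1_form hf m k
  obtain ⟨p', hp', hd⟩ := reg1_deriv hf hp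
  rw [e]
  exact fun z => (reg1_mul hf m hd z).differentiableAt

theorem Reg.bdd_exp (hf : Reg f) (m : ℝ) (k : ℕ) :
    ∃ C : ℝ, ∀ z, |D k (fun z => Real.exp (m * f z)) z| ≤ C * Real.exp (m * f z) := by
  obtain ⟨p, hp, e⟩ := reg1_form hf m k
  obtain ⟨C, hC⟩ := reg1_bdd hf hp
  refine ⟨C, fun z => ?_⟩
  rw [e, abs_mul, abs_of_pos (Real.exp_pos _)]
  exact mul_le_mul_of_nonneg_right (hC z) (Real.exp_pos _).le

theorem Reg.D1_exp (hf : Reg f) (m z : ℝ) :
    D 1 (fun z => Real.exp (m * f z)) z = m * D 1 f z * Real.exp (m * f z) := by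
  rw [D, iteratedDeriv_one]
  exact (reg1_exp hf m z).deriv

theorem Reg.D2_exp (hf : Reg f) (m z : ℝ) :
    D 2 (fun z => Real.exp (m * f z)) z = (m * D 2 f z + (m * D 1 f z) ^ 2) * Real.exp (m * f z) := by
  rw [show D 2 (fun z => Real.exp (m * f z)) = deriv (D 1 fun z => Real.exp (m * f z)) from D_succ 1 _,
    show (D 1 fun z => Real.exp (m * f z)) = _ from funext (hf.D1_exp m), sq]
  exact (reg1_mul hf m (fun x => (hf.hasDerivAt 1 x).const_mul m) z).deriv

end Crest.Agent.R339.Cls
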