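import Crest.Agent.R339.Cls.Reg1

/-!
# Row 339 / Cls: regularity of the Cole–Hopf step
1. `D k (exp (m f)) = exp (m f) · p_k` with `p_k` bounded and smooth: use an inductive predicate
   (`D (j+1) f`, constants, `+`, `*`) whose members are bounded, differentiable, with derivative in the class.
2. `hasDerivAt_integral_of_dominated_loc_of_deriv_le` gives `hasDerivAt_Hk`; `continuous_of_dominated`
   (or `continuousAt_of_dominated`) gives `continuous_Hk`.
3. The ratios `r_k(s,y) = Hk k / Hk 0` are bounded uniformly in `(s,y)`, jointly continuous and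
   `r_k' = r_{k+1} - r_1 r_k`.  A second inductive class (functions of `(s,y)` generated by the ratios) contains
   `D (k+1) (ch m s f) y` for all `k`.
-/

set_option autoImplicit false
open MeasureTheory ProbabilityTheory Filter Topology

noncomputable section

namespace Crest.Agent.R339.Cls

variable {m s : ℝ} {f : ℝ → ℝ}

theorem reg2_int (c : ℝ) : Integrable (fun g : ℝ => Real.exp (c * |g|)) γ1 := by
  have h := (EG.exp_lip (f := fun x : ℝ => ‖x‖) lipschitzWith_one_norm c).integrable_gauss 1 0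
  simpa using h

theorem reg2_cont (hf : Reg f) (m : ℝ) (k : ℕ) : Continuous (D k fun z => Real.exp (m * f z)) :=
  (hf.diff_exp m k).continuous

theorem reg2_growth (hf : Reg f) (m : ℝ) (k : ℕ) : ∃ A : ℝ, 0 ≤ A ∧ ∀ z,
    |D k (fun z => Real.exp (m * f z)) z| ≤ A * Real.exp (|m| * |z|) := by
  obtain ⟨C, hC⟩ := hf.bdd_exp m k
  refine ⟨|C| * Real.exp (|m| * |f 0|), by positivity, fun z => (hC z).trans ?_⟩
  have h1 : |f z - f 0| ≤ |z| := by
    simpa [Real.dist_eq] using hf.lip.dist_le_mul z 0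
  have h2 : |f z| ≤ |f 0| + |z| := by
    have := abs_sub_abs_le_abs_sub (f z) (f 0)
    linarith
  have h3 : m * f z ≤ |m| * |f 0| + |m| * |z| := by
    calc m * f z ≤ |m * f z| := le_abs_self _
      _ = |m| * |f z| := abs_mul _ _
      _ ≤ |m| * (|f 0| + |z|) := mul_le_mul_of_nonneg_left h2 (abs_nonneg _)
      _ = _ := by ring
  rw [mul_assoc, ← Real.exp_add]
  exact mul_le_mul (le_abs_self _) (Real.exp_le_exp.2 h3) (Real.exp_pos _).le (abs_nonneg _)

theorem reg2_dom (hf : Reg f) (m : ℝ) (k : ℕ) (Y S : ℝ) : ∃ b : ℝ → ℝ, Integrable b γ1 ∧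
    ∀ y s g : ℝ, |y| ≤ Y → √s ≤ S → ‖D k (fun z => Real.exp (m * f z)) (y + √s * g)‖ ≤ b g := by
  obtain ⟨A, hA, h⟩ := reg2_growth hf m k
  refine ⟨fun g => A * Real.exp (|m| * Y) * Real.exp (|m| * S * |g|), (reg2_int _).const_mul _,
    fun y s g hy hs => ?_⟩
  rw [Real.norm_eq_abs]
  refine (h _).trans ?_
  simp only
  rw [mul_assoc A, ← Real.exp_add]
  refine mul_le_mul_of_nonneg_left (Real.exp_le_exp.2 ?_) hA
  have h1 : |y + √s * g| ≤ Y + S * |g| := by
    refine (abs_add_le _ _).trans (add_le_add hy ?_)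
    rw [abs_mul, abs_of_nonneg (Real.sqrt_nonneg s)]
    exact mul_le_mul_of_nonneg_right hs (abs_nonneg _)
  calc |m| * |y + √s * g| ≤ |m| * (Y + S * |g|) := mul_le_mul_of_nonneg_left h1 (abs_nonneg _)
    _ = _ := by ring

theorem reg2_meas (hf : Reg f) (m : ℝ) (k : ℕ) (y s : ℝ) :
    AEStronglyMeasurable (fun g => D k (fun z => Real.exp (m * f z)) (y + √s * g)) γ1 :=
  ((reg2_cont hf m k).comp (by fun_prop)).aestronglyMeasurable

theorem reg2_integrable (hf : Reg f) (m : ℝ) (k : ℕ) (y s : ℝ) :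
    Integrable (fun g => D k (fun z => Real.exp (m * f z)) (y + √s * g)) γ1 := by
  obtain ⟨b, hb, h⟩ := reg2_dom hf m k |y| √s
  exact hb.mono' (reg2_meas hf m k y s) (Eventually.of_forall fun g => h y s g le_rfl le_rfl)

theorem hasDerivAt_Hk (hf : Reg f) (m s : ℝ) (k : ℕ) (y : ℝ) :
    HasDerivAt (Hk m s f k) (Hk m s f (k + 1) y) y := by
  obtain ⟨b, hb, h⟩ := reg2_dom hf m (k + 1) (|y| + 1) √s
  refine (hasDerivAt_integral_of_dominated_loc_of_deriv_le (μ := γ1) (s := Metric.ball y 1) (bound := b)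
    (F := fun x g => D k (fun z => Real.exp (m * f z)) (x + √s * g))
    (F' := fun x g => D (k + 1) (fun z => Real.exp (m * f z)) (x + √s * g)) (Metric.ball_mem_nhds y one_pos)
    (Eventually.of_forall fun x => reg2_meas hf m k x s) (reg2_integrable hf m k y s) (reg2_meas hf m (k + 1) y s)
    (Eventually.of_forall fun g x hx => h x s g ?_ le_rfl) hb (Eventually.of_forall fun g x _ => ?_)).2
  · have h1 : |x - y| < 1 := by simpa [Real.dist_eq] using hx
    have h2 := abs_sub_abs_le_abs_sub x y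
    linarith
  · rw [D_succ]
    exact ((hf.diff_exp m k (x + √s * g)).hasDerivAt).comp_add_const x (√s * g)

theorem abs_Hk_le (hf : Reg f) (m : ℝ) (k : ℕ) : ∃ C : ℝ, ∀ s y, |Hk m s f k y| ≤ C * Zs m s f y := by
  obtain ⟨C, hC⟩ := hf.bdd_exp m k
  refine ⟨C, fun s y => ?_⟩
  unfold Hk Zs
  rw [← integral_const_mul, ← Real.norm_eq_abs]
  refine norm_integral_le_of_norm_le (((EG.exp_lip hf.lip m).integrable_gauss s y).const_mul C)
    (Eventually.of_forall fun g => ?_)
  rw [Real.norm_eq_abs]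
  exact hC _

theorem continuous_Hk (hf : Reg f) (m : ℝ) (k : ℕ) :
    Continuous fun p : ℝ × ℝ => Hk m p.1 f k p.2 := by
  refine continuous_iff_continuousAt.2 fun p => ?_
  obtain ⟨b, hb, h⟩ := reg2_dom hf m k (|p.2| + 1) (√p.1 + 1)
  have h1 : ∀ᶠ q : ℝ × ℝ in 𝓝 p, |q.2| < |p.2| + 1 :=
    (by fun_prop : Continuous fun q : ℝ × ℝ => |q.2|).continuousAt.eventually (gt_mem_nhds (lt_add_one _))
  have h2 : ∀ᶠ q : ℝ × ℝ in 𝓝 p, √q.1 < √p.1 + 1 :=
    (by fun_prop : Continuous fun q : ℝ × ℝ => √q.1).continuousAt.eventually (gt_mem_nhds (lt_add_one _))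
  refine continuousAt_of_dominated (μ := γ1) (bound := b)
    (F := fun (q : ℝ × ℝ) g => D k (fun z => Real.exp (m * f z)) (q.2 + √q.1 * g))
    (Eventually.of_forall fun q => reg2_meas hf m k q.2 q.1) ?_ hb (Eventually.of_forall fun g => ?_)
  · filter_upwards [h1, h2] with q hq1 hq2
    exact Eventually.of_forall fun g => h q.2 q.1 g hq1.le hq2.le
  · exact ((reg2_cont hf m k).comp (by fun_prop : Continuous fun q : ℝ × ℝ => q.2 + √q.1 * g)).continuousAt

end Crest.Agent.R339.Cls
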