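import Crest.Agent.R339.Cls.Base

/-!
# Row 339 / Cls: monotone transport of the Gaussian to the tilted kernel
Let `N(z) = γ1.real (Iic z)` (continuous, strictly increasing, onto `(0,1)`, `N(-z) = 1 - N z`) and
`A(x,z) = ∫_{g ≤ z} exp (m f(x+√s g)) dγ / Zs m s f x` (jointly continuous, strictly increasing in `z`, onto `(0,1)`).
Define `S(x,g)` by `A(x, S(x,g)) = N g` and `T x g = x + √s S(x,g)`.  Joint continuity of `S`: for `z₁ < S(p₀) < z₂`
the conditions `A(x,z₁) < N g < A(x,z₂)` are open (`tendsto_order`).  Law: `γ1 {g | S(x,g) ≤ z} = A(x,z)`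
(`Measure.ext_of_Iic`).  Bound `|S(x,g) - g| ≤ m √s`: likelihood ratio ordering: with `κ = m √s` the function
`g ↦ exp (m f(x+√s g) - κ g)` is antitone, so (Chebyshev / `∫_{≤z} a · ∫ b ≥ ∫_{≤ z} b · ∫ a` when `a/b` is
antitone) `A(x,z) ≥ N(z - κ)` (the Gaussian tilted by `exp (κ g)` is the Gaussian shifted by `κ`); the other
side by symmetry.
-/

set_option autoImplicit false
open MeasureTheory ProbabilityTheory Filter Topology

noncomputable section

namespace Crest.Agent.R339.Cls

open Set

/-- positive integrable weights -/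
structure TransW (w : ℝ → ℝ) : Prop where
  pos : ∀ g, 0 < w g
  int : Integrable w γ1

/-- partial mass -/
def transI (w : ℝ → ℝ) (z : ℝ) : ℝ := ∫ g in Iic z, w g ∂γ1

/-- distribution function of the tilted Gaussian -/
def transA (w : ℝ → ℝ) (z : ℝ) : ℝ := transI w z / ∫ g, w g ∂γ1

instance trans_null : NullSingletonClass γ1 := nullSingletonClass_gaussianReal one_ne_zero

theorem trans_one : TransW fun _ => 1 := ⟨fun _ => one_pos, integrable_const _⟩

theorem trans_exp (κ : ℝ) : TransW fun g => Real.exp (κ * g) :=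
  ⟨fun _ => Real.exp_pos _, integrable_exp_mul_gaussianReal κ⟩

theorem TransW.tot {w : ℝ → ℝ} (h : TransW w) : 0 < ∫ g, w g ∂γ1 := by
  rw [integral_pos_iff_support_of_nonneg (fun g => (h.pos g).le) h.int,
    show Function.support w = univ from eq_univ_of_forall fun g => (h.pos g).ne']
  simp

theorem TransW.cont {w : ℝ → ℝ} (h : TransW w) : Continuous (transA w) := by
  have e : transI w = fun z => transI w 0 + ∫ g in (0 : ℝ)..z, w g ∂γ1 := funext fun z => by
    rw [← intervalIntegral.integral_Iic_sub_Iic h.int.integrableOn h.int.integrableOn]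
    simp [transI]
  unfold transA
  rw [e]
  exact (continuous_const.add (h.int.continuous_primitive 0)).div_const _

theorem TransW.mono {w : ℝ → ℝ} (h : TransW w) : StrictMono (transA w) := by
  refine fun a b hab => div_lt_div_of_pos_right ?_ h.tot
  rw [← sub_pos, transI, transI, intervalIntegral.integral_Iic_sub_Iic h.int.integrableOn h.int.integrableOn,
    intervalIntegral.integral_of_le hab.le,
    setIntegral_pos_iff_support_of_nonneg_ae (ae_of_all _ fun g => (h.pos g).le) h.int.integrableOn,
    show Function.support w = univ from eq_univ_of_forall fun g => (h.pos g).ne', univ_inter, pos_iff_ne_zero]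
  intro h0
  have := gaussianReal_absolutelyContinuous' 0 one_ne_zero h0
  rw [Real.volume_Ioc, ENNReal.ofReal_eq_zero] at this
  linarith

theorem TransW.split {w : ℝ → ℝ} (h : TransW w) (z : ℝ) :
    ∫ g, w g ∂γ1 = transI w z + ∫ g in Ioi z, w g ∂γ1 := by
  rw [← integral_add_compl (measurableSet_Iic (a := z)) h.int, compl_Iic, transI]

/-- likelihood ratio ordering -/
theorem trans_lr {a b : ℝ → ℝ} (ha : TransW a) (hb : TransW b) (h : ∀ g g', g ≤ g' → a g' * b g ≤ a g * b g') (z : ℝ) :
    transA b z ≤ transA a z := by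
  have hbz := hb.pos z
  have h1 : a z * transI b z ≤ b z * transI a z := by
    rw [transI, transI, ← integral_const_mul, ← integral_const_mul]
    exact setIntegral_mono_on (hb.int.const_mul _).integrableOn (ha.int.const_mul _).integrableOn measurableSet_Iic
      fun g hg => (h g z hg).trans_eq (mul_comm _ _)
  have h2 : b z * ∫ g in Ioi z, a g ∂γ1 ≤ a z * ∫ g in Ioi z, b g ∂γ1 := by
    rw [← integral_const_mul, ← integral_const_mul]
    exact setIntegral_mono_on (ha.int.const_mul _).integrableOn (hb.int.const_mul _).integrableOn measurableSet_Ioi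
      fun g hg => (mul_comm _ _).trans_le (h z g (le_of_lt hg))
  have h3 : 0 ≤ transI b z := integral_nonneg fun g => (hb.pos g).le
  have h4 : 0 ≤ ∫ g in Ioi z, b g ∂γ1 := integral_nonneg fun g => (hb.pos g).le
  rw [transA, transA, div_le_div_iff₀ hb.tot ha.tot, ha.split z, hb.split z]
  refine le_of_mul_le_mul_left ?_ hbz
  nlinarith [mul_le_mul_of_nonneg_left h2 h3, mul_le_mul_of_nonneg_left h1 h4]

/-- Cameron-Martin -/
theorem trans_cm (κ : ℝ) (H : ℝ → ℝ) :
    ∫ g, H g * Real.exp (κ * g) ∂γ1 = Real.exp (κ ^ 2 / 2) * ∫ g, H (g + κ) ∂γ1 := by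
  rw [integral_gaussianReal_eq_integral_smul one_ne_zero, integral_gaussianReal_eq_integral_smul one_ne_zero,
    ← integral_const_mul, ← integral_add_right_eq_self _ κ]
  refine integral_congr_ae (ae_of_all _ fun g => ?_)
  have e : Real.exp (-(g + κ - 0) ^ 2 / (2 * 1)) * Real.exp (κ * (g + κ)) =
      Real.exp (κ ^ 2 / 2) * Real.exp (-(g - 0) ^ 2 / (2 * 1)) := by
    rw [← Real.exp_add, ← Real.exp_add]; congr 1; ring
  simp only [gaussianPDFReal, smul_eq_mul, NNReal.coe_one]
  linear_combination (√(2 * Real.pi * 1))⁻¹ * H (g + κ) * e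

theorem trans_shift (κ z : ℝ) : transA (fun g => Real.exp (κ * g)) z = transA (fun _ => 1) (z - κ) := by
  have h1 := trans_cm κ fun _ => 1
  have h2 := trans_cm κ ((Iic z).indicator fun _ => 1)
  have e1 : ∀ g, (Iic z).indicator (fun _ => (1 : ℝ)) g * Real.exp (κ * g) =
      (Iic z).indicator (fun g => Real.exp (κ * g)) g := fun g => by
    by_cases hg : g ∈ Iic z <;> simp [hg]
  have e2 : ∀ g, (Iic z).indicator (fun _ => (1 : ℝ)) (g + κ) = (Iic (z - κ)).indicator (fun _ => (1 : ℝ)) g := fun g => by
    simp only [indicator, mem_Iic, le_sub_iff_add_le]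
  simp only [e1, e2, integral_indicator measurableSet_Iic, one_mul] at h1 h2
  rw [transA, transA, transI, transI, h1, h2, mul_div_mul_left _ _ (Real.exp_pos _).ne']

theorem trans_neg (H : ℝ → ℝ) : ∫ g, H (-g) ∂γ1 = ∫ g, H g ∂γ1 := by
  rw [integral_gaussianReal_eq_integral_smul one_ne_zero, integral_gaussianReal_eq_integral_smul one_ne_zero,
    ← integral_neg_eq_self]
  simp [gaussianPDFReal]

theorem TransW.neg {w : ℝ → ℝ} (h : TransW w) (z : ℝ) : transA (fun g => w (-g)) (-z) = 1 - transA w z := by
  have h2 := trans_neg ((Ici z).indicator w)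
  have e : ∀ g, (Ici z).indicator w (-g) = (Iic (-z)).indicator (fun g => w (-g)) g := fun g => by
    simp only [indicator, mem_Ici, mem_Iic, le_neg (a := z)]
  simp only [e, integral_indicator measurableSet_Iic, integral_indicator measurableSet_Ici,
    integral_Ici_eq_integral_Ioi] at h2
  rw [transA, transA, trans_neg w, eq_sub_iff_add_eq, ← add_div, div_eq_one_iff_eq h.tot.ne', h.split z, transI, h2,
    add_comm]

theorem trans_cont {I : ℝ → ℝ} {m : ℝ} (h : ∀ x y, I x ≤ Real.exp (m * |x - y|) * I y) : Continuous I := by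
  refine continuous_iff_continuousAt.2 fun y => ?_
  have h1 : Continuous fun x => Real.exp (m * |x - y|) * I y := by fun_prop
  have h2 : Continuous fun x => Real.exp (-(m * |y - x|)) * I y := by fun_prop
  refine tendsto_of_tendsto_of_tendsto_of_le_of_le (by simpa using h2.tendsto y) (by simpa using h1.tendsto y)
    (fun x => ?_) fun x => h x y
  have := mul_le_mul_of_nonneg_left (h y x) (Real.exp_pos (-(m * |y - x|))).le
  rwa [← mul_assoc, ← Real.exp_add, neg_add_cancel, Real.exp_zero, one_mul] at this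

/-- the law of the quantile transform -/
theorem trans_law {w S : ℝ → ℝ} {κ : ℝ} (h : TransW w) (hw : Measurable w) (hκ : 0 ≤ κ) (hS : Measurable S)
    (h1 : ∀ z, transA (fun _ => 1) (z - κ) ≤ transA w z) (h2 : ∀ z, transA w z ≤ transA (fun _ => 1) (z + κ))
    (hA : ∀ g, transA w (S g) = transA (fun _ => 1) g) {H : ℝ → ℝ} (hH : Measurable H) :
    ∫ g, H (S g) ∂γ1 = (∫ g, H g * w g ∂γ1) / ∫ g, w g ∂γ1 := by
  have e : γ1.map S = γ1.withDensity fun g => ENNReal.ofReal (w g / ∫ g, w g ∂γ1) := by
    refine Measure.ext_of_Iic _ _ fun z => ?_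
    obtain ⟨g, -, hg⟩ := intermediate_value_Icc (by linarith : z - κ ≤ z + κ) trans_one.cont.continuousOn ⟨h1 z, h2 z⟩
    have e1 : S ⁻¹' Iic z = Iic g := Set.ext fun u => by
      rw [mem_preimage, mem_Iic, mem_Iic, ← h.mono.le_iff_le, hA, ← hg, trans_one.mono.le_iff_le]
    rw [Measure.map_apply hS measurableSet_Iic, e1, withDensity_apply _ measurableSet_Iic,
      ← ofReal_integral_eq_lintegral_ofReal (h.int.div_const _).integrableOn
        (ae_of_all _ fun g => (div_pos (h.pos g) h.tot).le), integral_div]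
    change _ = ENNReal.ofReal (transA w z)
    rw [← hg]
    simp [transA, transI]
  rw [← integral_map hS.aemeasurable hH.aestronglyMeasurable, e,
    integral_withDensity_eq_integral_toReal_smul (by fun_prop) (ae_of_all _ fun _ => ENNReal.ofReal_lt_top), ← integral_div]
  refine integral_congr_ae (ae_of_all _ fun g => ?_)
  simp only [ENNReal.toReal_ofReal (div_pos (h.pos g) h.tot).le, smul_eq_mul]
  ring

theorem transport {m s : ℝ} {f : ℝ → ℝ} (hf : LipschitzWith 1 f) (he : ∀ x, f (-x) = f x)
    (hm : 0 < m) (hs : 0 < s) : ∃ T : ℝ → ℝ → ℝ, Continuous (fun p : ℝ × ℝ => T p.1 p.2) ∧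
      (∀ x g, T (-x) (-g) = -T x g) ∧ (∀ x g, |T x g - x - √s * g| ≤ m * s) ∧
      ∀ F : ℝ → ℝ, Measurable F → ∀ x, ∫ g, F (T x g) ∂γ1 = tE m s f F x := by
  set w : ℝ → ℝ → ℝ := fun x g => Real.exp (m * f (x + √s * g)) with hw
  have hfc := hf.continuous
  have hW : ∀ x, TransW (w x) := fun x => ⟨fun _ => Real.exp_pos _, (EG.exp_lip hf m).integrable_gauss s x⟩
  have hss : 0 < √s := Real.sqrt_pos.2 hs
  have hκ : 0 ≤ m * √s := by positivity
  have hl : ∀ a b, |f a - f b| ≤ |a - b| := fun a b => by simpa [Real.dist_eq] using hf.dist_le_mul a b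
  have hl' : ∀ x g g', g ≤ g' → |m * f (x + √s * g') - m * f (x + √s * g)| ≤ m * √s * (g' - g) := fun x g g' hg => by
    rw [← mul_sub, abs_mul, abs_of_pos hm, mul_assoc]
    refine mul_le_mul_of_nonneg_left ((hl _ _).trans_eq ?_) hm.le
    rw [add_sub_add_left_eq_sub, ← mul_sub, abs_of_nonneg (mul_nonneg hss.le (sub_nonneg.2 hg))]
  have h1 : ∀ x z, transA (fun _ => 1) (z - m * √s) ≤ transA (w x) z := fun x z => by
    rw [← trans_shift]
    refine trans_lr (hW x) (trans_exp _) (fun g g' hg => ?_) z
    simp only [hw, ← Real.exp_add]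
    exact Real.exp_le_exp.2 (by linarith [(abs_le.1 (hl' x g g' hg)).2])
  have h2 : ∀ x z, transA (w x) z ≤ transA (fun _ => 1) (z + m * √s) := fun x z => by
    rw [← sub_neg_eq_add, ← trans_shift]
    refine trans_lr (trans_exp _) (hW x) (fun g g' hg => ?_) z
    simp only [hw, ← Real.exp_add]
    exact Real.exp_le_exp.2 (by linarith [(abs_le.1 (hl' x g g' hg)).1])
  have hex : ∀ x g, ∃ z ∈ Icc (g - m * √s) (g + m * √s), transA (w x) z = transA (fun _ => 1) g := fun x g =>
    intermediate_value_Icc (by linarith) (hW x).cont.continuousOn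
      ⟨by simpa using h2 x (g - m * √s), by simpa using h1 x (g + m * √s)⟩
  choose S hS hA using hex
  have hx : ∀ x y g, w x g ≤ Real.exp (m * |x - y|) * w y g := fun x y g => by
    simp only [hw, ← Real.exp_add]
    have := mul_le_mul_of_nonneg_left ((le_abs_self _).trans (hl (x + √s * g) (y + √s * g))) hm.le
    rw [add_sub_add_right_eq_sub] at this
    exact Real.exp_le_exp.2 (by linarith)
  have hc : ∀ z, Continuous fun x => transA (w x) z := fun z => by
    refine (trans_cont (m := m) fun x y => ?_).div (trans_cont (m := m) fun x y => ?_) fun x => (hW x).tot.ne'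
    · rw [transI, transI, ← integral_const_mul]
      exact integral_mono (hW x).int.integrableOn ((hW y).int.const_mul _).integrableOn (hx x y)
    · rw [← integral_const_mul]
      exact integral_mono (hW x).int ((hW y).int.const_mul _) (hx x y)
  have hSc : Continuous fun p : ℝ × ℝ => S p.1 p.2 := by
    refine continuous_iff_continuousAt.2 fun p => tendsto_order.2 ⟨fun a ha => ?_, fun a ha => ?_⟩
    · have := ((hc a).comp continuous_fst).continuousAt.eventually_lt
        (trans_one.cont.comp continuous_snd).continuousAt (x₀ := p) (((hW p.1).mono ha).trans_eq (hA p.1 p.2))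
      exact this.mono fun q hq => (hW q.1).mono.lt_iff_lt.1 (lt_of_lt_of_eq hq (hA q.1 q.2).symm)
    · have := (trans_one.cont.comp continuous_snd).continuousAt.eventually_lt
        ((hc a).comp continuous_fst).continuousAt (x₀ := p) ((hA p.1 p.2).symm.trans_lt ((hW p.1).mono ha))
      exact this.mono fun q hq => (hW q.1).mono.lt_iff_lt.1 (lt_of_eq_of_lt (hA q.1 q.2) hq)
  refine ⟨fun x g => x + √s * S x g, continuous_fst.add (continuous_const.mul hSc), fun x g => ?_, fun x g => ?_,
    fun F hF x => ?_⟩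
  · have e : w (-x) = fun g => w x (-g) := funext fun g => by
      simp only [hw]
      rw [← he (x + √s * -g)]
      congr 3
      ring
    have : S (-x) (-g) = -S x g := (hW (-x)).mono.injective (by
      rw [hA, e, (hW x).neg, hA, ← trans_one.neg])
    simp only [this]
    ring
  · have h3 : |S x g - g| ≤ m * √s := abs_le.2 ⟨by linarith [(hS x g).1], by linarith [(hS x g).2]⟩
    rw [show x + √s * S x g - x - √s * g = √s * (S x g - g) by ring, abs_mul, abs_of_pos hss]
    calc √s * |S x g - g| ≤ √s * (m * √s) := mul_le_mul_of_nonneg_left h3 hss.le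
      _ = m * s := by rw [mul_left_comm, Real.mul_self_sqrt hs.le]
  · exact trans_law (H := fun g => F (x + √s * g)) (hW x) (by simp only [hw]; fun_prop) hκ
      (hSc.comp (Continuous.prodMk_right x)).measurable (h1 x) (h2 x) (hA x) (by fun_prop)

end Crest.Agent.R339.Cls
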